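import Crest.Agent.R167.Calc

/-!
# rid 167, task Box: blocks in the square lattice
-/

set_option autoImplicit false
set_option linter.unusedSectionVars false

noncomputable section

namespace Crest.Agent.R167

open MeasureTheory Finset

variable {V E : Type} [Fintype V] [DecidableEq V] [Fintype E] [DecidableEq E]

namespace Geo

variable {M : Mod V E} {β : ℝ} (Γ : Geo M β)

theorem mem_EB {z : Fin 2 → ℤ} {l : ℕ} {e : E} : e ∈ Γ.EB z l ↔
    ∀ k, z k ≤ Γ.pos (M.src e) k ∧ Γ.pos (M.src e) k < z k + l := by simp [EB]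

theorem mem_UB {z : Fin 2 → ℤ} {l : ℕ} {x : V} : x ∈ Γ.UB z l ↔
    ∀ k, z k < Γ.pos x k ∧ Γ.pos x k < z k + l := by simp [UB]

theorem mem_Ann {c : Fin 2 → ℤ} {L : ℕ} {x : V} : x ∈ Γ.Ann c L ↔
    (∃ k, (L : ℤ) < |Γ.pos x k - c k|) ∧ ∀ k, |Γ.pos x k - c k| < 4 * L := by simp [Ann]

theorem box_cases (e : E) :
    (Γ.pos (M.tgt e) 0 = Γ.pos (M.src e) 0 ∧ Γ.pos (M.tgt e) 1 = Γ.pos (M.src e) 1) ∨
    (Γ.pos (M.tgt e) 0 = Γ.pos (M.src e) 0 + 1 ∧ Γ.pos (M.tgt e) 1 = Γ.pos (M.src e) 1) ∨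
    (Γ.pos (M.tgt e) 0 = Γ.pos (M.src e) 0 ∧ Γ.pos (M.tgt e) 1 = Γ.pos (M.src e) 1 + 1) := by
  rcases Γ.step e with h | h
  · rw [h]
    exact Or.inl ⟨rfl, rfl⟩
  · rw [h]
    generalize Γ.dir e = k
    fin_cases k <;> simp

/-- each coordinate increases by `0` or `1` along an edge -/
theorem pos_tgt (e : E) (k : Fin 2) : Γ.pos (M.src e) k ≤ Γ.pos (M.tgt e) k ∧
    Γ.pos (M.tgt e) k ≤ Γ.pos (M.src e) k + 1 := by
  rcases Γ.box_cases e with ⟨h0, h1⟩ | ⟨h0, h1⟩ | ⟨h0, h1⟩ <;> fin_cases k <;>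
    simp only [Fin.zero_eta, Fin.mk_one, Fin.isValue] <;> omega

theorem abs_dx_le (k : Fin 2) (e : E) : |Γ.dx k e| ≤ 1 := by
  obtain ⟨h1, h2⟩ := Γ.pos_tgt e k
  have h3 : (Γ.pos (M.src e) k : ℝ) ≤ Γ.pos (M.tgt e) k := by exact_mod_cast h1
  have h4 : (Γ.pos (M.tgt e) k : ℝ) ≤ Γ.pos (M.src e) k + 1 := by exact_mod_cast h2
  rw [dx, Mod.d, abs_le]
  constructor <;> linarith

theorem sum_abs_dx_le (e : E) : ∑ k, |Γ.dx k e| ≤ 1 := by
  rw [Fin.sum_univ_two]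
  rcases Γ.box_cases e with ⟨h0, h1⟩ | ⟨h0, h1⟩ | ⟨h0, h1⟩ <;> simp [dx, Mod.d, h0, h1]

/-- `Γ.inj` maps the block into `(Fintype.piFinset fun k => Ico (z k) (z k + l)) ×ˢ univ`. -/
theorem card_EB (z : Fin 2 → ℤ) (l : ℕ) : (Γ.EB z l).card ≤ 2 * l ^ 2 := by
  have h := Finset.card_le_card_of_injOn (s := Γ.EB z l)
    (t := (Fintype.piFinset fun k => Finset.Ico (z k) (z k + l)) ×ˢ (univ : Finset (Fin 2)))
    (fun e => (Γ.pos (M.src e), Γ.dir e)) (fun e he => by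
      have := Γ.mem_EB.1 (Finset.mem_coe.1 he)
      simp only [Finset.coe_product, Set.mem_prod, Finset.mem_coe, Fintype.mem_piFinset,
        Finset.mem_Ico, Finset.mem_univ, and_true]
      exact this) (Γ.inj.injOn)
  simp only [Finset.card_product, Fintype.card_piFinset, Int.card_Ico, add_sub_cancel_left,
    Int.toNat_natCast, Finset.prod_const, Finset.card_univ, Fintype.card_fin] at h
  omega

theorem box_sum_le (hβ : 0 ≤ β) {z : Fin 2 → ℤ} {l : ℕ} {g : E → ℝ} {u : ℝ} (hu0 : 0 ≤ u)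
    (hs : ∀ e, g e ≠ 0 → e ∈ Γ.EB z l) (hu : ∀ e, g e ≤ u) :
    ∑ e, M.b e * g e ≤ β * (2 * (l : ℝ) ^ 2) * u := by
  have e1 : ∑ e, M.b e * g e = ∑ e ∈ Γ.EB z l, M.b e * g e := by
    refine (Finset.sum_subset (Finset.subset_univ _) fun e _ he => ?_).symm
    have : g e = 0 := by
      by_contra hne
      exact he (hs e hne)
    rw [this, mul_zero]
  have h1 : ∑ e ∈ Γ.EB z l, M.b e * g e ≤ (Γ.EB z l).card • (β * u) :=
    Finset.sum_le_card_nsmul _ _ _ fun e _ =>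
      (mul_le_mul_of_nonneg_left (hu e) (M.hb e)).trans (mul_le_mul_of_nonneg_right (Γ.le e) hu0)
  have h2 : ((Γ.EB z l).card : ℝ) ≤ 2 * (l : ℝ) ^ 2 := by exact_mod_cast Γ.card_EB z l
  rw [nsmul_eq_mul] at h1
  have h3 := mul_le_mul_of_nonneg_right h2 (mul_nonneg hβ hu0)
  rw [e1]
  linarith

theorem A_le (hβ : 0 ≤ β) {z : Fin 2 → ℤ} {l : ℕ} {h : E → ℝ} {u : ℝ}
    (hs : ∀ e, h e ≠ 0 → e ∈ Γ.EB z l) (hu : ∀ e, |h e| ≤ u) :
    M.A h ≤ β * (2 * (l : ℝ) ^ 2) * u ^ 2 := by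
  refine Γ.box_sum_le hβ (g := fun e => h e ^ 2) (sq_nonneg u) (fun e he => hs e ?_) fun e => ?_
  · exact fun h0 => he (by simp [h0])
  · rw [← sq_abs]
    exact pow_le_pow_left₀ (abs_nonneg _) (hu e) 2

theorem sum_abs_le (hβ : 0 ≤ β) {z : Fin 2 → ℤ} {l : ℕ} {h : E → ℝ} {u : ℝ} (hu0 : 0 ≤ u)
    (hs : ∀ e, h e ≠ 0 → e ∈ Γ.EB z l) (hu : ∀ e, |h e| ≤ u) :
    ∑ e, M.b e * |h e| ≤ β * (2 * (l : ℝ) ^ 2) * u := by
  exact Γ.box_sum_le hβ (g := fun e => |h e|) hu0 (fun e he => hs e (abs_ne_zero.1 he)) hu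

theorem mem_EB_of_touch {z : Fin 2 → ℤ} {l : ℕ} {e : E} (h : M.touch (Γ.UB z l) e) :
    e ∈ Γ.EB z l := by
  rw [mem_EB]
  intro k
  have h1 := Γ.pos_tgt e k
  rcases h with h | h
  · have := Γ.mem_UB.1 h k
    omega
  · have := Γ.mem_UB.1 h k
    omega

/-- if `f` vanishes outside the interior of a block, then `d f` vanishes outside its edges -/
theorem mem_EB_of_d_ne {z : Fin 2 → ℤ} {l : ℕ} {f : V → ℝ} (hf : ∀ x ∉ Γ.UB z l, f x = 0) {e : E}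
    (he : M.d f e ≠ 0) : e ∈ Γ.EB z l := by
  refine Γ.mem_EB_of_touch ?_
  by_contra hn
  unfold Mod.touch at hn
  rw [not_or] at hn
  exact he (by simp [Mod.d, hf _ hn.1, hf _ hn.2])

theorem mem_EB_iff_div {z i : Fin 2 → ℤ} {l : ℕ} (hl : 1 ≤ l) {e : E} :
    e ∈ Γ.EB (fun k => z k + l * i k) l ↔ ∀ k, (Γ.pos (M.src e) k - z k) / l = i k := by
  rw [mem_EB]
  refine forall_congr' fun k => ?_
  have hl' : (0 : ℤ) < l := by exact_mod_cast hl
  rw [Int.ediv_eq_iff_of_pos hl']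
  constructor <;> rintro ⟨h1, h2⟩ <;> constructor <;> linarith

/-- the blocks of a grid form a family -/
theorem fam {Λ : Finset V} (z : Fin 2 → ℤ) {l : ℕ} (hl : 1 ≤ l) (I : Finset (Fin 2 → ℤ))
    (h : ∀ i ∈ I, Γ.UB (fun k => z k + l * i k) l ⊆ Λ) :
    M.Fam Λ I (fun i => Γ.UB (fun k => z k + l * i k) l)
      (fun i => Γ.EB (fun k => z k + l * i k) l) := by
  have hE : ∀ i j : Fin 2 → ℤ, i ≠ j → Disjoint (Γ.EB (fun k => z k + l * i k) l)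
      (Γ.EB (fun k => z k + l * j k) l) := by
    intro i j hij
    rw [Finset.disjoint_left]
    intro e h1 h2
    rw [Γ.mem_EB_iff_div hl] at h1 h2
    exact hij (funext fun k => (h1 k).symm.trans (h2 k))
  refine ⟨h, fun i _ j _ hij => ?_, fun i _ j _ hij => hE i j hij,
    fun i _ e he => Γ.mem_EB_of_touch he⟩
  rw [Finset.disjoint_left]
  intro x h1 h2
  rw [mem_UB] at h1 h2
  have hl' : (0 : ℤ) < l := by exact_mod_cast hl
  refine hij (funext fun k => ?_)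
  obtain ⟨a1, a2⟩ := h1 k
  obtain ⟨b1, b2⟩ := h2 k
  have c1 : (l : ℤ) * i k < l * (j k + 1) := by linarith
  have c2 : (l : ℤ) * j k < l * (i k + 1) := by linarith
  have d1 := lt_of_mul_lt_mul_left c1 hl'.le
  have d2 := lt_of_mul_lt_mul_left c2 hl'.le
  omega

theorem Fits.sub {Λ : Finset V} {z : Fin 2 → ℤ} {l : ℕ} (h : Γ.Fits Λ z l) : Γ.UB z l ⊆ Λ := by
  intro x hx
  refine h x fun k => ?_
  have := Γ.mem_UB.1 hx k
  omega

/-- the gradient of a product of functions of the two coordinates (`k.rev` is the other index) -/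
theorem d_prod (F : Fin 2 → ℤ → ℝ) (e : E) :
    M.d (fun x => ∏ k, F k (Γ.pos x k)) e = ∑ k, Γ.dx k e *
      ((F k (Γ.pos (M.src e) k + 1) - F k (Γ.pos (M.src e) k)) *
        F k.rev (Γ.pos (M.src e) k.rev)) := by
  have r0 : (0 : Fin 2).rev = 1 := rfl
  have r1 : (1 : Fin 2).rev = 0 := rfl
  rcases Γ.box_cases e with ⟨h0, h1⟩ | ⟨h0, h1⟩ | ⟨h0, h1⟩ <;>
    simp only [Fin.sum_univ_two, Fin.prod_univ_two, dx, Mod.d, h0, h1, r0, r1] <;>
    push_cast <;> ring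

theorem abs_d_prod_le {F : Fin 2 → ℤ → ℝ} {u : ℝ} (h1 : ∀ k t, |F k t| ≤ 1)
    (h2 : ∀ k t, |F k (t + 1) - F k t| ≤ u) (e : E) :
    |M.d (fun x => ∏ k, F k (Γ.pos x k)) e| ≤ u := by
  have hu : 0 ≤ u := (abs_nonneg _).trans (h2 0 0)
  rw [Γ.d_prod]
  refine (Finset.abs_sum_le_sum_abs _ _).trans ?_
  calc _ ≤ ∑ k, |Γ.dx k e| * u := by
        refine Finset.sum_le_sum fun k _ => ?_
        rw [abs_mul, abs_mul]
        refine mul_le_mul_of_nonneg_left ?_ (abs_nonneg _)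
        have := mul_le_mul (h2 k (Γ.pos (M.src e) k)) (h1 k.rev (Γ.pos (M.src e) k.rev))
          (abs_nonneg _) hu
        linarith
    _ ≤ u := by
        rw [← Finset.sum_mul]
        exact mul_le_of_le_one_left hu (Γ.sum_abs_dx_le e)

end Geo

end Crest.Agent.R167
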