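import Crest.Agent.R167.Defs

/-!
# rid 167, task Calc: the calculus of conditional expectations
-/

set_option autoImplicit false
set_option linter.unusedSectionVars false

noncomputable section

namespace Crest.Agent.R167

open MeasureTheory Finset

variable {V E : Type} [Fintype V] [DecidableEq V] [Fintype E] [DecidableEq E]

/-- `Measure.pi_eq` on boxes: the preimage of a box is a product of two boxes. -/
theorem measurePreserving_pw {X : Type*} [MeasurableSpace X] (μ : Measure X)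
    [IsProbabilityMeasure μ] (U : Finset V) :
    MeasurePreserving (fun p : (V → X) × (V → X) => U.piecewise p.1 p.2)
      ((Measure.pi fun _ => μ).prod (Measure.pi fun _ => μ)) (Measure.pi fun _ => μ) := by
  have hm : Measurable (fun p : (V → X) × (V → X) => U.piecewise p.1 p.2) := by
    refine measurable_pi_lambda _ fun x => ?_
    by_cases h : x ∈ U
    · simp only [Finset.piecewise_eq_of_mem _ _ _ h]; fun_prop
    · simp only [Finset.piecewise_eq_of_notMem _ _ _ h]; fun_prop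
  refine ⟨hm, (Measure.pi_eq fun s hs => ?_).symm⟩
  rw [Measure.map_apply hm (MeasurableSet.univ_pi hs)]
  have : (fun p : (V → X) × (V → X) => U.piecewise p.1 p.2) ⁻¹' Set.pi Set.univ s =
      (Set.pi Set.univ fun x => if x ∈ U then s x else Set.univ) ×ˢ
        (Set.pi Set.univ fun x => if x ∈ U then Set.univ else s x) := by
    ext p
    simp only [Set.mem_preimage, Set.mem_pi, Set.mem_univ, true_implies, Set.mem_prod]
    constructor
    · intro h
      refine ⟨fun x => ?_, fun x => ?_⟩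
      · by_cases hx : x ∈ U
        · simpa [hx] using h x
        · simp [hx]
      · by_cases hx : x ∈ U
        · simp [hx]
        · simpa [hx] using h x
    · rintro ⟨h1, h2⟩ x
      by_cases hx : x ∈ U
      · simpa [hx] using h1 x
      · simpa [hx] using h2 x
  rw [this, Measure.prod_prod, Measure.pi_pi, Measure.pi_pi, ← Finset.prod_mul_distrib]
  refine Finset.prod_congr rfl fun x _ => ?_
  by_cases hx : x ∈ U <;> simp [hx]

/-- `measurePreserving_pw` and Fubini (`integrable_cont`). -/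
theorem integral_pw {X : Type*} [TopologicalSpace X] [CompactSpace X] [SecondCountableTopology X]
    [MeasurableSpace X] [BorelSpace X] (μ : Measure X) [IsProbabilityMeasure μ] (U : Finset V)
    {F : (V → X) → ℝ} (hF : Continuous F) :
    ∫ ξ, ∫ σ, F (U.piecewise σ ξ) ∂(Measure.pi fun _ => μ) ∂(Measure.pi fun _ => μ) =
      ∫ σ, F σ ∂(Measure.pi fun _ => μ) := by
  have h := measurePreserving_pw μ U
  have hc : Continuous fun p : (V → X) × (V → X) => F (U.piecewise p.1 p.2) := by fun_prop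
  rw [← integral_prod_symm (fun p : (V → X) × (V → X) => F (U.piecewise p.1 p.2))
    (integrable_cont _ hc)]
  conv_rhs => rw [← h.map_eq]
  rw [integral_map h.measurable.aemeasurable hF.aestronglyMeasurable]

/-- The finite analogue: `(x, y) ↦ (U.piecewise x y, U.piecewise y x)` is an involution. -/
theorem sum_pw {X : Type*} [Fintype X] (U : Finset V) (F : (V → X) → ℝ) :
    ∑ ξ : V → X, ∑ σ : V → X, F (U.piecewise σ ξ) = Fintype.card (V → X) * ∑ σ, F σ := by
  have hinv : Function.Involutive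
      fun p : (V → X) × (V → X) => (U.piecewise p.2 p.1, U.piecewise p.1 p.2) := by
    rintro ⟨x, y⟩
    ext v <;> by_cases hv : v ∈ U <;> simp [hv]
  rw [← Fintype.sum_prod_type' (fun ξ σ : V → X => F (U.piecewise σ ξ))]
  rw [Fintype.sum_bijective _ hinv.bijective _ (fun p : (V → X) × (V → X) => F p.1)
    (fun _ => rfl), Fintype.sum_prod_type]
  simp [Finset.mul_sum]

/-- `U.piecewise σ' (U'.piecewise σ ξ) = U'.piecewise (U.piecewise σ' σ) ξ` and `integral_pw`. -/
theorem avg_avg {U U' : Finset V} (h : U ⊆ U') (G : Fn V) : avg U' (avg U G) = avg U' G := by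
  ext ξ
  simp only [avg_apply, piM]
  rw [← integral_pw nu U (F := fun σ => G (U'.piecewise σ ξ)) (by fun_prop)]
  refine integral_congr_ae (Filter.Eventually.of_forall fun σ => ?_)
  refine integral_congr_ae (Filter.Eventually.of_forall fun σ' => ?_)
  simp only
  congr 1
  funext x
  by_cases hx : x ∈ U
  · simp [hx, h hx]
  · by_cases hx' : x ∈ U' <;> simp [hx, hx']

section Ind

variable {U U' : Finset V} {F G : Fn V}

theorem Ind.mono (h : Ind U G) (hU : U' ⊆ U) : Ind U' G := by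
  intro σ ξ
  rw [← h (U'.piecewise σ ξ) ξ]
  congr 1
  funext x
  by_cases hx : x ∈ U'
  · simp [hx, hU hx]
  · by_cases hx' : x ∈ U <;> simp [hx, hx']
theorem ind_const (U : Finset V) (c : ℝ) : Ind U (ContinuousMap.const (Cfg V) c) := fun _ _ => rfl
theorem ind_zero (U : Finset V) : Ind U (0 : Fn V) := fun _ _ => rfl
theorem ind_one (U : Finset V) : Ind U (1 : Fn V) := fun _ _ => rfl
theorem Ind.add (hF : Ind U F) (hG : Ind U G) : Ind U (F + G) := fun σ ξ => by
  simp [hF σ ξ, hG σ ξ]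
theorem Ind.sub (hF : Ind U F) (hG : Ind U G) : Ind U (F - G) := fun σ ξ => by
  simp [hF σ ξ, hG σ ξ]
theorem Ind.neg (hF : Ind U F) : Ind U (-F) := fun σ ξ => by simp [hF σ ξ]
theorem Ind.mul (hF : Ind U F) (hG : Ind U G) : Ind U (F * G) := fun σ ξ => by
  simp [hF σ ξ, hG σ ξ]
theorem Ind.smul (hF : Ind U F) (c : ℝ) : Ind U (c • F) := fun σ ξ => by simp [hF σ ξ]
theorem Ind.expF (hF : Ind U F) : Ind U (expF F) := fun σ ξ => by simp [hF σ ξ]
theorem ind_sum {ι : Type*} (s : Finset ι) {f : ι → Fn V} (h : ∀ i ∈ s, Ind U (f i)) :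
    Ind U (∑ i ∈ s, f i) :=
  Finset.sum_induction f (Ind U) (fun _ _ => Ind.add) (ind_zero U) h
theorem ind_prod {ι : Type*} (s : Finset ι) {f : ι → Fn V} (h : ∀ i ∈ s, Ind U (f i)) :
    Ind U (∏ i ∈ s, f i) :=
  Finset.prod_induction f (Ind U) (fun _ _ => Ind.mul) (ind_one U) h
theorem ind_sp {x : V} (hx : x ∉ U) (a : Fin 3) : Ind U (sp x a) := fun σ ξ => by
  simp [Finset.piecewise_eq_of_notMem _ _ _ hx]
theorem ind_avg (U : Finset V) (G : Fn V) : Ind U (avg U G) := by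
  intro σ ξ
  simp only [avg_apply]
  refine integral_congr_ae (Filter.Eventually.of_forall fun σ' => ?_)
  simp only
  congr 1
  funext x
  by_cases hx : x ∈ U <;> simp [hx]
theorem Ind.avg_mul (hF : Ind U F) (G : Fn V) : avg U (F * G) = F * avg U G := by
  ext ξ
  simp only [avg_apply, ContinuousMap.mul_apply, hF _ ξ]
  exact integral_const_mul _ _
/-- `U.piecewise σ (U'.piecewise σ' ξ) = U'.piecewise σ' (U.piecewise σ ξ)` -/
theorem Ind.avg (hG : Ind U' G) (h : Disjoint U U') : Ind U' (avg U G) := by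
  intro σ ξ
  simp only [avg_apply]
  refine integral_congr_ae (Filter.Eventually.of_forall fun σ' => ?_)
  simp only
  rw [← hG σ (U.piecewise σ' ξ)]
  congr 1
  funext x
  by_cases hx : x ∈ U
  · simp [hx, Finset.disjoint_left.1 h hx]
  · by_cases hx' : x ∈ U' <;> simp [hx, hx']

end Ind

namespace Mod

variable (M : Mod V E) {Λ U U' : Finset V} {F G : Fn V}

theorem ind_N (U : Finset V) (G : Fn V) : Ind U (M.N U G) := ind_avg _ _
theorem ind_Pi (U : Finset V) (G : Fn V) : Ind U (M.Pi U G) := by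
  intro σ ξ
  rw [Pi_apply, Pi_apply, M.ind_N U G σ ξ, M.ind_N U 1 σ ξ]
theorem Pi_one (U : Finset V) : M.Pi U 1 = 1 := by
  ext ξ
  rw [Pi_apply, div_self (M.N_one_pos U ξ).ne']; rfl
theorem Pi_mul (hF : Ind U F) (G : Fn V) : M.Pi U (F * G) = F * M.Pi U G := by
  rw [Pi_eq, Pi_eq, N_eq, N_eq, mul_assoc, hF.avg_mul, mul_assoc]
theorem Pi_of_ind (hF : Ind U F) : M.Pi U F = F := by
  simpa [M.Pi_one] using M.Pi_mul hF 1
theorem Pi_nonneg (U : Finset V) (h : ∀ σ, 0 ≤ G σ) (ξ : Cfg V) : 0 ≤ M.Pi U G ξ := by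
  rw [Pi_apply]
  refine div_nonneg ?_ (M.N_one_pos U ξ).le
  rw [N_apply]
  exact integral_nonneg fun σ => mul_nonneg (h _) (Real.exp_pos _).le
theorem Pi_pos (U : Finset V) (h : ∀ σ, 0 < G σ) (ξ : Cfg V) : 0 < M.Pi U G ξ := by
  rw [Pi_apply]
  refine div_pos ?_ (M.N_one_pos U ξ)
  exact avg_pos U (fun σ => mul_pos (h σ) (Real.exp_pos _)) ξ
theorem Pi_mono (U : Finset V) (h : ∀ σ, F σ ≤ G σ) (ξ : Cfg V) : M.Pi U F ξ ≤ M.Pi U G ξ := by
  have := M.Pi_nonneg U (G := G - F) (fun σ => sub_nonneg.2 (h σ)) ξ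
  rw [map_sub] at this
  exact sub_nonneg.1 this
theorem Pi_const (U : Finset V) (c : ℝ) (ξ : Cfg V) :
    M.Pi U (ContinuousMap.const (Cfg V) c) ξ = c := by
  rw [M.Pi_of_ind (ind_const U c)]; rfl
theorem abs_Pi_le (U : Finset V) {c : ℝ} (h : ∀ σ, |G σ| ≤ c) (ξ : Cfg V) : |M.Pi U G ξ| ≤ c := by
  rw [abs_le]
  constructor
  · rw [← M.Pi_const U (-c) ξ]
    exact M.Pi_mono U (fun σ => (abs_le.1 (h σ)).1) ξ
  · rw [← M.Pi_const U c ξ]
    exact M.Pi_mono U (fun σ => (abs_le.1 (h σ)).2) ξ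
/-- Tower property: `N U' (Pi U G) = avg U' (avg U (Pi U G * w)) = avg U' (Pi U G * N U 1) =
avg U' (N U G) = N U' G`. -/
theorem Pi_Pi (h : U ⊆ U') (G : Fn V) : M.Pi U' (M.Pi U G) = M.Pi U' G := by
  have h1 : M.Pi U G * M.N U 1 = M.N U G := by
    ext ξ
    rw [ContinuousMap.mul_apply, Pi_apply, div_mul_cancel₀ _ (M.N_one_pos U ξ).ne']
  have h2 : M.N U' (M.Pi U G) = M.N U' G := by
    rw [N_eq, ← avg_avg h, (M.ind_Pi U G).avg_mul, ← one_mul (expF M.ham), ← N_eq, h1, N_eq,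
      avg_avg h, N_eq]
  rw [M.Pi_eq U', h2, M.Pi_eq U']
/-- Locality.  Split `ham = H₁ + H₂` into the edges touching `U` and the others: `Ind U' H₁`,
`Ind U H₂`, so `Pi U G ξ = avg U (G * expF H₁) ξ / avg U (expF H₁) ξ`; use `Ind.avg`. -/
theorem ind_Pi_of_ind (hG : Ind U' G) (h : Disjoint U U')
    (he : ∀ e, M.touch U e → ¬ M.touch U' e) : Ind U' (M.Pi U G) := by
  have hind : ∀ (T : Finset V) (s : Finset E), (∀ e ∈ s, ¬ M.touch T e) →
      Ind T (∑ e ∈ s, M.b e • ∑ a, sp (M.src e) a * sp (M.tgt e) a) := by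
    intro T s hs
    refine ind_sum _ fun e he => Ind.smul (ind_sum _ fun a _ => ?_) _
    have := not_or.1 (hs e he)
    exact (ind_sp this.1 a).mul (ind_sp this.2 a)
  set H₁ : Fn V := ∑ e ∈ univ.filter (M.touch U), M.b e • ∑ a, sp (M.src e) a * sp (M.tgt e) a
    with hH₁
  set H₂ : Fn V := ∑ e ∈ univ.filter (fun e => ¬ M.touch U e),
    M.b e • ∑ a, sp (M.src e) a * sp (M.tgt e) a with hH₂
  have hsplit : expF M.ham = expF H₂ * expF H₁ := by
    rw [← expF_add, add_comm, hH₁, hH₂, Finset.sum_filter_add_sum_filter_not]; rfl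
  have i1 : Ind U' (expF H₁) := (hind U' _ fun e h => he e (mem_filter.1 h).2).expF
  have i2 : Ind U (expF H₂) := (hind U _ fun e h => (mem_filter.1 h).2).expF
  have hN : ∀ G : Fn V, M.N U G = expF H₂ * avg U (G * expF H₁) := by
    intro G
    rw [N_eq, hsplit, mul_left_comm, i2.avg_mul]
  have hP : ∀ ξ, M.Pi U G ξ = avg U (G * expF H₁) ξ / avg U (1 * expF H₁) ξ := by
    intro ξ
    rw [Pi_apply, hN, hN, ContinuousMap.mul_apply, ContinuousMap.mul_apply, expF_apply,
      mul_div_mul_left _ _ (Real.exp_pos _).ne']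
  intro σ ξ
  rw [hP, hP, (hG.mul i1).avg h σ ξ, ((ind_one U').mul i1).avg h σ ξ]

theorem Ex_one (Λ : Finset V) : M.Ex Λ 1 = 1 := by rw [Ex_apply, Pi_one]; rfl
theorem Ex_const (Λ : Finset V) (c : ℝ) : M.Ex Λ (ContinuousMap.const (Cfg V) c) = c :=
  M.Pi_const _ _ _
theorem Ex_nonneg (Λ : Finset V) (h : ∀ σ, 0 ≤ G σ) : 0 ≤ M.Ex Λ G := M.Pi_nonneg _ h _
theorem Ex_mono (Λ : Finset V) (h : ∀ σ, F σ ≤ G σ) : M.Ex Λ F ≤ M.Ex Λ G := M.Pi_mono _ h _
theorem Ex_le (Λ : Finset V) {c : ℝ} (h : ∀ σ, G σ ≤ c) : M.Ex Λ G ≤ c :=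
  (M.Ex_mono Λ (G := ContinuousMap.const _ c) h).trans_eq (M.Ex_const Λ c)
theorem Ex_mul_self_nonneg (Λ : Finset V) (G : Fn V) : 0 ≤ M.Ex Λ (G * G) :=
  M.Ex_nonneg Λ fun _ => mul_self_nonneg _
theorem Ex_Pi (h : U ⊆ Λ) (G : Fn V) : M.Ex Λ (M.Pi U G) = M.Ex Λ G := by
  rw [Ex_apply, M.Pi_Pi h, Ex_apply]
/-- Cauchy–Schwarz (`discrim_le_zero`, or `LinearMap.BilinForm.apply_sq_le_of_symm`). -/
theorem Ex_mul_sq_le (Λ : Finset V) (F G : Fn V) :
    M.Ex Λ (F * G) ^ 2 ≤ M.Ex Λ (F * F) * M.Ex Λ (G * G) := by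
  have h : ∀ t : ℝ, 0 ≤ M.Ex Λ (G * G) * (t * t) + (2 * M.Ex Λ (F * G)) * t + M.Ex Λ (F * F) := by
    intro t
    have := M.Ex_mul_self_nonneg Λ (F + t • G)
    have e : (F + t • G) * (F + t • G) = (t * t) • (G * G) + (2 * t) • (F * G) + F * F := by
      ext σ; simp; ring
    rw [e, map_add, map_add, map_smul, map_smul, smul_eq_mul, smul_eq_mul] at this
    linarith
  have := discrim_le_zero h
  rw [discrim] at this
  nlinarith
/-- Jensen: `exp x ≥ exp m * (1 + (x - m))` with `m = Ex F`. -/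
theorem exp_Ex_le (Λ : Finset V) (F : Fn V) : Real.exp (M.Ex Λ F) ≤ M.Ex Λ (expF F) := by
  set m := M.Ex Λ F with hm
  have h : ∀ σ, (Real.exp m • (F + ContinuousMap.const (Cfg V) (1 - m))) σ ≤ expF F σ := by
    intro σ
    have := Real.add_one_le_exp (F σ - m)
    have e : Real.exp (F σ) = Real.exp m * Real.exp (F σ - m) := by
      rw [← Real.exp_add]; congr 1; ring
    simp only [ContinuousMap.smul_apply, ContinuousMap.add_apply, ContinuousMap.const_apply,
      smul_eq_mul, expF_apply, e]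
    exact mul_le_mul_of_nonneg_left (by linarith) (Real.exp_pos _).le
  have := M.Ex_mono Λ h
  rw [map_smul, map_add, Ex_const, smul_eq_mul, ← hm] at this
  simpa using this

theorem Pi_fl (U : Finset V) (G : Fn V) : M.Pi U (M.fl U G) = 0 := by
  rw [fl, map_sub, M.Pi_Pi le_rfl, sub_self]
theorem fl_add (U : Finset V) (F G : Fn V) : M.fl U (F + G) = M.fl U F + M.fl U G := by
  simp only [fl, map_add]; abel
theorem fl_smul (U : Finset V) (c : ℝ) (F : Fn V) : M.fl U (c • F) = c • M.fl U F := by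
  simp only [fl, map_smul, smul_sub]
theorem fl_of_ind (hF : Ind U F) : M.fl U F = 0 := by rw [fl, M.Pi_of_ind hF, sub_self]
/-- orthogonality -/
theorem Ex_mul_fl (h : U ⊆ Λ) (hF : Ind U F) (G : Fn V) : M.Ex Λ (F * M.fl U G) = 0 := by
  rw [← M.Ex_Pi h, M.Pi_mul hF, Pi_fl, mul_zero, map_zero]
theorem Ex_fl_mul_fl (h : U ⊆ Λ) (F G : Fn V) :
    M.Ex Λ (M.fl U F * M.fl U G) = M.Ex Λ (F * M.fl U G) := by
  conv_lhs => rw [fl, sub_mul, map_sub, M.Ex_mul_fl h (M.ind_Pi U F), sub_zero]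
theorem Ex_fl_sq_le (h : U ⊆ Λ) (G : Fn V) :
    M.Ex Λ (M.fl U G * M.fl U G) ≤ M.Ex Λ (G * G) := by
  have e : G * G = M.fl U G * M.fl U G + (2 : ℝ) • (M.Pi U G * M.fl U G) +
      M.Pi U G * M.Pi U G := by
    ext σ; simp [fl]; ring
  rw [e, map_add, map_add, map_smul, M.Ex_mul_fl h (M.ind_Pi U G), smul_zero, add_zero]
  linarith [M.Ex_mul_self_nonneg Λ (M.Pi U G)]
/-- if `Pi U W = 0` then `W` only sees the fluctuation -/
theorem Ex_mul_eq_fl (h : U ⊆ Λ) {W : Fn V} (hW : M.Pi U W = 0) (G : Fn V) :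
    M.Ex Λ (W * G) = M.Ex Λ (W * M.fl U G) := by
  have : M.Ex Λ (W * M.Pi U G) = 0 := by
    rw [← M.Ex_Pi h, mul_comm, M.Pi_mul (M.ind_Pi U G), hW, mul_zero, map_zero]
  rw [fl, mul_sub, map_sub, this, sub_zero]

theorem ind_P {e : E} (h : ¬ M.touch U e) (a : Fin 3) : Ind U (M.P a e) := by
  have := not_or.1 h
  exact ((ind_sp this.1 _).mul (ind_sp this.2 _)).add ((ind_sp this.1 _).mul (ind_sp this.2 _))
theorem ind_J {e : E} (h : ¬ M.touch U e) (a : Fin 3) : Ind U (M.J a e) := by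
  have := not_or.1 h
  exact ((ind_sp this.1 _).mul (ind_sp this.2 _)).sub ((ind_sp this.1 _).mul (ind_sp this.2 _))
theorem ind_cur {h : E → ℝ} (hh : ∀ e, M.touch U e → h e = 0) (a : Fin 3) :
    Ind U (M.cur a h) := by
  refine ind_sum _ fun e _ => ?_
  by_cases he : M.touch U e
  · rw [hh e he, mul_zero, zero_smul]; exact ind_zero U
  · exact (M.ind_J he a).smul _
theorem ind_tw {h : E → ℝ} (hh : ∀ e, M.touch U e → h e = 0) (a : Fin 3) :
    Ind U (M.tw a h) := by
  refine ind_sum _ fun e _ => ?_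
  by_cases he : M.touch U e
  · rw [hh e he, Real.cos_zero, Real.sin_zero, sub_self, zero_smul, zero_smul, add_zero, smul_zero]
    exact ind_zero U
  · exact (((M.ind_P he a).smul _).add ((M.ind_J he a).smul _)).smul _
/-- Cauchy–Schwarz in the plane, `co_sq'` -/
theorem abs_P_le (a : Fin 3) (e : E) (σ : Cfg V) : |M.P a e σ| ≤ 1 := by
  have h1 := co_sq' a (σ (M.src e))
  have h2 := co_sq' a (σ (M.tgt e))
  simp only [P, ContinuousMap.add_apply, ContinuousMap.mul_apply, sp_apply]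
  rw [abs_le]
  constructor
  · nlinarith [sq_nonneg (co a (σ (M.src e))), sq_nonneg (co a (σ (M.tgt e))),
      sq_nonneg (co (a + 1) (σ (M.src e)) + co (a + 1) (σ (M.tgt e))),
      sq_nonneg (co (a + 2) (σ (M.src e)) + co (a + 2) (σ (M.tgt e)))]
  · nlinarith [sq_nonneg (co a (σ (M.src e))), sq_nonneg (co a (σ (M.tgt e))),
      sq_nonneg (co (a + 1) (σ (M.src e)) - co (a + 1) (σ (M.tgt e))),
      sq_nonneg (co (a + 2) (σ (M.src e)) - co (a + 2) (σ (M.tgt e)))]
theorem abs_J_le (a : Fin 3) (e : E) (σ : Cfg V) : |M.J a e σ| ≤ 1 := by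
  have h1 := co_sq' a (σ (M.src e))
  have h2 := co_sq' a (σ (M.tgt e))
  simp only [J, ContinuousMap.sub_apply, ContinuousMap.mul_apply, sp_apply]
  rw [abs_le]
  constructor
  · nlinarith [sq_nonneg (co a (σ (M.src e))), sq_nonneg (co a (σ (M.tgt e))),
      sq_nonneg (co (a + 2) (σ (M.src e)) + co (a + 1) (σ (M.tgt e))),
      sq_nonneg (co (a + 1) (σ (M.src e)) - co (a + 2) (σ (M.tgt e)))]
  · nlinarith [sq_nonneg (co a (σ (M.src e))), sq_nonneg (co a (σ (M.tgt e))),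
      sq_nonneg (co (a + 2) (σ (M.src e)) - co (a + 1) (σ (M.tgt e))),
      sq_nonneg (co (a + 1) (σ (M.src e)) + co (a + 2) (σ (M.tgt e)))]
theorem A_nonneg (h : E → ℝ) : 0 ≤ M.A h :=
  Finset.sum_nonneg fun e _ => mul_nonneg (M.hb e) (sq_nonneg _)
theorem abs_en_le (a : Fin 3) (h : E → ℝ) (σ : Cfg V) : |M.en a h h σ| ≤ M.A h := by
  simp only [en, A, ContinuousMap.sum_apply, ContinuousMap.smul_apply, smul_eq_mul]
  refine (Finset.abs_sum_le_sum_abs _ _).trans (Finset.sum_le_sum fun e _ => ?_)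
  rw [abs_mul, ← sq, abs_of_nonneg (mul_nonneg (M.hb e) (sq_nonneg _))]
  exact mul_le_of_le_one_right (mul_nonneg (M.hb e) (sq_nonneg _)) (M.abs_P_le a e σ)
theorem abs_cur_le (a : Fin 3) (h : E → ℝ) (σ : Cfg V) :
    |M.cur a h σ| ≤ ∑ e, M.b e * |h e| := by
  simp only [cur, ContinuousMap.sum_apply, ContinuousMap.smul_apply, smul_eq_mul]
  refine (Finset.abs_sum_le_sum_abs _ _).trans (Finset.sum_le_sum fun e _ => ?_)
  rw [abs_mul, abs_mul, abs_of_nonneg (M.hb e)]
  exact mul_le_of_le_one_right (mul_nonneg (M.hb e) (abs_nonneg _)) (M.abs_J_le a e σ)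

theorem cur_add (a : Fin 3) (h h' : E → ℝ) : M.cur a (h + h') = M.cur a h + M.cur a h' := by
  simp only [cur, Pi.add_apply, mul_add, add_smul, Finset.sum_add_distrib]
theorem cur_smul (a : Fin 3) (c : ℝ) (h : E → ℝ) : M.cur a (c • h) = c • M.cur a h := by
  simp only [cur, Pi.smul_apply, smul_eq_mul, Finset.smul_sum, smul_smul, mul_left_comm]
@[simp] theorem cur_zero (a : Fin 3) : M.cur a 0 = 0 := by simp [cur]
theorem cur_sum {ι : Type*} (a : Fin 3) (s : Finset ι) (h : ι → E → ℝ) :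
    M.cur a (∑ i ∈ s, h i) = ∑ i ∈ s, M.cur a (h i) := by
  classical
  induction s using Finset.induction_on with
  | empty => simp
  | insert i s hi ih => rw [Finset.sum_insert hi, Finset.sum_insert hi, cur_add, ih]
theorem en_comm (a : Fin 3) (h h' : E → ℝ) : M.en a h h' = M.en a h' h := by
  simp only [en, mul_comm (h _)]
theorem en_add_left (a : Fin 3) (h h' k : E → ℝ) :
    M.en a (h + h') k = M.en a h k + M.en a h' k := by
  simp only [en, Pi.add_apply, mul_add, add_mul, add_smul, Finset.sum_add_distrib]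
theorem en_smul_left (a : Fin 3) (c : ℝ) (h k : E → ℝ) : M.en a (c • h) k = c • M.en a h k := by
  simp only [en, Pi.smul_apply, smul_eq_mul, Finset.smul_sum, smul_smul, mul_left_comm, mul_assoc]
theorem q_comm (Λ U : Finset V) (a : Fin 3) (h h' : E → ℝ) : M.q Λ U a h h' = M.q Λ U a h' h := by
  rw [q, q, en_comm, mul_comm]
theorem q_add_left (Λ U : Finset V) (a : Fin 3) (h h' k : E → ℝ) :
    M.q Λ U a (h + h') k = M.q Λ U a h k + M.q Λ U a h' k := by
  simp only [q, en_add_left, cur_add, fl_add, add_mul, map_add]; ring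
theorem q_smul_left (Λ U : Finset V) (a : Fin 3) (c : ℝ) (h k : E → ℝ) :
    M.q Λ U a (c • h) k = c * M.q Λ U a h k := by
  simp only [q, en_smul_left, cur_smul, fl_smul, smul_mul_assoc, map_smul, smul_eq_mul]; ring
theorem q_add_right (Λ U : Finset V) (a : Fin 3) (h k k' : E → ℝ) :
    M.q Λ U a h (k + k') = M.q Λ U a h k + M.q Λ U a h k' := by
  rw [q_comm, q_add_left, M.q_comm Λ U a k, M.q_comm Λ U a k']
theorem q_smul_right (Λ U : Finset V) (a : Fin 3) (c : ℝ) (h k : E → ℝ) :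
    M.q Λ U a h (c • k) = c * M.q Λ U a h k := by
  rw [q_comm, q_smul_left, q_comm]

variable {M} {ι : Type} {I : Finset ι} {W : ι → Finset V} {EE : ι → Finset E}

theorem Fam.res_eq_zero (hf : M.Fam Λ I W EE) {i j : ι} (hi : i ∈ I) (hj : j ∈ I) (hij : i ≠ j)
    (h : E → ℝ) (e : E) (he : M.touch (W i) e) : res (EE j) h e = 0 :=
  if_neg (Finset.disjoint_left.1 (hf.disjE i hi j hj hij) (hf.touch i hi e he))

theorem Fam.ind_Pi (hf : M.Fam Λ I W EE) {i j : ι} (hi : i ∈ I) (hj : j ∈ I) (hij : i ≠ j)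
    (hG : Ind (W i) G) : Ind (W i) (M.Pi (W j) G) :=
  M.ind_Pi_of_ind hG (hf.disjU j hj i hi hij.symm) fun e h1 h2 =>
    Finset.disjoint_left.1 (hf.disjE i hi j hj hij) (hf.touch i hi e h2) (hf.touch j hj e h1)

end Mod

end Crest.Agent.R167
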