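import Crest.Agent.R167.Spin

/-!
# rid 167: the model, conditional expectations, currents (definitions)

A model `M : Mod V E` is a finite directed multigraph with nonnegative couplings.  Observables are
elements of `Fn V = C(V → Sp, ℝ)`.  `avg U G ξ` integrates the spins in `U` against the product of
the surface measures, the others being frozen at `ξ`; `M.N U G = avg U (G * exp ham)` and
`M.Pi U G = M.N U G / M.N U 1` is the conditional expectation given the spins outside `U`.
`M.Ex Λ` is the Gibbs expectation in `Λ` with all other spins equal to `e₀ = pole 1`.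
Everything in this file is proved.
-/

set_option autoImplicit false
set_option linter.unusedSectionVars false

noncomputable section

namespace Crest.Agent.R167

open MeasureTheory Finset

/-- configurations -/
abbrev Cfg (V : Type) : Type := V → Sp

/-- observables -/
abbrev Fn (V : Type) : Type := C(Cfg V, ℝ)

/-- a finite directed multigraph with nonnegative couplings -/
structure Mod (V E : Type) where
  /-- source of an edge -/
  src : E → V
  /-- target of an edge -/
  tgt : E → V
  /-- couplings -/
  b : E → ℝ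
  hb : ∀ e, 0 ≤ b e

variable {V E : Type} [Fintype V] [DecidableEq V] [Fintype E] [DecidableEq E]

/-- the reference measure -/
def piM (V : Type) [Fintype V] : Measure (Cfg V) := Measure.pi fun _ => nu

instance : IsProbabilityMeasure (piM V) := by unfold piM; infer_instance

theorem integrable_cont {X F : Type*} [TopologicalSpace X] [CompactSpace X] [MeasurableSpace X]
    [OpensMeasurableSpace X] [NormedAddCommGroup F]
    (μ : Measure X) [IsFiniteMeasure μ] {f : X → F} (hf : Continuous f) : Integrable f μ :=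
  hf.integrable_of_hasCompactSupport (HasCompactSupport.of_compactSpace f)

@[fun_prop] theorem continuous_pw {X Y : Type*} [TopologicalSpace X] [TopologicalSpace Y]
    (U : Finset V) {σ ξ : X → V → Y} (hσ : Continuous σ) (hξ : Continuous ξ) :
    Continuous fun p => U.piecewise (σ p) (ξ p) := by
  refine continuous_pi fun x => ?_
  by_cases h : x ∈ U
  · simp only [Finset.piecewise_eq_of_mem _ _ _ h]; fun_prop
  · simp only [Finset.piecewise_eq_of_notMem _ _ _ h]; fun_prop

/-- parametric integrals of continuous functions over compact spaces are continuous -/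
theorem continuous_integral_param {X Y : Type*} [TopologicalSpace X] [FirstCountableTopology X]
    [LocallyCompactSpace X] [TopologicalSpace Y] [CompactSpace Y] [SecondCountableTopology Y]
    [MeasurableSpace Y] [OpensMeasurableSpace Y] (μ : Measure Y) [IsFiniteMeasure μ]
    {f : X → Y → ℝ} (hf : Continuous fun p : X × Y => f p.1 p.2) :
    Continuous fun x => ∫ y, f x y ∂μ := by
  simpa using continuous_parametric_integral_of_continuous (μ := μ) (f := f) hf isCompact_univ

/-- the coordinate `a` of the spin at `x` -/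
def sp (x : V) (a : Fin 3) : Fn V := ⟨fun σ => co a (σ x), by fun_prop⟩

@[simp] theorem sp_apply (x : V) (a : Fin 3) (σ : Cfg V) : sp x a σ = co a (σ x) := rfl

/-- the exponential of an observable -/
def expF (F : Fn V) : Fn V := ⟨fun σ => Real.exp (F σ), by fun_prop⟩

@[simp] theorem expF_apply (F : Fn V) (σ : Cfg V) : expF F σ = Real.exp (F σ) := rfl

theorem expF_add (F G : Fn V) : expF (F + G) = expF F * expF G := by
  ext σ; simp [Real.exp_add]

@[simp] theorem expF_zero : expF (0 : Fn V) = 1 := by ext σ; simp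

/-- integration of the spins in `U` -/
def avg (U : Finset V) : Fn V →ₗ[ℝ] Fn V where
  toFun G := ⟨fun ξ => ∫ σ, G (U.piecewise σ ξ) ∂piM V,
    continuous_integral_param _ (by fun_prop)⟩
  map_add' F G := by
    ext ξ
    exact integral_add (integrable_cont _ (by fun_prop)) (integrable_cont _ (by fun_prop))
  map_smul' c F := by
    ext ξ
    exact integral_const_mul c _

theorem avg_apply (U : Finset V) (G : Fn V) (ξ : Cfg V) :
    avg U G ξ = ∫ σ, G (U.piecewise σ ξ) ∂piM V := rfl

theorem avg_pos (U : Finset V) {G : Fn V} (hG : ∀ σ, 0 < G σ) (ξ : Cfg V) : 0 < avg U G ξ := by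
  rw [avg_apply, integral_pos_iff_support_of_nonneg (fun σ => (hG _).le)
    (integrable_cont _ (by fun_prop))]
  have : Function.support (fun σ : Cfg V => G (U.piecewise σ ξ)) = Set.univ :=
    Set.eq_univ_of_forall fun σ => (hG _).ne'
  rw [this]
  simp

/-- `G` does not depend on the spins in `U` -/
def Ind (U : Finset V) (G : Fn V) : Prop := ∀ σ ξ : Cfg V, G (U.piecewise σ ξ) = G ξ

/-- the flow rotating the spin at `x` about the axis `a` with speed `χ x` -/
def flow (χ : V → ℝ) (a : Fin 3) (t : ℝ) (σ : Cfg V) : Cfg V := fun x => rot a (t * χ x) (σ x)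

@[fun_prop] theorem continuous_flow {X : Type*} [TopologicalSpace X] (χ : V → ℝ) (a : Fin 3)
    {t : X → ℝ} {σ : X → Cfg V} (ht : Continuous t) (hσ : Continuous σ) :
    Continuous fun p => flow χ a (t p) (σ p) := by
  unfold flow; fun_prop

/-- `G'` is the derivative of `G` along the flow -/
def HasD (χ : V → ℝ) (a : Fin 3) (G G' : Fn V) : Prop :=
  ∀ σ, HasDerivAt (fun t => G (flow χ a t σ)) (G' σ) 0

namespace Mod

variable (M : Mod V E)

/-- the interaction (minus the Hamiltonian) -/
def ham : Fn V := ∑ e, M.b e • ∑ a, sp (M.src e) a * sp (M.tgt e) a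

/-- unnormalised conditional expectation -/
def N (U : Finset V) : Fn V →ₗ[ℝ] Fn V := avg U ∘ₗ LinearMap.mulRight ℝ (expF M.ham)

theorem N_eq (U : Finset V) (G : Fn V) : M.N U G = avg U (G * expF M.ham) := rfl

theorem N_apply (U : Finset V) (G : Fn V) (ξ : Cfg V) : M.N U G ξ =
    ∫ σ, G (U.piecewise σ ξ) * Real.exp (M.ham (U.piecewise σ ξ)) ∂piM V := rfl

theorem N_one_pos (U : Finset V) (ξ : Cfg V) : 0 < M.N U 1 ξ :=
  avg_pos U (fun σ => by simp [Real.exp_pos]) ξ

/-- the inverse of the conditional partition function -/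
def Zi (U : Finset V) : Fn V :=
  ⟨fun ξ => (M.N U 1 ξ)⁻¹, (M.N U 1).continuous.inv₀ fun ξ => (M.N_one_pos U ξ).ne'⟩

/-- conditional expectation given the spins outside `U` -/
def Pi (U : Finset V) : Fn V →ₗ[ℝ] Fn V := LinearMap.mulRight ℝ (M.Zi U) ∘ₗ M.N U

theorem Pi_eq (U : Finset V) (G : Fn V) : M.Pi U G = M.N U G * M.Zi U := rfl

theorem Pi_apply (U : Finset V) (G : Fn V) (ξ : Cfg V) :
    M.Pi U G ξ = M.N U G ξ / M.N U 1 ξ := rfl

/-- Gibbs expectation in `Λ`, all other spins being equal to `pole 1` -/
def Ex (Λ : Finset V) : Fn V →ₗ[ℝ] ℝ where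
  toFun G := M.Pi Λ G fun _ => pole 1
  map_add' F G := by rw [map_add]; rfl
  map_smul' c F := by rw [map_smul]; rfl

theorem Ex_apply (Λ : Finset V) (G : Fn V) : M.Ex Λ G = M.Pi Λ G fun _ => pole 1 := rfl

/-- gradient of a function on the vertices -/
def d (f : V → ℝ) (e : E) : ℝ := f (M.tgt e) - f (M.src e)

/-- the inner product of the components orthogonal to the axis `a` -/
def P (a : Fin 3) (e : E) : Fn V :=
  sp (M.src e) (a + 1) * sp (M.tgt e) (a + 1) + sp (M.src e) (a + 2) * sp (M.tgt e) (a + 2)

/-- the current of the edge `e` -/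
def J (a : Fin 3) (e : E) : Fn V :=
  sp (M.src e) (a + 2) * sp (M.tgt e) (a + 1) - sp (M.src e) (a + 1) * sp (M.tgt e) (a + 2)

/-- the current tested against the `1`-form `h` -/
def cur (a : Fin 3) (h : E → ℝ) : Fn V := ∑ e, (M.b e * h e) • M.J a e

/-- the bare energy form -/
def en (a : Fin 3) (h h' : E → ℝ) : Fn V := ∑ e, (M.b e * (h e * h' e)) • M.P a e

/-- the change of the interaction under the twist `h` -/
def tw (a : Fin 3) (h : E → ℝ) : Fn V :=
  ∑ e, M.b e • ((Real.cos (h e) - 1) • M.P a e + Real.sin (h e) • M.J a e)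

/-- the fluctuation of `G` due to the spins in `U` -/
def fl (U : Finset V) (G : Fn V) : Fn V := G - M.Pi U G

/-- the stiffness form of the region `U` -/
def q (Λ U : Finset V) (a : Fin 3) (h h' : E → ℝ) : ℝ :=
  M.Ex Λ (M.en a h h') - M.Ex Λ (M.fl U (M.cur a h) * M.fl U (M.cur a h'))

/-- the deterministic bound for the energy -/
def A (h : E → ℝ) : ℝ := ∑ e, M.b e * h e ^ 2

/-- the edge `e` has an end in `U` -/
def touch (U : Finset V) (e : E) : Prop := M.src e ∈ U ∨ M.tgt e ∈ U

instance (U : Finset V) (e : E) : Decidable (M.touch U e) := by unfold touch; infer_instance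

/-- the edges with an end in `U` -/
def ET (U : Finset V) : Finset E := univ.filter (M.touch U)

/-- a family of regions `U i ⊆ Λ` with edge sets `EE i` -/
structure Fam {ι : Type} (Λ : Finset V) (I : Finset ι) (U : ι → Finset V) (EE : ι → Finset E) :
    Prop where
  sub : ∀ i ∈ I, U i ⊆ Λ
  disjU : ∀ i ∈ I, ∀ j ∈ I, i ≠ j → Disjoint (U i) (U j)
  disjE : ∀ i ∈ I, ∀ j ∈ I, i ≠ j → Disjoint (EE i) (EE j)
  touch : ∀ i ∈ I, ∀ e, M.touch (U i) e → e ∈ EE i

/-- the model in which only the edges of `F` are kept -/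
def only (F : Finset E) : Mod V E where
  src := M.src
  tgt := M.tgt
  b e := if e ∈ F then M.b e else 0
  hb e := by split_ifs; exacts [M.hb e, le_rfl]

end Mod

/-- restriction of a `1`-form to a set of edges -/
def res (F : Finset E) (h : E → ℝ) (e : E) : ℝ := if e ∈ F then h e else 0

/-- an embedding of the model in the square lattice, with couplings at most `β` -/
structure Geo (M : Mod V E) (β : ℝ) where
  /-- position of a vertex -/
  pos : V → Fin 2 → ℤ
  /-- direction of an edge -/
  dir : E → Fin 2
  step : ∀ e, M.tgt e = M.src e ∨ pos (M.tgt e) = pos (M.src e) + Pi.single (dir e) 1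
  inj : Function.Injective fun e => (pos (M.src e), dir e)
  le : ∀ e, M.b e ≤ β

namespace Geo

variable {M : Mod V E} {β : ℝ} (Γ : Geo M β)

/-- the same embedding for the restricted model -/
def only (F : Finset E) : Geo (M.only F) β where
  pos := Γ.pos
  dir := Γ.dir
  step := Γ.step
  inj := Γ.inj
  le e := by
    change (if e ∈ F then M.b e else 0) ≤ β
    split_ifs
    exacts [Γ.le e, (M.hb e).trans (Γ.le e)]

/-- the edges of the block with corner `z` and side `l` -/
def EB (z : Fin 2 → ℤ) (l : ℕ) : Finset E :=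
  univ.filter fun e => ∀ k, z k ≤ Γ.pos (M.src e) k ∧ Γ.pos (M.src e) k < z k + l

/-- the interior of the block with corner `z` and side `l` -/
def UB (z : Fin 2 → ℤ) (l : ℕ) : Finset V :=
  univ.filter fun x => ∀ k, z k < Γ.pos x k ∧ Γ.pos x k < z k + l

/-- the three times larger block lies in `Λ` -/
def Fits (Λ : Finset V) (z : Fin 2 → ℤ) (l : ℕ) : Prop :=
  ∀ x, (∀ k, z k - l ≤ Γ.pos x k ∧ Γ.pos x k ≤ z k + 2 * l) → x ∈ Λ

/-- the gradient of the coordinate `k` -/
def dx (k : Fin 2) : E → ℝ := M.d fun x => (Γ.pos x k : ℝ)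

/-- the normalised stiffness of a block in the direction `k` -/
def Q (Λ : Finset V) (z : Fin 2 → ℤ) (l : ℕ) (k : Fin 2) : ℝ :=
  (∑ a, M.q Λ (Γ.UB z l) a (res (Γ.EB z l) (Γ.dx k)) (res (Γ.EB z l) (Γ.dx k))) / (l : ℝ) ^ 2

/-- the annulus `L < |x - c|_∞ < 4 L` -/
def Ann (c : Fin 2 → ℤ) (L : ℕ) : Finset V :=
  univ.filter fun x => (∃ k, (L : ℤ) < |Γ.pos x k - c k|) ∧ ∀ k, |Γ.pos x k - c k| < 4 * L

/-- the boundary signs: `-1` inside, `+1` outside -/
def sgn (c : Fin 2 → ℤ) (L : ℕ) (x : V) : ℤˣ := if ∀ k, |Γ.pos x k - c k| ≤ L then -1 else 1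

end Geo

end Crest.Agent.R167
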