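import Crest.Agent.R167.Calc

/-!
# rid 167, task Deriv: derivatives along rotation flows, integration by parts
-/

set_option autoImplicit false
set_option linter.unusedSectionVars false

noncomputable section

namespace Crest.Agent.R167

open MeasureTheory Finset

variable {V E : Type} [Fintype V] [DecidableEq V] [Fintype E] [DecidableEq E]

variable {χ : V → ℝ} {a : Fin 3} {F F' G G' : Fn V} {U Λ : Finset V}

@[simp] theorem flow_zero (χ : V → ℝ) (a : Fin 3) (σ : Cfg V) : flow χ a 0 σ = σ := by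
  funext x; simp [flow]

theorem flow_add (χ : V → ℝ) (a : Fin 3) (s t : ℝ) (σ : Cfg V) :
    flow χ a (s + t) σ = flow χ a s (flow χ a t σ) := by
  funext x; simp [flow, add_mul, rot_add]

theorem flow_pw (χ : V → ℝ) (a : Fin 3) (t : ℝ) (U : Finset V) (σ ξ : Cfg V) :
    flow χ a t (U.piecewise σ ξ) = U.piecewise (flow χ a t σ) (flow χ a t ξ) := by
  funext x
  by_cases h : x ∈ U <;> simp [flow, h]

/-- `measurePreserving_pi`, `measurePreserving_rot` -/
theorem measurePreserving_flow (χ : V → ℝ) (a : Fin 3) (t : ℝ) :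
    MeasurePreserving (flow χ a t) (piM V) (piM V) := by
  exact measurePreserving_pi _ _ fun x => measurePreserving_rot a (t * χ x)

/-- invariance of the reference measure and `flow_pw` -/
theorem avg_flow (χ : V → ℝ) (a : Fin 3) (t : ℝ) (U : Finset V) (G : Fn V) (ξ : Cfg V) :
    avg U G (flow χ a t ξ) = ∫ σ, G (flow χ a t (U.piecewise σ ξ)) ∂piM V := by
  simp only [flow_pw]
  rw [avg_apply]
  conv_lhs => rw [← (measurePreserving_flow χ a t).map_eq]
  rw [integral_map (measurePreserving_flow χ a t).measurable.aemeasurable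
    (Continuous.aestronglyMeasurable (by fun_prop))]

/-- by `flow_add`, the derivative exists at every time -/
theorem HasD.at (h : HasD χ a G G') (σ : Cfg V) (t : ℝ) :
    HasDerivAt (fun t => G (flow χ a t σ)) (G' (flow χ a t σ)) t := by
  have h1 := h (flow χ a t σ)
  simp only [← flow_add] at h1
  have h2 := HasDerivAt.comp_sub_const (f := fun s => G (flow χ a (s + t) σ)) t t
    (by rw [sub_self]; exact h1)
  simpa using h2

theorem HasD.unique (h : HasD χ a G F) (h' : HasD χ a G F') : F = F' :=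
  ContinuousMap.ext fun σ => (h σ).unique (h' σ)
theorem hasD_zero : HasD χ a (0 : Fn V) 0 := fun _ => hasDerivAt_const _ _
theorem hasD_one : HasD χ a (1 : Fn V) 0 := fun _ => hasDerivAt_const _ _
theorem HasD.add (hF : HasD χ a F F') (hG : HasD χ a G G') : HasD χ a (F + G) (F' + G') :=
  fun σ => (hF σ).add (hG σ)
theorem HasD.sub (hF : HasD χ a F F') (hG : HasD χ a G G') : HasD χ a (F - G) (F' - G') :=
  fun σ => (hF σ).sub (hG σ)
theorem HasD.smul (hF : HasD χ a F F') (c : ℝ) : HasD χ a (c • F) (c • F') :=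
  fun σ => (hF σ).const_mul c
theorem HasD.mul (hF : HasD χ a F F') (hG : HasD χ a G G') :
    HasD χ a (F * G) (F' * G + F * G') := fun σ => by
  simpa using (hF σ).fun_mul (hG σ)
theorem HasD.expF (hF : HasD χ a F F') : HasD χ a (expF F) (expF F * F') := fun σ => by
  simpa using (hF σ).exp
theorem hasD_sum {ι : Type*} (s : Finset ι) {f f' : ι → Fn V}
    (h : ∀ i ∈ s, HasD χ a (f i) (f' i)) : HasD χ a (∑ i ∈ s, f i) (∑ i ∈ s, f' i) := by
  classical
  induction s using Finset.induction_on with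
  | empty => simpa using hasD_zero
  | insert i s hi ih =>
    rw [Finset.sum_insert hi, Finset.sum_insert hi]
    exact (h i (Finset.mem_insert_self _ _)).add
      (ih fun j hj => h j (Finset.mem_insert_of_mem hj))
theorem HasD.congr (hF : HasD χ a F F') (h : F' = G') : HasD χ a F G' := h ▸ hF

theorem hasD_sp_self (x : V) : HasD χ a (sp x a) 0 := by
  intro σ
  simpa [flow] using hasDerivAt_const (0 : ℝ) (co a (σ x))
theorem hasD_sp_one (x : V) : HasD χ a (sp x (a + 1)) ((-χ x) • sp x (a + 2)) := by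
  intro σ
  have h1 : HasDerivAt (fun t : ℝ => t * χ x) (χ x) 0 := hasDerivAt_mul_const _
  simpa [flow, co_rot_one] using (h1.cos.mul_const (co (a + 1) (σ x))).fun_sub
    (h1.sin.mul_const (co (a + 2) (σ x)))
theorem hasD_sp_two (x : V) : HasD χ a (sp x (a + 2)) (χ x • sp x (a + 1)) := by
  intro σ
  have h1 : HasDerivAt (fun t : ℝ => t * χ x) (χ x) 0 := hasDerivAt_mul_const _
  simpa [flow, co_rot_two] using (h1.sin.mul_const (co (a + 1) (σ x))).fun_add
    (h1.cos.mul_const (co (a + 2) (σ x)))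

/-- `avg_flow` and `hasDerivAt_integral_of_dominated_loc_of_deriv_le` with the bound `‖G'‖`. -/
theorem HasD.avg (h : HasD χ a G G') (U : Finset V) : HasD χ a (avg U G) (avg U G') := by
  intro ξ
  simp only [avg_flow]
  have := (hasDerivAt_integral_of_dominated_loc_of_deriv_le (μ := piM V) (x₀ := (0 : ℝ))
    (F := fun t σ => G (flow χ a t (U.piecewise σ ξ)))
    (F' := fun t σ => G' (flow χ a t (U.piecewise σ ξ))) (bound := fun _ => ‖G'‖)
    (s := Set.univ) Filter.univ_mem
    (Filter.Eventually.of_forall fun t => Continuous.aestronglyMeasurable (by fun_prop))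
    (integrable_cont _ (by fun_prop)) (Continuous.aestronglyMeasurable (by fun_prop))
    (Filter.Eventually.of_forall fun σ t _ => G'.norm_coe_le_norm _) (integrable_const _)
    (Filter.Eventually.of_forall fun σ t _ => h.at _ t)).2
  simpa [avg_apply] using this

/-- a function of the spins outside `U` is constant along a flow supported in `U`
(`flow χ a t σ = U.piecewise (flow χ a t σ) σ`) -/
theorem Ind.hasD (hG : Ind U G) (hχ : ∀ x ∉ U, χ x = 0) : HasD χ a G 0 := by
  intro σ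
  have : ∀ t, G (flow χ a t σ) = G σ := fun t => by
    rw [← hG (flow χ a t σ) σ]
    congr 1
    funext x
    by_cases hx : x ∈ U <;> simp [hx, flow, hχ]
  simp only [this]
  exact hasDerivAt_const _ _

namespace Mod

variable (M : Mod V E)

/-- a bounded remainder -/
def rem (a c : Fin 3) (h h' : E → ℝ) : Fn V :=
  ∑ e, (M.b e * (h e * h' e)) • (sp (M.src e) c * sp (M.tgt e) a)

/-- `2 |h h'| ≤ h² + h'²`, `abs_co_le` -/
theorem abs_rem_le (a c : Fin 3) (h h' : E → ℝ) (σ : Cfg V) :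
    |M.rem a c h h' σ| ≤ (M.A h + M.A h') / 2 := by
  simp only [rem, A, ContinuousMap.coe_sum, Finset.sum_apply, ← Finset.sum_add_distrib,
    Finset.sum_div]
  refine (Finset.abs_sum_le_sum_abs _ _).trans (Finset.sum_le_sum fun e _ => ?_)
  have h1 : |co c (σ (M.src e)) * co a (σ (M.tgt e))| ≤ 1 := by
    rw [abs_mul]; exact mul_le_one₀ (abs_co_le _ _) (abs_nonneg _) (abs_co_le _ _)
  have h2 : |h e * h' e| ≤ (h e ^ 2 + h' e ^ 2) / 2 :=
    abs_le.2 ⟨by nlinarith [sq_nonneg (h e + h' e)], by nlinarith [sq_nonneg (h e - h' e)]⟩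
  simp only [ContinuousMap.smul_apply, ContinuousMap.mul_apply, sp_apply, smul_eq_mul]
  rw [abs_mul, abs_mul (M.b e), abs_of_nonneg (M.hb e)]
  calc _ ≤ M.b e * ((h e ^ 2 + h' e ^ 2) / 2) * 1 :=
        mul_le_mul (mul_le_mul_of_nonneg_left h2 (M.hb e)) h1 (abs_nonneg _)
          (mul_nonneg (M.hb e) (by positivity))
    _ = _ := by ring

/-- use `sum_fin3 a` for the inner product -/
theorem hasD_ham (χ : V → ℝ) (a : Fin 3) : HasD χ a M.ham (M.cur a (M.d χ)) := by
  refine hasD_sum _ fun e _ => ?_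
  rw [sum_fin3 a]
  refine (((((hasD_sp_self _).mul (hasD_sp_self _)).add ((hasD_sp_one _).mul (hasD_sp_one _))).add
    ((hasD_sp_two _).mul (hasD_sp_two _))).smul _).congr ?_
  ext σ
  simp [J, d]
  ring

theorem hasD_cur_self (χ : V → ℝ) (a : Fin 3) (h : E → ℝ) :
    HasD χ a (M.cur a h) (- M.en a h (M.d χ)) := by
  rw [en, ← Finset.sum_neg_distrib]
  refine hasD_sum _ fun e _ => ?_
  refine ((((hasD_sp_two _).mul (hasD_sp_one _)).sub
    ((hasD_sp_one _).mul (hasD_sp_two _))).smul _).congr ?_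
  ext σ
  simp [P, d]
  ring

/-- use `fin3_add`: `a + 1 + 1 = a + 2`, `a + 1 + 2 = a`, ... -/
theorem hasD_cur_one (χ : V → ℝ) (a : Fin 3) (h : E → ℝ) :
    HasD χ (a + 1) (M.cur a h)
      (M.cur (a + 2) (fun e => h e * χ (M.src e)) + M.rem a (a + 1) h (M.d χ)) := by
  rw [cur, cur, rem, ← Finset.sum_add_distrib]
  refine hasD_sum _ fun e _ => ?_
  have h1 : ∀ x, HasD χ (a + 1) (sp x (a + 2)) ((-χ x) • sp x a) := fun x => by
    simpa only [(fin3_add a).1, (fin3_add a).2.1] using hasD_sp_one (χ := χ) (a := a + 1) x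
  refine ((((h1 _).mul (hasD_sp_self _)).sub ((hasD_sp_self _).mul (h1 _))).smul _).congr ?_
  ext σ
  simp only [J, (fin3_add a).2.2.1, (fin3_add a).2.2.2]
  simp [d]
  ring

theorem hasD_cur_two (χ : V → ℝ) (a : Fin 3) (h : E → ℝ) :
    HasD χ (a + 2) (M.cur a h)
      (- M.cur (a + 1) (fun e => h e * χ (M.src e)) + M.rem a (a + 2) h (M.d χ)) := by
  rw [cur, cur, rem, ← Finset.sum_neg_distrib, ← Finset.sum_add_distrib]
  refine hasD_sum _ fun e _ => ?_
  have h1 : ∀ x, HasD χ (a + 2) (sp x (a + 1)) (χ x • sp x a) := fun x => by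
    simpa only [(fin3_add a).2.2.1, (fin3_add a).2.2.2] using hasD_sp_two (χ := χ) (a := a + 2) x
  refine ((((hasD_sp_self _).mul (h1 _)).sub ((h1 _).mul (hasD_sp_self _))).smul _).congr ?_
  ext σ
  simp only [J, (fin3_add a).1, (fin3_add a).2.1]
  simp [d]
  ring

theorem hasD_N (h : HasD χ a G G') (U : Finset V) :
    HasD χ a (M.N U G) (M.N U (G' + G * M.cur a (M.d χ))) := by
  rw [N_eq, N_eq]
  refine ((h.mul (M.hasD_ham χ a).expF).congr ?_).avg U
  ring

/-- quotient rule -/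
theorem hasD_Pi (h : HasD χ a G G') (U : Finset V) :
    HasD χ a (M.Pi U G)
      (M.Pi U (G' + G * M.cur a (M.d χ)) - M.Pi U G * M.Pi U (M.cur a (M.d χ))) := by
  intro σ
  have h1 := M.hasD_N h U σ
  have h2 := M.hasD_N (hasD_one (χ := χ) (a := a)) U σ
  have h3 := M.N_one_pos U σ
  have h4 := h1.fun_div h2 (by simpa using h3.ne')
  simp only [flow_zero, zero_add, one_mul] at h4
  simp only [Pi_apply, ContinuousMap.sub_apply, ContinuousMap.mul_apply]
  refine h4.congr_deriv ?_
  field_simp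

/-- Integration by parts: `hasD_N`, `Ind.hasD` and uniqueness. -/
theorem ibp (h : HasD χ a G G') (hχ : ∀ x ∉ U, χ x = 0) :
    M.Pi U (G' + G * M.cur a (M.d χ)) = 0 := by
  rw [Pi_eq, (M.hasD_N h U).unique ((M.ind_N U G).hasD hχ), zero_mul]

theorem Ex_ibp (h : HasD χ a G G') (hχ : ∀ x ∉ Λ, χ x = 0) :
    M.Ex Λ (G * M.cur a (M.d χ)) = - M.Ex Λ G' := by
  have := M.ibp h hχ
  rw [eq_neg_iff_add_eq_zero, add_comm, ← map_add, Ex_apply, this]
  rfl

theorem Pi_cur_d (hχ : ∀ x ∉ U, χ x = 0) (a : Fin 3) : M.Pi U (M.cur a (M.d χ)) = 0 := by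
  simpa using M.ibp (hasD_one (a := a)) hχ

/-- If `Pi U G = 0` identically, differentiate `N U G = 0` (any `χ`). -/
theorem Pi_deriv_eq_zero (h : HasD χ a G G') (hG : M.Pi U G = 0) :
    M.Pi U (G' + G * M.cur a (M.d χ)) = 0 := by
  have h1 := M.hasD_Pi h U
  rw [hG, zero_mul, sub_zero] at h1
  exact h1.unique hasD_zero

/-- `E X² = E (en) ≤ A` by `Ex_ibp` with `G = X`. -/
theorem Ex_cur_d_sq (hχ : ∀ x ∉ Λ, χ x = 0) (a : Fin 3) :
    M.Ex Λ (M.cur a (M.d χ) * M.cur a (M.d χ)) ≤ M.A (M.d χ) := by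
  rw [M.Ex_ibp (M.hasD_cur_self χ a _) hχ, map_neg, neg_neg]
  exact M.Ex_le Λ fun σ => (le_abs_self _).trans (M.abs_en_le a _ σ)

/-- `E X⁴ = 3 E (X² en) ≤ 3 A E X² ≤ 3 A²` by `Ex_ibp` with `G = X³`. -/
theorem Ex_cur_d_four (hχ : ∀ x ∉ Λ, χ x = 0) (a : Fin 3) :
    M.Ex Λ (M.cur a (M.d χ) ^ 4) ≤ 3 * M.A (M.d χ) ^ 2 := by
  have h1 := M.hasD_cur_self χ a (M.d χ)
  have h2 := M.Ex_ibp ((h1.mul h1).mul h1) hχ
  have h3 := M.Ex_cur_d_sq hχ a
  have h4 := M.A_nonneg (M.d χ)
  set X := M.cur a (M.d χ)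
  set K := M.en a (M.d χ) (M.d χ)
  rw [show X ^ 4 = X * X * X * X by ring, h2, ← map_neg]
  have h5 := M.Ex_mono Λ (F := -((-K * X + X * -K) * X + X * X * -K))
    (G := (3 * M.A (M.d χ)) • (X * X)) fun σ => by
    have := (le_abs_self _).trans (M.abs_en_le a (M.d χ) σ)
    simp only [ContinuousMap.neg_apply, ContinuousMap.add_apply, ContinuousMap.mul_apply,
      ContinuousMap.smul_apply, smul_eq_mul]
    nlinarith [mul_le_mul_of_nonneg_right this (mul_self_nonneg (X σ))]
  rw [map_smul, smul_eq_mul] at h5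
  nlinarith

/-- The interaction of the rotated configuration: with `h = χ y - χ x`,
`cos (χ x) cos (χ y) + sin (χ x) sin (χ y) = cos h`, etc. -/
theorem ham_flow (χ : V → ℝ) (a : Fin 3) (σ : Cfg V) :
    M.ham (flow χ a 1 σ) = M.ham σ + M.tw a (M.d χ) σ := by
  simp only [ham, tw, ContinuousMap.coe_sum, Finset.sum_apply, ← Finset.sum_add_distrib]
  refine Finset.sum_congr rfl fun e _ => ?_
  simp only [sum_fin3 a, P, J, d, ContinuousMap.smul_apply, ContinuousMap.add_apply,
    ContinuousMap.sub_apply, ContinuousMap.mul_apply, sp_apply, smul_eq_mul, flow, one_mul,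
    co_rot_self, co_rot_one, co_rot_two, Real.cos_sub, Real.sin_sub]
  ring

/-- `avg_flow`, `ham_flow` -/
theorem N_one_flow (χ : V → ℝ) (a : Fin 3) (U : Finset V) (ξ : Cfg V) :
    M.N U 1 (flow χ a 1 ξ) = M.N U (expF (M.tw a (M.d χ))) ξ := by
  rw [N_eq, avg_flow, N_apply]
  refine integral_congr_ae (Filter.Eventually.of_forall fun σ => ?_)
  simp [ham_flow, Real.exp_add, mul_comm]

end Mod

end Crest.Agent.R167
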