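import Crest.Agent.R167.Pos
import Crest.Agent.R167.Calc

/-!
# rid 167, task Dia: a twist decreases the partition function
-/

set_option autoImplicit false
set_option linter.unusedSectionVars false

noncomputable section

namespace Crest.Agent.R167

open MeasureTheory Finset

variable {V E : Type} [Fintype V] [DecidableEq V] [Fintype E] [DecidableEq E]

open scoped ComplexOrder

private theorem dia_zero {F : Type*} [NormedAddCommGroup F] [NormedSpace ℝ F] (a : Fin 3) (t : ℝ)
    {f : Sp → F} (hf : Continuous f) (h : ∀ σ, f (rot a t σ) = -f σ) : ∫ σ, f σ ∂nu = 0 := by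
  have h1 := integral_rot a t hf
  simp only [h, integral_neg] at h1
  have h2 : (2 : ℝ) • ∫ σ, f σ ∂nu = 0 := by rw [two_smul, ← eq_neg_iff_add_eq_zero, h1]
  exact (smul_eq_zero.1 h2).resolve_left two_ne_zero

/-- Let `z = κ (co (a+1) + i co (a+2))`, `‖κ‖ = 1`.  If `j ≠ k`, rotate about `a` by `π / (j - k)`
(`integral_rot`; `z ↦ e^{it} z`): the integral equals its negative.  If `j = k` the integrand is
`|z|^(2j) (co a)^l`; for odd `l` rotate by `π` about the axis `a + 1` (this negates `co a` and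
`co (a+2)`), for even `l` the integrand is nonnegative. -/
theorem integral_monomial_nonneg (a : Fin 3) (κ : ℂ) (hκ : ‖κ‖ = 1) (j k l : ℕ) :
    0 ≤ ∫ σ, (κ * (co (a + 1) σ + Complex.I * co (a + 2) σ)) ^ j *
      (starRingEnd ℂ (κ * (co (a + 1) σ + Complex.I * co (a + 2) σ))) ^ k *
        (co a σ : ℂ) ^ l ∂nu := by
  by_cases hjk : j = k
  · subst hjk
    have e : ∀ σ, (κ * (co (a + 1) σ + Complex.I * co (a + 2) σ)) ^ j *
        (starRingEnd ℂ (κ * (co (a + 1) σ + Complex.I * co (a + 2) σ))) ^ j * (co a σ : ℂ) ^ l =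
        (((Complex.normSq κ * (co (a + 1) σ ^ 2 + co (a + 2) σ ^ 2)) ^ j * co a σ ^ l : ℝ) : ℂ) :=
      fun σ => by
        rw [← mul_pow, Complex.mul_conj, map_mul, mul_comm Complex.I, Complex.normSq_add_mul_I]
        push_cast
        rfl
    simp only [e]
    rw [integral_complex_ofReal, Complex.zero_le_real]
    rcases Nat.even_or_odd l with hl | hl
    · exact integral_nonneg fun σ =>
        mul_nonneg (pow_nonneg (mul_nonneg (Complex.normSq_nonneg _) (by positivity)) _)
          (hl.pow_nonneg _)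
    · refine (dia_zero (a + 1) Real.pi (by fun_prop) fun σ => ?_).ge
      have h1 := co_rot_one (a + 1) Real.pi σ
      have h2 := co_rot_two (a + 1) Real.pi σ
      rw [(fin3_add a).1, (fin3_add a).2.1, Real.cos_pi, Real.sin_pi] at h1 h2
      rw [co_rot_self, h1, h2]
      simp [hl.neg_pow]
  · have hne : (j : ℝ) - k ≠ 0 := sub_ne_zero.2 (by exact_mod_cast hjk)
    refine (dia_zero a (Real.pi / (j - k)) (by fun_prop) fun σ => ?_).ge
    obtain ⟨t, ht⟩ : ∃ t, t = Real.pi / (j - k) := ⟨_, rfl⟩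
    have e : κ * (co (a + 1) (rot a t σ) + Complex.I * co (a + 2) (rot a t σ)) =
        Complex.exp (t * Complex.I) * (κ * (co (a + 1) σ + Complex.I * co (a + 2) σ)) := by
      rw [co_rot_one, co_rot_two, Complex.exp_mul_I]
      push_cast
      linear_combination (-κ * Complex.sin t * co (a + 2) σ) * Complex.I_mul_I
    have e2 : Complex.exp (t * Complex.I) ^ j *
        starRingEnd ℂ (Complex.exp (t * Complex.I)) ^ k = -1 := by
      rw [← Complex.exp_conj, ← Complex.exp_nat_mul, ← Complex.exp_nat_mul, ← Complex.exp_add,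
        ← Complex.exp_pi_mul_I, show Real.pi = t * (j - k) by rw [ht]; field_simp]
      congr 1
      simp only [map_mul, Complex.conj_ofReal, Complex.conj_I]
      push_cast
      ring
    rw [← ht, e, co_rot_self]
    generalize κ * (co (a + 1) σ + Complex.I * co (a + 2) σ) = z
    rw [map_mul, mul_pow, mul_pow]
    linear_combination (z ^ j * starRingEnd ℂ z ^ k * (co a σ : ℂ) ^ l) * e2

/-- the monomials of one spin -/
private def mono (a : Fin 3) (κ : ℂ) (j k l : ℕ) (σ : Sp) : ℂ :=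
  (κ * (co (a + 1) σ + Complex.I * co (a + 2) σ)) ^ j *
    (starRingEnd ℂ (κ * (co (a + 1) σ + Complex.I * co (a + 2) σ))) ^ k * (co a σ : ℂ) ^ l

private theorem continuous_mono (a : Fin 3) (κ : ℂ) (j k l : ℕ) : Continuous (mono a κ j k l) := by
  unfold mono
  fun_prop

/-- the monomials of all spins -/
private def monos (V : Type) [Fintype V] (a : Fin 3) (κ : ℂ) : Submonoid (Cfg V → ℂ) where
  carrier := {f | ∃ j k l : V → ℕ, ∀ σ, f σ = ∏ v, mono a κ (j v) (k v) (l v) (σ v)}
  one_mem' := ⟨0, 0, 0, fun σ => by simp [mono]⟩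
  mul_mem' := by
    rintro f g ⟨j, k, l, hf⟩ ⟨j', k', l', hg⟩
    refine ⟨j + j', k + k', l + l', fun σ => ?_⟩
    rw [Pi.mul_apply, hf, hg, ← Finset.prod_mul_distrib]
    refine Finset.prod_congr rfl fun v _ => ?_
    simp only [mono, Pi.add_apply]
    ring

private theorem mono_mem (a : Fin 3) (κ : ℂ) (j k l : ℕ) (x : V) :
    (fun σ : Cfg V => mono a κ j k l (σ x)) ∈ monos V a κ :=
  ⟨Pi.single x j, Pi.single x k, Pi.single x l, fun σ => by
    rw [Finset.prod_eq_single x (fun v _ hv => by simp [mono, hv]) (by simp)]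
    simp⟩

private theorem monos_nonneg {a : Fin 3} {κ : ℂ} (hκ : ‖κ‖ = 1)
    (h0 : ∀ j k l, 0 ≤ mono a κ j k l (pole 1)) (Λ : Finset V) {f : Cfg V → ℂ}
    (hf : f ∈ monos V a κ) : 0 ≤ ∫ σ, f (Λ.piecewise σ fun _ => pole 1) ∂piM V := by
  obtain ⟨j, k, l, hf⟩ := hf
  have e : ∀ σ : Cfg V, f (Λ.piecewise σ fun _ => pole 1) =
      ∏ v, mono a κ (j v) (k v) (l v) (if v ∈ Λ then σ v else pole 1) := fun σ => hf _
  simp only [e]
  rw [piM, integral_fintype_prod_eq_prod
    fun v p => mono a κ (j v) (k v) (l v) (if v ∈ Λ then p else pole 1)]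
  refine Finset.prod_nonneg fun v _ => ?_
  split_ifs
  · exact integral_monomial_nonneg a κ hκ _ _ _
  · simpa using h0 _ _ _

private theorem exists_kappa (a : Fin 3) :
    ∃ κ : ℂ, ‖κ‖ = 1 ∧ ∀ j k l, 0 ≤ mono a κ j k l (pole 1) := by
  have key : ∀ (κ : ℂ) (r : ℝ), 0 ≤ r → κ * (co (a + 1) (pole 1) + Complex.I * co (a + 2) (pole 1)) =
      r → 0 ≤ co a (pole 1) → ∀ j k l, 0 ≤ mono a κ j k l (pole 1) := fun κ r hr h h' j k l => by
    rw [mono, h, Complex.conj_ofReal]
    exact_mod_cast (by positivity : 0 ≤ r ^ j * r ^ k * co a (pole 1) ^ l)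
  fin_cases a
  · exact ⟨1, norm_one, key 1 0 le_rfl (by simp) (by simp)⟩
  · exact ⟨-Complex.I, by simp, key _ 1 zero_le_one (by simp) (by simp)⟩
  · exact ⟨1, norm_one, key 1 1 zero_le_one (by simp) (by simp)⟩

/-- Diamagnetic inequality.  Choose `κ` of norm one such that `z (pole 1) ∈ {0, 1}` (`κ = 1` for
`a = 0, 2` and `κ = -i` for `a = 1`); also `co a (pole 1) ∈ {0, 1}`.  With `x = src e`, `y = tgt e`:
`z x * conj (z y) = P + i J`, so `ham + tw a h = ∑ e, b e * (s x s y + (e^{-ih}/2) z x conj (z y) +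
(e^{ih}/2) conj (z x) z y)` and `ham` is the case `h = 0`.  Apply `norm_integral_exp_le` with
`ι = E × Fin 3` to these functions of `Λ.piecewise σ (fun _ => pole 1)`: the functions
`σ ↦ ∏ v, z v ^ j v * conj (z v) ^ k v * s v ^ l v` form a submonoid containing them, and their
integrals factorise (`integral_fintype_prod_eq_prod`) into nonnegative factors. -/
theorem Mod.Ex_exp_tw_le (M : Mod V E) (Λ : Finset V) (a : Fin 3) (h : E → ℝ) :
    M.Ex Λ (expF (M.tw a h)) ≤ 1 := by
  obtain ⟨κ, hκ, h0⟩ := exists_kappa a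
  have hκ' : κ * starRingEnd ℂ κ = 1 := by
    rw [Complex.mul_conj, Complex.normSq_eq_norm_sq, hκ]
    simp
  set u : E × Fin 3 → Cfg V → ℂ := fun i σ =>
    mono a κ (![0, 1, 0] i.2) (![0, 0, 1] i.2) (![1, 0, 0] i.2) (σ (M.src i.1)) *
      mono a κ (![0, 0, 1] i.2) (![0, 1, 0] i.2) (![1, 0, 0] i.2) (σ (M.tgt i.1)) with hu
  set c : (E → ℝ) → E × Fin 3 → ℂ := fun h i => M.b i.1 *
    ![1, Complex.exp (-h i.1 * Complex.I) / 2, Complex.exp (h i.1 * Complex.I) / 2] i.2 with hc
  set d : E × Fin 3 → ℝ := fun i => M.b i.1 * ![1, 1 / 2, 1 / 2] i.2 with hd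
  have key : ∀ (h : E → ℝ) (σ : Cfg V),
      ∑ i, c h i * u i σ = ((M.tw a h σ + M.ham σ : ℝ) : ℂ) := fun h σ => by
    simp only [Mod.tw, Mod.ham, ContinuousMap.coe_sum, Finset.sum_apply, ← Finset.sum_add_distrib,
      Fintype.sum_prod_type, Complex.ofReal_sum]
    refine Finset.sum_congr rfl fun e _ => ?_
    simp only [ContinuousMap.smul_apply, ContinuousMap.coe_sum, Finset.sum_apply, sum_fin3 a,
      ContinuousMap.add_apply, ContinuousMap.mul_apply, ContinuousMap.sub_apply, sp_apply, Mod.P,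
      Mod.J, smul_eq_mul]
    rw [← sum_fin3 a fun i => c h (e, i) * u (e, i) σ, Fin.sum_univ_three]
    simp only [hc, hu, mono, Matrix.cons_val, pow_zero, pow_one, mul_one, one_mul, map_mul, map_add,
      Complex.conj_ofReal, Complex.conj_I, Complex.exp_mul_I, Complex.cos_neg, Complex.sin_neg]
    push_cast
    generalize (co (a + 1) (σ (M.src e)) : ℂ) = x₁
    generalize (co (a + 2) (σ (M.src e)) : ℂ) = x₂
    generalize (co (a + 1) (σ (M.tgt e)) : ℂ) = y₁
    generalize (co (a + 2) (σ (M.tgt e)) : ℂ) = y₂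
    have e1 : κ * (x₁ + Complex.I * x₂) * (starRingEnd ℂ κ * (y₁ + -Complex.I * y₂)) =
        (x₁ * y₁ + x₂ * y₂) + Complex.I * (x₂ * y₁ - x₁ * y₂) := by
      linear_combination ((x₁ + Complex.I * x₂) * (y₁ - Complex.I * y₂)) * hκ' -
        x₂ * y₂ * Complex.I_mul_I
    have e2 : starRingEnd ℂ κ * (x₁ + -Complex.I * x₂) * (κ * (y₁ + Complex.I * y₂)) =
        (x₁ * y₁ + x₂ * y₂) - Complex.I * (x₂ * y₁ - x₁ * y₂) := by
      linear_combination ((x₁ - Complex.I * x₂) * (y₁ + Complex.I * y₂)) * hκ' -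
        x₂ * y₂ * Complex.I_mul_I
    rw [e1, e2]
    linear_combination (-(M.b e : ℂ) * Complex.sin (h e) * (x₂ * y₁ - x₁ * y₂)) * Complex.I_mul_I
  have hd0 : ∀ i, (d i : ℂ) = c 0 i := fun ⟨e, i⟩ => by fin_cases i <;> simp [hc, hd]
  have H := norm_integral_exp_le (piM V) (fun i σ => u i (Λ.piecewise σ fun _ => pole 1))
    (fun i => ((continuous_mono ..).comp (by fun_prop)).mul
      ((continuous_mono ..).comp (by fun_prop)))
    (fun k => by
      simpa only [Finset.prod_apply, Pi.pow_apply] using monos_nonneg hκ h0 Λ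
        (prod_mem (t := univ) fun i _ =>
          pow_mem (show u i ∈ monos V a κ from mul_mem (mono_mem ..) (mono_mem ..)) (k i)))
    (c h) d fun ⟨e, i⟩ => by
      have h1 := Complex.norm_exp_ofReal_mul_I (-h e)
      have h2 := Complex.norm_exp_ofReal_mul_I (h e)
      push_cast at h1
      fin_cases i <;> simp [hc, hd, h1, h2, abs_of_nonneg (M.hb e), -neg_mul, div_eq_mul_inv]
  simp only [hd0, key, ← Complex.ofReal_exp, integral_complex_ofReal, Complex.ofReal_re,
    Complex.norm_real] at H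
  rw [Mod.Ex_apply, Mod.Pi_apply, div_le_one (M.N_one_pos _ _), Mod.N_apply, Mod.N_apply]
  simp only [expF_apply, ← Real.exp_add]
  refine (le_abs_self _).trans (H.trans_eq ?_)
  simp [Mod.tw]

end Crest.Agent.R167
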