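import Crest.Agent.R167.FKDefs

/-!
# rid 167, task Disint: the surface measure in the coordinates modulus, sign, angle
-/

set_option autoImplicit false
set_option linter.unusedSectionVars false

noncomputable section

namespace Crest.Agent.R167

open MeasureTheory Finset

variable {V E : Type} [Fintype V] [DecidableEq V] [Fintype E] [DecidableEq E]

/-- averaging over a family of measure preserving maps -/
theorem disint_abs {X A T G : Type} [TopologicalSpace X] [CompactSpace X] [MeasurableSpace X]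
    [BorelSpace X] [SecondCountableTopology X] [LocallyCompactSpace X]
    [TopologicalSpace A] [MeasurableSpace A] [BorelSpace A] [SecondCountableTopology A]
    [LocallyCompactSpace A]
    [TopologicalSpace T] [CompactSpace T] [MeasurableSpace T] [BorelSpace T]
    [SecondCountableTopology T] [Fintype G] [Nonempty G]
    (μ : Measure X) [IsProbabilityMeasure μ] (α : Measure A) (τ : Measure T)
    [IsProbabilityMeasure τ] {m : X → A} (hm : MeasurePreserving m μ α)
    (S : G → T → X → X) (hS : ∀ g t, MeasurePreserving (S g t) μ μ)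
    (hSc : ∀ g, Continuous fun p : X × T => S g p.2 p.1)
    (Ψ : A → G → T → X) (hΨ : ∀ g, Continuous fun p : A × T => Ψ p.1 g p.2)
    {F : X → ℝ} (hF : Continuous F)
    (h : ∀ x, ∑ g, ∫ t, F (S g t x) ∂τ = ∑ g, ∫ t, F (Ψ (m x) g t) ∂τ) :
    ∫ x, F x ∂μ = ∫ a, (Fintype.card G : ℝ)⁻¹ * ∑ g, ∫ t, F (Ψ a g t) ∂τ ∂α := by
  have h1 : ∀ g, ∫ x, F x ∂μ = ∫ x, ∫ t, F (S g t x) ∂τ ∂μ := by
    intro g
    rw [integral_integral_swap (f := fun x t => F (S g t x))
      (integrable_cont _ (hF.comp (hSc g)))]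
    have : ∀ t, ∫ x, F (S g t x) ∂μ = ∫ x, F x ∂μ := fun t => by
      conv_rhs => rw [← (hS g t).map_eq]
      rw [integral_map (hS g t).measurable.aemeasurable hF.aestronglyMeasurable]
    simp only [this, integral_const, probReal_univ, one_smul]
  have h2 : ∀ g, Continuous fun x => ∫ t, F (S g t x) ∂τ := fun g =>
    continuous_integral_param τ (f := fun x t => F (S g t x)) (hF.comp (hSc g))
  have h3 : Continuous fun a => ∑ g, ∫ t, F (Ψ a g t) ∂τ :=
    continuous_finsetSum _ fun g _ =>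
      continuous_integral_param τ (f := fun a t => F (Ψ a g t)) (hF.comp (hΨ g))
  have h4 : (Fintype.card G : ℝ) * ∫ x, F x ∂μ = ∫ a, ∑ g, ∫ t, F (Ψ a g t) ∂τ ∂α := by
    rw [← hm.map_eq, integral_map hm.measurable.aemeasurable h3.aestronglyMeasurable]
    simp only [← h]
    rw [integral_finsetSum _ fun g _ => integrable_cont _ (h2 g)]
    simp only [← h1]
    rw [Finset.sum_const, Finset.card_univ, nsmul_eq_mul]
  have h5 : (Fintype.card G : ℝ) ≠ 0 := by exact_mod_cast Fintype.card_ne_zero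
  rw [integral_const_mul, ← h4, inv_mul_cancel_left₀ h5]

/-- the rotation about the axis `0` by an element of the circle -/
def disintR (θ : TT) (σ : Sp) : Sp :=
  mkSp ![co 0 σ, cosT θ * co 1 σ - sinT θ * co 2 σ, sinT θ * co 1 σ + cosT θ * co 2 σ] (by
    simp only [Fin.sum_univ_three, Matrix.cons_val_zero, Matrix.cons_val_one, Matrix.cons_val]
    linear_combination co_sq σ + (co 1 σ ^ 2 + co 2 σ ^ 2) * cosT_sq_add θ)

theorem disintR_zero (θ : TT) (σ : Sp) : co 0 (disintR θ σ) = co 0 σ := rfl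
theorem disintR_one (θ : TT) (σ : Sp) :
    co 1 (disintR θ σ) = cosT θ * co 1 σ - sinT θ * co 2 σ := rfl
theorem disintR_two (θ : TT) (σ : Sp) :
    co 2 (disintR θ σ) = sinT θ * co 1 σ + cosT θ * co 2 σ := rfl

theorem disintR_cont {X : Type*} [TopologicalSpace X] {θ : X → TT} {σ : X → Sp}
    (hθ : Continuous θ) (hσ : Continuous σ) : Continuous fun p => disintR (θ p) (σ p) := by
  refine continuous_sp fun i => ?_
  rcases fin3_cases 0 i with rfl | rfl | rfl
  · simp only [disintR_zero]; fun_prop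
  · simp only [zero_add, disintR_one]; fun_prop
  · simp only [zero_add, disintR_two]; fun_prop

theorem disintR_coe (t : ℝ) : disintR (t : TT) = rot 0 (2 * Real.pi * t) := by
  funext σ
  refine sp_ext' 0 ?_ ?_ ?_
  · rw [disintR_zero, co_rot_self]
  · rw [co_rot_one, zero_add, zero_add, disintR_one, cosT_coe, sinT_coe]
  · rw [co_rot_two, zero_add, zero_add, disintR_two, cosT_coe, sinT_coe]

theorem disintR_mp (θ : TT) : MeasurePreserving (disintR θ) nu nu := by
  induction θ using QuotientAddGroup.induction_on with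
  | H t =>
    rw [disintR_coe]
    exact measurePreserving_rot _ _

theorem disintR_Psi (θ : TT) (a : II) (ε : ℤˣ) (φ : TT) :
    disintR θ (Psi a ε φ) = Psi a ε (θ + φ) := by
  refine sp_ext' 0 rfl ?_ ?_
  · simp only [zero_add, disintR_one, co_Psi_one, co_Psi_two, cosT_add]; ring
  · simp only [zero_add, disintR_two, co_Psi_one, co_Psi_two, sinT_add]; ring

/-- the change of the sign -/
def disintF (ε : ℤˣ) (σ : Sp) : Sp := rot 1 (if ε = 1 then 0 else Real.pi) σ

theorem disintF_Psi (ε : ℤˣ) (a : II) (ε₀ : ℤˣ) (φ : TT) :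
    disintF ε (Psi a ε₀ φ) = Psi a (ε * ε₀) (if ε = 1 then φ else -φ) := by
  rcases Int.units_eq_one_or ε with rfl | rfl
  · simp [disintF]
  · have h : (-1 : ℤˣ) ≠ 1 := by decide
    simp only [disintF, if_neg h]
    refine sp_ext' 1 ?_ ?_ ?_
    · rw [co_rot_self, co_Psi_one, co_Psi_one, cosT_neg]
    · rw [co_rot_one]
      change _ * co 2 _ - _ * co 0 _ = co 2 _
      simp [sinT_neg]
    · rw [co_rot_two]
      change _ * co 2 _ + _ * co 0 _ = co 0 _
      simp

theorem disint_polar (σ : Sp) : ∃ ε θ, Psi (modu σ) ε θ = σ := by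
  have hr : rad (modu σ) = ‖(⟨co 1 σ, co 2 σ⟩ : ℂ)‖ := by
    rw [Complex.norm_def, Complex.normSq_mk]
    unfold rad
    congr 1
    change 1 - |co 0 σ| ^ 2 = _
    rw [sq_abs]
    linear_combination - co_sq σ
  have h2 : 2 * Real.pi * (Complex.arg ⟨co 1 σ, co 2 σ⟩ / (2 * Real.pi)) =
      Complex.arg ⟨co 1 σ, co 2 σ⟩ := by
    have := Real.pi_pos
    field_simp
  refine ⟨if 0 ≤ co 0 σ then 1 else -1,
    ((Complex.arg ⟨co 1 σ, co 2 σ⟩ / (2 * Real.pi) : ℝ) : TT), sp_ext' 0 ?_ ?_ ?_⟩
  · rw [co_Psi_zero]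
    change _ * |co 0 σ| = _
    split_ifs with h
    · rw [sg_one, one_mul, abs_of_nonneg h]
    · rw [sg_neg, sg_one, abs_of_neg (not_le.1 h)]; ring
  · rw [zero_add, co_Psi_one, cosT_coe, h2, hr, Complex.norm_mul_cos_arg]
  · rw [zero_add, co_Psi_two, sinT_coe, h2, hr, Complex.norm_mul_sin_arg]

theorem disint_mp (ε : ℤˣ) (θ : TT) :
    MeasurePreserving (fun σ => disintR θ (disintF ε σ)) nu nu :=
  (disintR_mp θ).comp (measurePreserving_rot _ _)

/-- the action on configurations -/
def disintS (ε : V → ℤˣ) (θ : V → TT) (σ : Cfg V) : Cfg V :=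
  fun x => disintR (θ x) (disintF (ε x) (σ x))

theorem disintS_mp (ε : V → ℤˣ) (θ : V → TT) :
    MeasurePreserving (disintS ε θ) (piM V) (piM V) :=
  measurePreserving_pi (fun _ : V => nu) (fun _ : V => nu)
    (f := fun x σ => disintR (θ x) (disintF (ε x) σ)) fun x => disint_mp (ε x) (θ x)

theorem disintS_cont (ε : V → ℤˣ) :
    Continuous fun p : Cfg V × (V → TT) => disintS ε p.2 p.1 :=
  continuous_pi fun x => disintR_cont (by fun_prop)
    (continuous_rot 1 continuous_const (by fun_prop))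

theorem disint_modu : MeasurePreserving modu nu lam := ⟨continuous_modu.measurable, rfl⟩

/-- By `integral_rot`, `∫ f = ∫ f ∘ rot 1 π` (this negates `co 0` and `co 2`) and
`∫ f = ∫ σ, ∫ θ, f (R θ σ)`, where `R θ` is the rotation about the axis `0` by `θ : TT`
(`R (t : TT) = rot 0 (2 π t)`; define it by `mkSp` with `cosT`, `sinT`).  Every `σ` is `Psi (modu σ) ε θ₀`
(take `θ₀` from `Complex.arg`), `R θ (Psi a ε θ₀) = Psi a ε (θ + θ₀)`, and `muT` is translation
invariant, so `∫ θ, f (R θ σ) = ∫ θ, f (Psi (modu σ) ε θ)`, and `rot 1 π σ` has the opposite sign. -/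
theorem integral_nu {f : Sp → ℝ} (hf : Continuous f) :
    ∫ σ, f σ ∂nu = ∫ a, (2 : ℝ)⁻¹ * ∑ ε : ℤˣ, ∫ θ, f (Psi a ε θ) ∂muT ∂lam := by
  have h := disint_abs nu lam muT disint_modu (fun ε θ σ => disintR θ (disintF ε σ)) disint_mp
    (fun ε => disintR_cont continuous_snd (continuous_rot 1 continuous_const continuous_fst))
    Psi (fun ε => by fun_prop) hf fun σ => by
      obtain ⟨ε₀, θ₀, h0⟩ := disint_polar σ
      generalize modu σ = a at h0 ⊢
      subst h0
      simp only [disintF_Psi, disintR_Psi]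
      rw [← Equiv.sum_comp (Equiv.mulRight ε₀) fun ε => ∫ θ, f (Psi a ε θ) ∂muT]
      refine Finset.sum_congr rfl fun ε _ => ?_
      exact integral_add_right_eq_self (fun θ => f (Psi a (ε * ε₀) θ)) _
  rw [h, Fintype.card_units_int]
  norm_num

/-- Either show that `Psi` is measure preserving from `lam ⊗ uniform ⊗ muT` to `nu`
(`ext_of_forall_integral_eq_of_IsFiniteMeasure`) and use `measurePreserving_pi`,
`measurePreserving_arrowProdEquivProdArrow`; or replace the spins one at a time (induction on a finset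
of vertices, `integral_nu` and Fubini). -/
theorem integral_piM {F : Cfg V → ℝ} (hF : Continuous F) :
    ∫ σ, F σ ∂piM V = ∫ a, (Fintype.card (V → ℤˣ) : ℝ)⁻¹ *
      ∑ ε : V → ℤˣ, ∫ θ, F (fun x => Psi (a x) (ε x) (θ x)) ∂muV V ∂lamV V := by
  refine disint_abs (piM V) (lamV V) (muV V) (m := fun σ x => modu (σ x))
    (measurePreserving_pi _ _ fun _ => disint_modu) disintS disintS_mp disintS_cont
    (fun a ε θ x => Psi (a x) (ε x) (θ x)) (fun ε => by fun_prop) hF fun σ => ?_
  unfold disintS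
  choose ε₀ θ₀ h0 using fun x => disint_polar (σ x)
  obtain ⟨a, ha⟩ : ∃ a : V → II, ∀ x, modu (σ x) = a x := ⟨_, fun _ => rfl⟩
  simp only [ha] at h0 ⊢
  simp only [← h0, disintF_Psi, disintR_Psi]
  rw [← Equiv.sum_comp (Equiv.mulRight ε₀)
    fun ε => ∫ θ, F (fun x => Psi (a x) (ε x) (θ x)) ∂muV V]
  refine Finset.sum_congr rfl fun ε _ => ?_
  exact integral_add_right_eq_self
    (fun θ : V → TT => F fun x => Psi (a x) (ε x * ε₀ x) (θ x))
    fun x => if ε x = 1 then θ₀ x else -θ₀ x

namespace Mod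

variable (M : Mod V E)

/-- `cosT_sub` -/
theorem exp_ham_Psi (a : V → II) (ε : V → ℤˣ) (θ : V → TT) :
    Real.exp (M.ham fun x => Psi (a x) (ε x) (θ x)) = M.Isg (M.Jc a) ε *
      Real.exp (∑ e, M.Kc a e * cosT (θ (M.src e) - θ (M.tgt e))) := by
  unfold Isg
  rw [← Real.exp_add, ← Finset.sum_add_distrib]
  congr 1
  simp only [ham, ContinuousMap.coe_sum, Finset.sum_apply, ContinuousMap.coe_smul, Pi.smul_apply,
    ContinuousMap.coe_mul, Pi.mul_apply, sp_apply, smul_eq_mul, Fin.sum_univ_three,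
    ContinuousMap.coe_add, Pi.add_apply, co_Psi_zero, co_Psi_one, co_Psi_two]
  refine Finset.sum_congr rfl fun e _ => ?_
  rw [cosT_sub, Jc, Kc]
  ring

/-- `piecewise (Psi a ε θ) (pole ∘ ξ) = Psi (piecewise a 1) (piecewise ε ξ) θ` by `Psi_one`. -/
theorem N_pole (Λ : Finset V) (ξ : V → ℤˣ) :
    M.N Λ 1 (fun x => pole (ξ x)) = (Fintype.card (V → ℤˣ) : ℝ)⁻¹ *
      ∫ a, M.XY (M.Kc (Λ.piecewise a 1)) * M.ZI Λ ξ (M.Jc (Λ.piecewise a 1)) ∂lamV V := by
  rw [N_apply, integral_piM (by fun_prop), ← integral_const_mul]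
  refine integral_congr_ae (Filter.Eventually.of_forall fun a => ?_)
  simp only
  congr 1
  rw [ZI, Finset.mul_sum]
  refine Finset.sum_congr rfl fun ε _ => ?_
  rw [XY, mul_comm, ← integral_const_mul]
  refine integral_congr_ae (Filter.Eventually.of_forall fun θ => ?_)
  have h : (Λ.piecewise (fun x => Psi (a x) (ε x) (θ x)) fun x => pole (ξ x)) =
      fun x => Psi (Λ.piecewise a 1 x) (Λ.piecewise ε ξ x) (θ x) := by
    funext x
    by_cases hx : x ∈ Λ
    · simp only [Finset.piecewise_eq_of_mem _ _ _ hx]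
    · simp only [Finset.piecewise_eq_of_notMem _ _ _ hx, Pi.one_apply, Psi_one]
  simp only [h, ContinuousMap.one_apply, one_mul]
  exact M.exp_ham_Psi _ _ _

theorem N_univ_one (ξ : Cfg V) :
    M.N univ 1 ξ = (Fintype.card (V → ℤˣ) : ℝ)⁻¹ *
      ∫ a, M.XY (M.Kc a) * ∑ ε : V → ℤˣ, M.Isg (M.Jc a) ε ∂lamV V := by
  rw [N_apply, integral_piM (by fun_prop), ← integral_const_mul]
  refine integral_congr_ae (Filter.Eventually.of_forall fun a => ?_)
  simp only
  congr 1
  rw [Finset.mul_sum]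
  refine Finset.sum_congr rfl fun ε _ => ?_
  rw [XY, mul_comm, ← integral_const_mul]
  refine integral_congr_ae (Filter.Eventually.of_forall fun θ => ?_)
  simp only [Finset.piecewise_univ, ContinuousMap.one_apply, one_mul]
  exact M.exp_ham_Psi _ _ _

theorem N_univ_sp (x y : V) (ξ : Cfg V) :
    M.N univ (sp x 0 * sp y 0) ξ = (Fintype.card (V → ℤˣ) : ℝ)⁻¹ *
      ∫ a, (a x : ℝ) * a y * (M.XY (M.Kc a) *
        ∑ ε : V → ℤˣ, sg (ε x) * sg (ε y) * M.Isg (M.Jc a) ε) ∂lamV V := by
  rw [N_apply, integral_piM (by fun_prop), ← integral_const_mul]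
  refine integral_congr_ae (Filter.Eventually.of_forall fun a => ?_)
  simp only
  congr 1
  rw [Finset.mul_sum, Finset.mul_sum]
  refine Finset.sum_congr rfl fun ε _ => ?_
  rw [XY, ← integral_mul_const, ← integral_const_mul]
  refine integral_congr_ae (Filter.Eventually.of_forall fun θ => ?_)
  simp only [Finset.piecewise_univ, ContinuousMap.mul_apply, sp_apply, co_Psi_zero]
  rw [M.exp_ham_Psi]
  ring

end Mod

end Crest.Agent.R167
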