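import Crest.Agent.R167.Ising
import Crest.Agent.R167.Disint
import Crest.Agent.R167.Calc

/-!
# rid 167, task Dom: the conditional probability of a crossing
-/

set_option autoImplicit false
set_option linter.unusedSectionVars false

noncomputable section

namespace Crest.Agent.R167

open MeasureTheory Finset

variable {V E : Type} [Fintype V] [DecidableEq V] [Fintype E] [DecidableEq E]

namespace Mod

variable (M : Mod V E)

theorem only_Jc (F : Finset E) (a : V → II) : (M.only F).Jc a = res F (M.Jc a) := by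
  funext e
  change (if e ∈ F then M.b e else 0) * _ = if e ∈ F then M.b e * _ else 0
  split_ifs
  · rfl
  · exact zero_mul _

theorem dom_cont_MM (A : Set (Finset E)) :
    Continuous fun a : V → II => M.XY (M.Kc a) * ∑ ε : V → ℤˣ, M.fk (M.Jc a) A ε := by
  fun_prop

theorem dom_fk_inter_add (J : E → ℝ) (A B : Set (Finset E)) (ε : V → ℤˣ) :
    M.fk J (B ∩ A) ε + M.fk J (Bᶜ ∩ A) ε = M.fk J A ε := by
  unfold fk
  rw [← Finset.sum_add_distrib]
  refine Finset.sum_congr rfl fun ω _ => ?_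
  by_cases h1 : M.compat ω ε <;> by_cases h2 : ω ∈ A <;> by_cases h3 : ω ∈ B <;> simp [h1, h2, h3]

theorem dom_MM_inter_add (A B : Set (Finset E)) : M.MM (B ∩ A) + M.MM (Bᶜ ∩ A) = M.MM A := by
  unfold MM
  rw [← integral_add (integrable_cont _ (M.dom_cont_MM _)) (integrable_cont _ (M.dom_cont_MM _))]
  refine integral_congr_ae (Filter.Eventually.of_forall fun a => ?_)
  simp only
  rw [← mul_add, ← Finset.sum_add_distrib]
  simp only [dom_fk_inter_add]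

theorem MM_mono {A B : Set (Finset E)} (h : A ⊆ B) : M.MM A ≤ M.MM B := by
  rw [← M.dom_MM_inter_add B A, Set.inter_eq_left.2 h]
  exact le_add_of_nonneg_right (M.MM_nonneg _)

theorem MM_empty : M.MM ∅ = 0 := by
  simp [MM, fk]

theorem MM_inter_add (A B : Set (Finset E)) : M.MM (B ∩ A) + M.MM (Bᶜ ∩ A) = M.MM A := by
  exact M.dom_MM_inter_add A B

theorem MM_union_le (A B : Set (Finset E)) : M.MM (A ∪ B) ≤ M.MM A + M.MM B := by
  rw [← M.dom_MM_inter_add (A ∪ B) A]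
  refine add_le_add (M.MM_mono Set.inter_subset_left) (M.MM_mono ?_)
  rintro ω ⟨h1, h2 | h2⟩
  · exact absurd h2 h1
  · exact h2

theorem MM_biUnion_le {ι : Type*} (s : Finset ι) (A : ι → Set (Finset E)) :
    M.MM (⋃ i ∈ s, A i) ≤ ∑ i ∈ s, M.MM (A i) := by
  classical
  induction s using Finset.induction_on with
  | empty => simp [MM_empty]
  | insert i s hi ih =>
    rw [Finset.set_biUnion_insert, Finset.sum_insert hi]
    exact (M.MM_union_le _ _).trans (add_le_add le_rfl ih)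

theorem dom_only_Kc (Λ : Finset V) (a : V → II) :
    (M.only (M.ET Λ)).Kc (Λ.piecewise a 1) = M.Kc (Λ.piecewise a 1) := by
  funext e
  change (if e ∈ M.ET Λ then M.b e else 0) * (rad (Λ.piecewise a 1 (M.src e)) *
    rad (Λ.piecewise a 1 (M.tgt e))) = M.b e * _
  split_ifs with h
  · rfl
  · have h1 : M.src e ∉ Λ := fun h2 => h (Finset.mem_filter.2 ⟨Finset.mem_univ _, Or.inl h2⟩)
    rw [Finset.piecewise_eq_of_notMem _ _ _ h1, Pi.one_apply, rad_one]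
    simp

theorem dom_pw_inf (Λ : Finset V) (a a' a'' : V → II) :
    Λ.piecewise a a' ⊓ Λ.piecewise a'' 1 = Λ.piecewise (a ⊓ a'') a' := by
  funext x
  by_cases hx : x ∈ Λ
  · simp only [Pi.inf_apply, Finset.piecewise_eq_of_mem _ _ _ hx]
  · simp only [Pi.inf_apply, Finset.piecewise_eq_of_notMem _ _ _ hx, Pi.one_apply]
    exact inf_eq_left.2 unitInterval.le_one'

theorem dom_pw_sup (Λ : Finset V) (a a' a'' : V → II) :
    Λ.piecewise a a' ⊔ Λ.piecewise a'' 1 = Λ.piecewise (a ⊔ a'') 1 := by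
  funext x
  by_cases hx : x ∈ Λ
  · simp only [Pi.sup_apply, Finset.piecewise_eq_of_mem _ _ _ hx]
  · simp only [Pi.sup_apply, Finset.piecewise_eq_of_notMem _ _ _ hx, Pi.one_apply]
    exact sup_eq_right.2 unitInterval.le_one'

/-- Apply `four_functions` to `f₁, f₃` the two integrands below and
`f₂ a = XY (Kc (piecewise a 1)) * ZI Λ ξ (J (piecewise a 1))`, `f₄` the same with `1` in place of `ξ`, where
`J = (M.only (M.ET Λ)).Jc`.  The pointwise condition is the product of `XY_Kc_le` (for `M`) and `ZI_Jc_le`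
(for `M.only (M.ET Λ)`, whose `XY`, `ZI`, `NI`, `Cross` are those of `M` by `rfl`), as
`piecewise a a' ⊓ piecewise a'' 1 = piecewise (a ⊓ a'') a'`, `piecewise a a' ⊔ piecewise a'' 1 =
piecewise (a ⊔ a'') 1`.  By `N_pole` and `(M.only _).Kc (piecewise a 1) = M.Kc (piecewise a 1)` (`rad_one`)
the hypothesis says `(1 - η) ∫ f₄ ≤ ∫ f₂`, and `∫ f₄ > 0` (`N_one_pos`). -/
theorem holley (Λ : Finset V) (ξ : V → ℤˣ) {η : ℝ}
    (h : (1 - η) * (M.only (M.ET Λ)).N Λ 1 (fun _ => pole 1) ≤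
      (M.only (M.ET Λ)).N Λ 1 (fun x => pole (ξ x))) (a' : V → II) (ε' : V → ℤˣ) :
    (1 - η) * ∫ a, M.XY (M.Kc (Λ.piecewise a a')) *
        M.ZI Λ ε' ((M.only (M.ET Λ)).Jc (Λ.piecewise a a')) ∂lamV V ≤
      ∫ a, M.XY (M.Kc (Λ.piecewise a a')) *
        M.NI Λ ε' (M.Cross Λ ξ)ᶜ ((M.only (M.ET Λ)).Jc (Λ.piecewise a a')) ∂lamV V := by
  have hJ := (M.only (M.ET Λ)).Jc_nonneg
  have h4 := four_functions lam
    (f₁ := fun a => M.XY (M.Kc (Λ.piecewise a a')) *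
      M.ZI Λ ε' ((M.only (M.ET Λ)).Jc (Λ.piecewise a a')))
    (f₂ := fun a => M.XY (M.Kc (Λ.piecewise a 1)) *
      M.ZI Λ ξ ((M.only (M.ET Λ)).Jc (Λ.piecewise a 1)))
    (f₃ := fun a => M.XY (M.Kc (Λ.piecewise a a')) *
      M.NI Λ ε' (M.Cross Λ ξ)ᶜ ((M.only (M.ET Λ)).Jc (Λ.piecewise a a')))
    (f₄ := fun a => M.XY (M.Kc (Λ.piecewise a 1)) *
      M.ZI Λ 1 ((M.only (M.ET Λ)).Jc (Λ.piecewise a 1)))
    (by fun_prop) (by fun_prop) (by fun_prop) (by fun_prop)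
    (fun a => mul_nonneg (M.XY_nonneg _) (M.ZI_pos _ _ _).le)
    (fun a => mul_nonneg (M.XY_nonneg _) (M.ZI_pos _ _ _).le)
    (fun a => mul_nonneg (M.XY_nonneg _) (M.NI_nonneg _ _ _ (hJ _)))
    (fun a => mul_nonneg (M.XY_nonneg _) (M.ZI_pos _ _ _).le)
    (fun a a'' => by
      have h1 := M.XY_Kc_le (Λ.piecewise a a') (Λ.piecewise a'' 1)
      have h2 : M.ZI Λ ε' ((M.only (M.ET Λ)).Jc (Λ.piecewise a a')) *
          M.ZI Λ ξ ((M.only (M.ET Λ)).Jc (Λ.piecewise a'' 1)) ≤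
          M.NI Λ ε' (M.Cross Λ ξ)ᶜ
            ((M.only (M.ET Λ)).Jc (Λ.piecewise a a' ⊓ Λ.piecewise a'' 1)) *
          M.ZI Λ 1 ((M.only (M.ET Λ)).Jc (Λ.piecewise a a' ⊔ Λ.piecewise a'' 1)) :=
        (M.only (M.ET Λ)).ZI_Jc_le Λ ε' ξ (Λ.piecewise a a') (Λ.piecewise a'' 1)
      rw [dom_pw_inf, dom_pw_sup] at h1 h2
      have h3 := mul_le_mul h1 h2 (mul_pos (M.ZI_pos _ _ _) (M.ZI_pos _ _ _)).le
        (mul_nonneg (M.XY_nonneg _) (M.XY_nonneg _))
      rw [mul_mul_mul_comm, mul_mul_mul_comm (M.XY _) (M.XY _) (M.NI _ _ _ _)] at h3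
      exact h3)
  have e2 : (M.only (M.ET Λ)).N Λ 1 (fun x => pole (ξ x)) = (Fintype.card (V → ℤˣ) : ℝ)⁻¹ *
      ∫ a, M.XY (M.Kc (Λ.piecewise a 1)) *
        M.ZI Λ ξ ((M.only (M.ET Λ)).Jc (Λ.piecewise a 1)) ∂lamV V := by
    rw [N_pole]
    simp only [dom_only_Kc]
    rfl
  have e4 : (M.only (M.ET Λ)).N Λ 1 (fun _ => pole 1) = (Fintype.card (V → ℤˣ) : ℝ)⁻¹ *
      ∫ a, M.XY (M.Kc (Λ.piecewise a 1)) *
        M.ZI Λ 1 ((M.only (M.ET Λ)).Jc (Λ.piecewise a 1)) ∂lamV V := by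
    have := (M.only (M.ET Λ)).N_pole Λ 1
    simp only [dom_only_Kc] at this
    exact this
  have hpos := (M.only (M.ET Λ)).N_one_pos Λ fun _ => pole 1
  have hc : (0 : ℝ) < (Fintype.card (V → ℤˣ) : ℝ)⁻¹ :=
    inv_pos.2 (by exact_mod_cast Fintype.card_pos)
  rw [e4] at hpos
  rw [e2, e4, mul_left_comm] at h
  have h5 := le_of_mul_le_mul_left h hc
  have h6 := (mul_pos_iff_of_pos_left hc).1 hpos
  have h7 : 0 ≤ ∫ a, M.XY (M.Kc (Λ.piecewise a a')) *
      M.ZI Λ ε' ((M.only (M.ET Λ)).Jc (Λ.piecewise a a')) ∂lamV V :=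
    integral_nonneg fun a => mul_nonneg (M.XY_nonneg _) (M.ZI_pos _ _ _).le
  refine le_of_mul_le_mul_right (le_trans ?_ h4) h6
  rw [mul_comm (1 - η), mul_assoc]
  exact mul_le_mul_of_nonneg_left h5 h7

theorem dom_wt_res_zero {F : Finset E} (J : E → ℝ) {ω : Finset E} {e : E} (he : e ∈ ω)
    (hF : e ∉ F) : wt (res F J) ω = 0 := by
  refine Finset.prod_eq_zero (Finset.mem_univ e) ?_
  simp [he, res, hF]

theorem dom_wt_split (F : Finset E) (J : E → ℝ) (ω : Finset E) :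
    wt J ω = wt (res F J) (ω ∩ F) * wt (res Fᶜ J) (ω \ F) := by
  unfold wt
  rw [← Finset.prod_mul_distrib]
  refine Finset.prod_congr rfl fun e _ => ?_
  by_cases h1 : e ∈ F <;> by_cases h2 : e ∈ ω <;> simp [res, h1, h2]

theorem dom_compat_split (F ω : Finset E) (ε : V → ℤˣ) :
    M.compat ω ε ↔ M.compat (ω ∩ F) ε ∧ M.compat (ω \ F) ε := by
  constructor
  · intro h
    exact ⟨fun e he => h e (Finset.mem_inter.1 he).1, fun e he => h e (Finset.mem_sdiff.1 he).1⟩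
  · rintro ⟨h1, h2⟩ e he
    by_cases hF : e ∈ F
    · exact h1 e (Finset.mem_inter.2 ⟨he, hF⟩)
    · exact h2 e (Finset.mem_sdiff.2 ⟨he, hF⟩)

/-- `wt (res F J) ω` vanishes unless `ω ⊆ F`; use the bijection `ω ↦ (ω ∩ F, ω \ F)`. -/
theorem fk_split (F : Finset E) (J : E → ℝ) {A B : Set (Finset E)}
    (hA : ∀ ω, ω ∈ A ↔ ω \ F ∈ A) (hB : ∀ ω, ω ∈ B ↔ ω ∩ F ∈ B) (ε : V → ℤˣ) :
    M.fk J (B ∩ A) ε = M.fk (res F J) B ε * M.fk (res Fᶜ J) A ε := by
  classical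
  unfold fk
  rw [Finset.sum_mul_sum, ← Finset.sum_product']
  refine Finset.sum_of_injOn (fun ω => (ω ∩ F, ω \ F)) ?_ ?_ ?_ ?_
  · intro ω _ ω' _ h
    obtain ⟨h1, h2⟩ := Prod.mk.inj h
    rw [← Finset.sdiff_union_inter ω F, ← Finset.sdiff_union_inter ω' F, h1, h2]
  · intro ω _
    simp
  · rintro ⟨ω₁, ω₂⟩ - h
    by_cases h1 : ∃ e ∈ ω₁, e ∉ F
    · obtain ⟨e, he, hF⟩ := h1
      simp [dom_wt_res_zero J he hF]
    by_cases h2 : ∃ e ∈ ω₂, e ∈ F
    · obtain ⟨e, he, hF⟩ := h2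
      simp [dom_wt_res_zero (F := Fᶜ) J he (by simpa using hF)]
    push Not at h1 h2
    refine absurd ⟨ω₁ ∪ ω₂, by simp, ?_⟩ h
    refine Prod.ext ?_ ?_ <;> ext e <;>
      simp only [Finset.mem_inter, Finset.mem_sdiff, Finset.mem_union] <;>
      have := h1 e <;> have := h2 e <;> tauto
  · intro ω _
    simp only
    rw [dom_wt_split F J ω]
    by_cases h1 : M.compat (ω ∩ F) ε ∧ ω ∩ F ∈ B
    · by_cases h2 : M.compat (ω \ F) ε ∧ ω \ F ∈ A
      · rw [if_pos h1, if_pos h2, if_pos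
          ⟨(M.dom_compat_split F ω ε).2 ⟨h1.1, h2.1⟩, (hB ω).2 h1.2, (hA ω).2 h2.2⟩]
      · rw [if_neg h2, mul_zero, if_neg fun h =>
          h2 ⟨((M.dom_compat_split F ω ε).1 h.1).2, (hA ω).1 h.2.2⟩]
    · rw [if_neg h1, zero_mul, if_neg fun h =>
        h1 ⟨((M.dom_compat_split F ω ε).1 h.1).1, (hB ω).1 h.2.1⟩]

/-- the second factor only depends on the data outside `Λ` -/
theorem fk_out (Λ : Finset V) (A : Set (Finset E)) (a a' : V → II) (ε ε' : V → ℤˣ) :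
    M.fk (res (M.ET Λ)ᶜ (M.Jc (Λ.piecewise a a'))) A (Λ.piecewise ε ε') =
      M.fk (res (M.ET Λ)ᶜ (M.Jc a')) A ε' := by
  have hn : ∀ e, e ∉ M.ET Λ → M.src e ∉ Λ ∧ M.tgt e ∉ Λ := fun e he =>
    ⟨fun h => he (Finset.mem_filter.2 ⟨Finset.mem_univ _, Or.inl h⟩),
      fun h => he (Finset.mem_filter.2 ⟨Finset.mem_univ _, Or.inr h⟩)⟩
  have h1 : res (M.ET Λ)ᶜ (M.Jc (Λ.piecewise a a')) = res (M.ET Λ)ᶜ (M.Jc a') := by
    funext e
    unfold res
    split_ifs with h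
    · obtain ⟨h2, h3⟩ := hn e (Finset.mem_compl.1 h)
      simp only [Jc, Finset.piecewise_eq_of_notMem _ _ _ h2, Finset.piecewise_eq_of_notMem _ _ _ h3]
    · rfl
  rw [h1]
  unfold fk
  refine Finset.sum_congr rfl fun ω _ => ?_
  by_cases h2 : ∃ e ∈ ω, e ∈ M.ET Λ
  · obtain ⟨e, he, hF⟩ := h2
    simp [dom_wt_res_zero (F := (M.ET Λ)ᶜ) (M.Jc a') he (by simpa using hF)]
  · push Not at h2
    have h3 : M.compat ω (Λ.piecewise ε ε') ↔ M.compat ω ε' := by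
      refine forall₂_congr fun e he => ?_
      obtain ⟨h4, h5⟩ := hn e (h2 e he)
      rw [Finset.piecewise_eq_of_notMem _ _ _ h4, Finset.piecewise_eq_of_notMem _ _ _ h5]
    by_cases h6 : M.compat ω ε' ∧ ω ∈ A
    · rw [if_pos h6, if_pos ⟨h3.2 h6.1, h6.2⟩]
    · rw [if_neg h6, if_neg fun h => h6 ⟨h3.1 h.1, h.2⟩]

/-- `integral_pw`, `sum_pw`, `fk_split`, `fk_out`, `only_Jc` -/
theorem MM_inter_eq (Λ : Finset V) {A B : Set (Finset E)}
    (hA : ∀ ω, ω ∈ A ↔ ω \ M.ET Λ ∈ A) (hB : ∀ ω, ω ∈ B ↔ ω ∩ M.ET Λ ∈ B) :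
    M.MM (B ∩ A) = (Fintype.card (V → ℤˣ) : ℝ)⁻¹ * ∫ a', ∑ ε' : V → ℤˣ,
      M.fk (res (M.ET Λ)ᶜ (M.Jc a')) A ε' * ∫ a, M.XY (M.Kc (Λ.piecewise a a')) *
        M.NI Λ ε' B ((M.only (M.ET Λ)).Jc (Λ.piecewise a a')) ∂lamV V ∂lamV V := by
  have hc : (Fintype.card (V → ℤˣ) : ℝ) ≠ 0 := by exact_mod_cast Fintype.card_ne_zero
  rw [MM, ← integral_pw lam Λ (M.dom_cont_MM _), ← integral_const_mul]
  refine integral_congr_ae (Filter.Eventually.of_forall fun a' => ?_)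
  beta_reduce
  simp only [← integral_const_mul]
  rw [← integral_finsetSum _ fun ε' _ => integrable_cont _ (by fun_prop), ← integral_const_mul]
  refine integral_congr_ae (Filter.Eventually.of_forall fun a => ?_)
  simp only
  rw [eq_inv_mul_iff_mul_eq₀ hc, mul_left_comm, ← sum_pw Λ, Finset.mul_sum]
  refine Finset.sum_congr rfl fun ε' _ => ?_
  rw [mul_left_comm]
  congr 1
  rw [NI, Finset.mul_sum, only_Jc]
  refine Finset.sum_congr rfl fun ε _ => ?_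
  rw [M.fk_split (M.ET Λ) _ hA hB, fk_out, mul_comm]

theorem dom_cont_res (F : Finset E) : Continuous fun J : E → ℝ => res F J := by
  refine continuous_pi fun e => ?_
  unfold res
  split_ifs <;> fun_prop

theorem dom_cont_inner (Λ : Finset V) (A B : Set (Finset E)) :
    Continuous fun a' : V → II => ∑ ε' : V → ℤˣ,
      M.fk (res (M.ET Λ)ᶜ (M.Jc a')) A ε' * ∫ a, M.XY (M.Kc (Λ.piecewise a a')) *
        M.NI Λ ε' B ((M.only (M.ET Λ)).Jc (Λ.piecewise a a')) ∂lamV V := by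
  refine continuous_finsetSum _ fun ε' _ => Continuous.mul ?_ ?_
  · exact M.continuous_fk ((dom_cont_res _).comp M.continuous_Jc) _ _
  · exact continuous_integral_param _ (by fun_prop)

/-- `MM_inter_eq` for `B = univ` (`NI_univ`) and `B = (Cross Λ ξ)ᶜ`, `holley`, `MM_inter_add`. -/
theorem MM_cross_le (Λ : Finset V) (ξ : V → ℤˣ) {η : ℝ}
    (h : (1 - η) * (M.only (M.ET Λ)).N Λ 1 (fun _ => pole 1) ≤
      (M.only (M.ET Λ)).N Λ 1 (fun x => pole (ξ x))) {A : Set (Finset E)}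
    (hA : ∀ ω, ω ∈ A ↔ ω \ M.ET Λ ∈ A) : M.MM (M.Cross Λ ξ ∩ A) ≤ η * M.MM A := by
  have h1 := M.MM_inter_eq Λ hA (B := Set.univ) fun ω => by simp
  have h2 := M.MM_inter_eq Λ hA (B := (M.Cross Λ ξ)ᶜ) fun ω => by
    simp only [Cross, Set.mem_compl_iff, Set.mem_ofPred_eq, Finset.inter_assoc, Finset.inter_self]
  have h3 := M.MM_inter_add A (M.Cross Λ ξ)
  rw [Set.univ_inter] at h1
  have h4 : (1 - η) * M.MM A ≤ M.MM ((M.Cross Λ ξ)ᶜ ∩ A) := by
    rw [h1, h2, mul_left_comm, ← integral_const_mul]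
    refine mul_le_mul_of_nonneg_left ?_ (by positivity)
    refine integral_mono (integrable_cont _ (continuous_const.mul (M.dom_cont_inner Λ A _)))
      (integrable_cont _ (M.dom_cont_inner Λ A _)) fun a' => ?_
    beta_reduce
    rw [Finset.mul_sum]
    refine Finset.sum_le_sum fun ε' _ => ?_
    rw [mul_left_comm]
    refine mul_le_mul_of_nonneg_left ?_ (M.fk_nonneg (fun e => ?_) _ _)
    · simp only [NI_univ]
      exact M.holley Λ ξ h a' ε'
    · unfold res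
      split_ifs
      · exact M.Jc_nonneg a' e
      · exact le_rfl
  linarith

end Mod

end Crest.Agent.R167
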