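import Crest.Agent.R167.Defs

/-!
# rid 167: the cluster representation (definitions)

A spin is written as `Psi a ε θ = (ε a, √(1 - a²) cos θ, √(1 - a²) sin θ)`.  Given the moduli `a`, the
signs form an Ising model with couplings `Jc a` and the angles an XY model with couplings `Kc a`.
`MM A` is the total weight of the event `A` in the Fortuin–Kasteleyn representation of the signs.
Everything in this file is proved.
-/

set_option autoImplicit false
set_option linter.unusedSectionVars false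

noncomputable section

namespace Crest.Agent.R167

open MeasureTheory Finset

/-- the unit interval -/
abbrev II : Type := unitInterval

/-- the circle -/
abbrev TT : Type := UnitAddCircle

/-- the Haar probability measure of the circle -/
abbrev muT : Measure TT := AddCircle.haarAddCircle

/-- cosine on the circle -/
def cosT (θ : TT) : ℝ := (AddCircle.toCircle θ : ℂ).re

/-- sine on the circle -/
def sinT (θ : TT) : ℝ := (AddCircle.toCircle θ : ℂ).im

@[fun_prop] theorem continuous_cosT : Continuous cosT :=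
  Complex.continuous_re.comp (continuous_subtype_val.comp AddCircle.continuous_toCircle)

@[fun_prop] theorem continuous_sinT : Continuous sinT :=
  Complex.continuous_im.comp (continuous_subtype_val.comp AddCircle.continuous_toCircle)

theorem cosT_add (θ φ : TT) : cosT (θ + φ) = cosT θ * cosT φ - sinT θ * sinT φ := by
  simp [cosT, sinT, AddCircle.toCircle_add]

theorem sinT_add (θ φ : TT) : sinT (θ + φ) = sinT θ * cosT φ + cosT θ * sinT φ := by
  simp [cosT, sinT, AddCircle.toCircle_add, add_comm]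

theorem cosT_neg (θ : TT) : cosT (-θ) = cosT θ := by
  simp [cosT, AddCircle.toCircle_neg, Circle.coe_inv_eq_conj, -Circle.coe_inv]

theorem sinT_neg (θ : TT) : sinT (-θ) = - sinT θ := by
  simp [sinT, AddCircle.toCircle_neg, Circle.coe_inv_eq_conj, -Circle.coe_inv]

theorem cosT_sub (θ φ : TT) : cosT (θ - φ) = cosT θ * cosT φ + sinT θ * sinT φ := by
  rw [sub_eq_add_neg, cosT_add, cosT_neg, sinT_neg]; ring

theorem sinT_sub (θ φ : TT) : sinT (θ - φ) = sinT θ * cosT φ - cosT θ * sinT φ := by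
  rw [sub_eq_add_neg, sinT_add, cosT_neg, sinT_neg]; ring

theorem cosT_sq_add (θ : TT) : cosT θ ^ 2 + sinT θ ^ 2 = 1 := by
  have := Circle.normSq_coe (AddCircle.toCircle θ)
  rw [Complex.normSq_apply] at this
  simp only [cosT, sinT]
  linarith

theorem cosT_coe (x : ℝ) : cosT (x : TT) = Real.cos (2 * Real.pi * x) := by
  simp [cosT, AddCircle.toCircle_apply_mk, Circle.coe_exp,
    Complex.exp_ofReal_mul_I_re, -Complex.ofReal_mul]

theorem sinT_coe (x : ℝ) : sinT (x : TT) = Real.sin (2 * Real.pi * x) := by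
  simp [sinT, AddCircle.toCircle_apply_mk, Circle.coe_exp,
    Complex.exp_ofReal_mul_I_im, -Complex.ofReal_mul]

/-- the modulus of the coordinate `0` -/
def modu (σ : Sp) : II := ⟨|co 0 σ|, abs_nonneg _, abs_co_le 0 σ⟩

@[fun_prop] theorem continuous_modu : Continuous modu := by unfold modu; fun_prop

/-- the law of the modulus of the coordinate `0` -/
def lam : Measure II := nu.map modu

instance : IsProbabilityMeasure lam :=
  Measure.isProbabilityMeasure_map continuous_modu.measurable.aemeasurable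

/-- the transverse radius -/
def rad (a : II) : ℝ := √(1 - (a : ℝ) ^ 2)

@[fun_prop] theorem continuous_rad : Continuous rad := by unfold rad; fun_prop

theorem rad_nonneg (a : II) : 0 ≤ rad a := Real.sqrt_nonneg _

theorem rad_sq (a : II) : rad a ^ 2 = 1 - (a : ℝ) ^ 2 :=
  Real.sq_sqrt (by nlinarith [a.2.1, a.2.2])

@[simp] theorem rad_one : rad 1 = 0 := by simp [rad]

theorem rad_anti {a a' : II} (h : a ≤ a') : rad a' ≤ rad a :=
  Real.sqrt_le_sqrt (by
    have : (a : ℝ) ≤ a' := h
    nlinarith [a.2.1])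

/-- the spin with modulus `a`, sign `ε` and angle `θ` -/
def Psi (a : II) (ε : ℤˣ) (θ : TT) : Sp :=
  mkSp ![sg ε * a, rad a * cosT θ, rad a * sinT θ] (by
    simp only [Fin.sum_univ_three, Matrix.cons_val_zero, Matrix.cons_val_one, Matrix.cons_val]
    linear_combination (a : ℝ) ^ 2 * sg_mul_self ε + rad a ^ 2 * cosT_sq_add θ + rad_sq a)

@[simp] theorem co_Psi_zero (a : II) (ε : ℤˣ) (θ : TT) : co 0 (Psi a ε θ) = sg ε * a := rfl
@[simp] theorem co_Psi_one (a : II) (ε : ℤˣ) (θ : TT) : co 1 (Psi a ε θ) = rad a * cosT θ := rfl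
@[simp] theorem co_Psi_two (a : II) (ε : ℤˣ) (θ : TT) : co 2 (Psi a ε θ) = rad a * sinT θ := rfl

theorem Psi_one (ε : ℤˣ) (θ : TT) : Psi 1 ε θ = pole ε :=
  sp_ext' 0 (by simp) (by simp) (by simp)

@[fun_prop] theorem continuous_Psi {X : Type*} [TopologicalSpace X] {a : X → II} (ε : ℤˣ)
    {θ : X → TT} (ha : Continuous a) (hθ : Continuous θ) :
    Continuous fun p => Psi (a p) ε (θ p) := by
  refine continuous_sp fun i => ?_
  rcases fin3_cases 0 i with rfl | rfl | rfl
  · simp only [co_Psi_zero]; fun_prop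
  · simp only [zero_add, co_Psi_one]; fun_prop
  · simp only [zero_add, co_Psi_two]; fun_prop

variable {V E : Type} [Fintype V] [DecidableEq V] [Fintype E] [DecidableEq E]

/-- the law of the moduli -/
abbrev lamV (V : Type) [Fintype V] : Measure (V → II) := Measure.pi fun _ => lam

/-- the law of the angles -/
abbrev muV (V : Type) [Fintype V] : Measure (V → TT) := Measure.pi fun _ => muT

/-- the weight of an edge configuration -/
def wt (J : E → ℝ) (ω : Finset E) : ℝ :=
  ∏ e, if e ∈ ω then Real.exp (J e) - Real.exp (- J e) else Real.exp (- J e)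

theorem wt_nonneg {J : E → ℝ} (hJ : ∀ e, 0 ≤ J e) (ω : Finset E) : 0 ≤ wt J ω :=
  Finset.prod_nonneg fun e _ => by
    split_ifs
    · exact sub_nonneg.2 (Real.exp_le_exp.2 (by linarith [hJ e]))
    · exact (Real.exp_pos _).le

@[fun_prop] theorem continuous_wt {X : Type*} [TopologicalSpace X] {J : X → E → ℝ}
    (hJ : Continuous J) (ω : Finset E) : Continuous fun p => wt (J p) ω := by
  refine continuous_finsetProd _ fun e _ => ?_
  split_ifs <;> fun_prop

namespace Mod

variable (M : Mod V E)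

/-- the Ising couplings -/
def Jc (a : V → II) (e : E) : ℝ := M.b e * ((a (M.src e) : ℝ) * a (M.tgt e))

/-- the XY couplings -/
def Kc (a : V → II) (e : E) : ℝ := M.b e * (rad (a (M.src e)) * rad (a (M.tgt e)))

theorem Jc_nonneg (a : V → II) (e : E) : 0 ≤ M.Jc a e :=
  mul_nonneg (M.hb e) (mul_nonneg (a _).2.1 (a _).2.1)

theorem Kc_nonneg (a : V → II) (e : E) : 0 ≤ M.Kc a e :=
  mul_nonneg (M.hb e) (mul_nonneg (rad_nonneg _) (rad_nonneg _))

@[fun_prop] theorem continuous_Jc : Continuous M.Jc := by unfold Jc; fun_prop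

@[fun_prop] theorem continuous_Kc : Continuous M.Kc := by unfold Kc; fun_prop

/-- the XY partition function -/
def XY (K : E → ℝ) : ℝ :=
  ∫ θ, Real.exp (∑ e, K e * cosT (θ (M.src e) - θ (M.tgt e))) ∂muV V

@[fun_prop] theorem continuous_XY : Continuous M.XY :=
  continuous_integral_param _ (by fun_prop)

theorem XY_nonneg (K : E → ℝ) : 0 ≤ M.XY K := integral_nonneg fun _ => (Real.exp_pos _).le

/-- the Ising weight -/
def Isg (J : E → ℝ) (ε : V → ℤˣ) : ℝ :=
  Real.exp (∑ e, J e * (sg (ε (M.src e)) * sg (ε (M.tgt e))))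

/-- the Ising partition function in `Λ` with boundary condition `ξ` (times `2 ^ |Λᶜ|`) -/
def ZI (Λ : Finset V) (ξ : V → ℤˣ) (J : E → ℝ) : ℝ := ∑ ε : V → ℤˣ, M.Isg J (Λ.piecewise ε ξ)

theorem ZI_pos (Λ : Finset V) (ξ : V → ℤˣ) (J : E → ℝ) : 0 < M.ZI Λ ξ J :=
  Finset.sum_pos (fun _ _ => Real.exp_pos _) Finset.univ_nonempty

@[fun_prop] theorem continuous_ZI (Λ : Finset V) (ξ : V → ℤˣ) : Continuous (M.ZI Λ ξ) := by
  unfold ZI Isg; fun_prop

/-- the signs agree along the open edges -/
def compat (ω : Finset E) (ε : V → ℤˣ) : Prop := ∀ e ∈ ω, ε (M.src e) = ε (M.tgt e)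

/-- joined by an open edge -/
def Adj (ω : Finset E) (u v : V) : Prop :=
  ∃ e ∈ ω, (M.src e = u ∧ M.tgt e = v) ∨ (M.src e = v ∧ M.tgt e = u)

/-- joined by an open path -/
def Conn (ω : Finset E) (u v : V) : Prop := Relation.ReflTransGen (M.Adj ω) u v

/-- two boundary vertices of different signs are joined by open edges touching `Λ` -/
def Cross (Λ : Finset V) (ξ : V → ℤˣ) : Set (Finset E) :=
  {ω | ∃ u v, u ∉ Λ ∧ v ∉ Λ ∧ ξ u ≠ ξ v ∧ M.Conn (ω ∩ M.ET Λ) u v}

open Classical in
/-- the weight of the event `A` for the couplings `J` and the signs `ε` -/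
def fk (J : E → ℝ) (A : Set (Finset E)) (ε : V → ℤˣ) : ℝ :=
  ∑ ω : Finset E, if M.compat ω ε ∧ ω ∈ A then wt J ω else 0

theorem fk_nonneg {J : E → ℝ} (hJ : ∀ e, 0 ≤ J e) (A : Set (Finset E)) (ε : V → ℤˣ) :
    0 ≤ M.fk J A ε :=
  Finset.sum_nonneg fun ω _ => by split_ifs; exacts [wt_nonneg hJ ω, le_rfl]

@[fun_prop] theorem continuous_fk {X : Type*} [TopologicalSpace X] {J : X → E → ℝ}
    (hJ : Continuous J) (A : Set (Finset E)) (ε : V → ℤˣ) :
    Continuous fun p => M.fk (J p) A ε := by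
  refine continuous_finsetSum _ fun ω _ => ?_
  split_ifs <;> fun_prop

/-- the weight of the event `A` in `Λ` with boundary condition `ξ` -/
def NI (Λ : Finset V) (ξ : V → ℤˣ) (A : Set (Finset E)) (J : E → ℝ) : ℝ :=
  ∑ ε : V → ℤˣ, M.fk J A (Λ.piecewise ε ξ)

theorem NI_nonneg (Λ : Finset V) (ξ : V → ℤˣ) (A : Set (Finset E)) {J : E → ℝ}
    (hJ : ∀ e, 0 ≤ J e) : 0 ≤ M.NI Λ ξ A J := Finset.sum_nonneg fun _ _ => M.fk_nonneg hJ _ _

@[fun_prop] theorem continuous_NI (Λ : Finset V) (ξ : V → ℤˣ) (A : Set (Finset E)) :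
    Continuous (M.NI Λ ξ A) := by
  unfold NI; fun_prop

/-- the total weight of the event `A` -/
def MM (A : Set (Finset E)) : ℝ :=
  ∫ a, M.XY (M.Kc a) * ∑ ε : V → ℤˣ, M.fk (M.Jc a) A ε ∂lamV V

theorem MM_nonneg (A : Set (Finset E)) : 0 ≤ M.MM A :=
  integral_nonneg fun a => mul_nonneg (M.XY_nonneg _)
    (Finset.sum_nonneg fun _ _ => M.fk_nonneg (M.Jc_nonneg a) _ _)

end Mod

end Crest.Agent.R167
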