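import Crest.Agent.R167.Spin

/-!
# rid 167, task Red: conditioning a uniform point of `S^{n-1}` on all but three coordinates
-/

set_option autoImplicit false

noncomputable section

namespace Crest.Agent.R167

open MeasureTheory

/-- the unit sphere of `ℝⁿ` -/
abbrev Sn (n : ℕ) : Type := Metric.sphere (0 : EuclideanSpace ℝ (Fin n)) 1

/-- polar coordinates in `ℝ³` -/
theorem red_polar : MeasurePreserving
    (fun p : Sp × Set.Ioi (0 : ℝ) => (p.2 : ℝ) • (p.1 : EuclideanSpace ℝ (Fin 3)))
    ((volume : Measure (EuclideanSpace ℝ (Fin 3))).toSphere.prod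
      (Measure.volumeIoiPow (Module.finrank ℝ (EuclideanSpace ℝ (Fin 3)) - 1))) volume := by
  have h1 := (Measure.measurePreserving_homeomorphUnitSphereProd
    (volume : Measure (EuclideanSpace ℝ (Fin 3))))
  have h2 := MeasurePreserving.symm
    (homeomorphUnitSphereProd (EuclideanSpace ℝ (Fin 3))).toMeasurableEquiv h1
  have h3 := measurePreserving_subtype_coe (μa := (volume : Measure (EuclideanSpace ℝ (Fin 3))))
    (measurableSet_singleton (0 : EuclideanSpace ℝ (Fin 3))).compl
  rw [restrict_compl_singleton] at h3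
  exact h3.comp h2

/-- resampling the direction in `ℝ³` -/
theorem red_three : MeasurePreserving
    (fun p : EuclideanSpace ℝ (Fin 3) × Sp => ‖p.1‖ • (p.2 : EuclideanSpace ℝ (Fin 3)))
    ((volume : Measure (EuclideanSpace ℝ (Fin 3))).prod nu) volume := by
  set σ := (volume : Measure (EuclideanSpace ℝ (Fin 3))).toSphere with hσ
  set R := Measure.volumeIoiPow (Module.finrank ℝ (EuclideanSpace ℝ (Fin 3)) - 1) with hR
  have hm : Measurable
      (fun p : EuclideanSpace ℝ (Fin 3) × Sp => ‖p.1‖ • (p.2 : EuclideanSpace ℝ (Fin 3))) :=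
    Continuous.measurable (by fun_prop)
  have m1 := red_polar.prod (MeasurePreserving.id nu)
  have hσ' : σ Set.univ • nu = σ := by
    unfold nu
    rw [← hσ, smul_smul, ENNReal.mul_inv_cancel, one_smul]
    · exact Measure.measure_univ_ne_zero.2 (Measure.toSphere_ne_zero _)
    · exact measure_ne_top _ _
  have m2 : MeasurePreserving (Prod.map (Prod.snd : Sp × Set.Ioi (0 : ℝ) → _) (id : Sp → Sp))
      ((σ.prod R).prod nu) (R.prod σ) := by
    have a1 : MeasurePreserving (Prod.snd : Sp × Set.Ioi (0 : ℝ) → _) (σ.prod R)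
        (σ Set.univ • R) := ⟨measurable_snd, Measure.map_snd_prod⟩
    have a2 := a1.prod (MeasurePreserving.id nu)
    rwa [Measure.prod_smul_left, ← Measure.prod_smul_right, hσ'] at a2
  have m3 := red_polar.comp (Measure.measurePreserving_swap.comp m2)
  refine ⟨hm, ?_⟩
  rw [← m1.map_eq, Measure.map_map hm m1.measurable]
  refine Eq.trans ?_ m3.map_eq
  congr 1
  funext p
  simp only [Function.comp, Prod.map, id, Prod.swap]
  rw [norm_smul, mem_sphere_zero_iff_norm.1 p.1.1.2, mul_one, Real.norm_of_nonneg p.1.2.2.out.le]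

section

variable {n m : ℕ} (e : Fin m ⊕ Fin 3 ≃ Fin n)

/-- gluing coordinates -/
def redL (p : (Fin m → ℝ) × EuclideanSpace ℝ (Fin 3)) : EuclideanSpace ℝ (Fin n) :=
  WithLp.toLp 2 fun j => Sum.elim p.1 p.2 (e.symm j)

/-- the three chosen coordinates -/
def redP (x : EuclideanSpace ℝ (Fin n)) : EuclideanSpace ℝ (Fin 3) :=
  WithLp.toLp 2 fun a => x (e (Sum.inr a))

/-- the other coordinates -/
def redQ (x : EuclideanSpace ℝ (Fin n)) : Fin m → ℝ := fun b => x (e (Sum.inl b))

@[simp] theorem redL_inl (p : (Fin m → ℝ) × EuclideanSpace ℝ (Fin 3)) (b : Fin m) :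
    redL e p (e (Sum.inl b)) = p.1 b := by simp [redL]

@[simp] theorem redL_inr (p : (Fin m → ℝ) × EuclideanSpace ℝ (Fin 3)) (a : Fin 3) :
    redL e p (e (Sum.inr a)) = p.2 a := by simp [redL]

theorem redP_L (p : (Fin m → ℝ) × EuclideanSpace ℝ (Fin 3)) : redP e (redL e p) = p.2 := by
  ext a
  simp [redP]

theorem redQ_L (p : (Fin m → ℝ) × EuclideanSpace ℝ (Fin 3)) : redQ e (redL e p) = p.1 := by
  ext a
  simp [redQ]

theorem continuous_redL : Continuous (redL e) := by
  refine (PiLp.continuous_toLp 2 _).comp (continuous_pi fun j => ?_)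
  rcases e.symm j with b | a
  · simp only [Sum.elim_inl]; fun_prop
  · simp only [Sum.elim_inr]; fun_prop

theorem continuous_redP : Continuous (redP e) :=
  (PiLp.continuous_toLp 2 _).comp (continuous_pi fun j => by fun_prop)

theorem continuous_redQ : Continuous (redQ e) := continuous_pi fun j => by unfold redQ; fun_prop

theorem measurePreserving_redL : MeasurePreserving (redL e)
    ((volume : Measure (Fin m → ℝ)).prod (volume : Measure (EuclideanSpace ℝ (Fin 3)))) volume := by
  have a1 := (MeasurePreserving.id (volume : Measure (Fin m → ℝ))).prod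
    (PiLp.volume_preserving_ofLp (Fin 3))
  have a2 := volume_measurePreserving_sumPiEquivProdPi_symm fun _ : Fin m ⊕ Fin 3 => ℝ
  have a3 := volume_measurePreserving_piCongrLeft (fun _ : Fin n => ℝ) e
  have a4 := PiLp.volume_preserving_toLp (Fin n)
  have a5 := a4.comp (a3.comp (a2.comp a1))
  have h : redL e = WithLp.toLp 2 ∘ MeasurableEquiv.piCongrLeft (fun _ : Fin n => ℝ) e ∘
      (MeasurableEquiv.sumPiEquivProdPi fun _ : Fin m ⊕ Fin 3 => ℝ).symm ∘
        Prod.map id WithLp.ofLp := by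
    funext p
    ext j
    obtain ⟨k, rfl⟩ := e.surjective j
    simp only [Function.comp]
    rw [MeasurableEquiv.piCongrLeft_apply_apply]
    rcases k with b | a
    · simp [MeasurableEquiv.coe_sumPiEquivProdPi_symm]
    · simp [MeasurableEquiv.coe_sumPiEquivProdPi_symm]
  rw [h]
  exact a5

theorem red_inner (x y : EuclideanSpace ℝ (Fin n)) :
    inner ℝ x y = ∑ a, x (e (Sum.inr a)) * y (e (Sum.inr a)) +
      ∑ b, x (e (Sum.inl b)) * y (e (Sum.inl b)) := by
  rw [PiLp.inner_apply, ← e.sum_comp, Fintype.sum_sum_type, add_comm]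
  simp [mul_comm]

theorem red_norm_sq (x : EuclideanSpace ℝ (Fin n)) :
    ‖x‖ ^ 2 = ‖redP e x‖ ^ 2 + ∑ b, redQ e x b ^ 2 := by
  rw [EuclideanSpace.real_norm_sq_eq, EuclideanSpace.real_norm_sq_eq, ← e.sum_comp,
    Fintype.sum_sum_type, add_comm]
  rfl

/-- resampling the direction of three coordinates -/
def redF (p : EuclideanSpace ℝ (Fin n) × Sp) : EuclideanSpace ℝ (Fin n) :=
  redL e (redQ e p.1, ‖redP e p.1‖ • (p.2 : EuclideanSpace ℝ (Fin 3)))

theorem continuous_redF : Continuous (redF e) := by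
  have h1 := continuous_redP e
  have h2 := continuous_redQ e
  exact (continuous_redL e).comp (by fun_prop)

theorem norm_redF (p : EuclideanSpace ℝ (Fin n) × Sp) : ‖redF e p‖ = ‖p.1‖ := by
  rw [← sq_eq_sq₀ (norm_nonneg _) (norm_nonneg _), red_norm_sq e, red_norm_sq e p.1, redF, redP_L,
    redQ_L, norm_smul, mem_sphere_zero_iff_norm.1 p.2.2, mul_one, norm_norm]

theorem redF_smul {r : ℝ} (hr : 0 ≤ r) (x : EuclideanSpace ℝ (Fin n)) (τ : Sp) :
    redF e (r • x, τ) = r • redF e (x, τ) := by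
  have h : redP e (r • x) = r • redP e x := by
    ext a
    simp [redP]
  ext j
  obtain ⟨k, rfl⟩ := e.surjective j
  rcases k with b | a
  · simp [redF, redQ]
  · simp [redF, h, norm_smul, abs_of_nonneg hr, mul_assoc]

theorem measurePreserving_redF : MeasurePreserving (redF e)
    ((volume : Measure (EuclideanSpace ℝ (Fin n))).prod nu) volume := by
  have m1 := (measurePreserving_redL e).prod (MeasurePreserving.id nu)
  have m2 : MeasurePreserving (MeasurableEquiv.prodAssoc)
      (((volume : Measure (Fin m → ℝ)).prod (volume : Measure (EuclideanSpace ℝ (Fin 3)))).prod nu)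
      ((volume : Measure (Fin m → ℝ)).prod
        ((volume : Measure (EuclideanSpace ℝ (Fin 3))).prod nu)) :=
    ⟨MeasurableEquiv.prodAssoc.measurable, Measure.prodAssoc_prod⟩
  have m3 := (measurePreserving_redL e).comp
    (((MeasurePreserving.id (volume : Measure (Fin m → ℝ))).prod red_three).comp m2)
  have hm := (continuous_redF e).measurable
  refine ⟨hm, ?_⟩
  rw [← m1.map_eq, Measure.map_map hm m1.measurable, ← m3.map_eq]
  congr 1
  funext p
  simp only [Function.comp, Prod.map, id, redF, redP_L, redQ_L]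
  rfl

/-- the map on the sphere -/
def redS (p : Sn n × Sp) : Sn n :=
  ⟨redF e (p.1, p.2), by
    rw [mem_sphere_zero_iff_norm, norm_redF]
    exact mem_sphere_zero_iff_norm.1 p.1.2⟩

theorem continuous_redS : Continuous (redS e) :=
  Continuous.subtype_mk ((continuous_redF e).comp (by fun_prop)) _

open Pointwise in
theorem red_cone {s : Set (Sn n)} (hs : MeasurableSet s) :
    MeasurableSet (Set.Ioo (0 : ℝ) 1 • (((↑) : Sn n → EuclideanSpace ℝ (Fin n)) '' s)) := by
  have h : ((↑) : ({0}ᶜ : Set (EuclideanSpace ℝ (Fin n))) → EuclideanSpace ℝ (Fin n)) ''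
      (homeomorphUnitSphereProd (EuclideanSpace ℝ (Fin n)) ⁻¹'
        s ×ˢ Set.Iio (⟨1, Set.mem_Ioi.2 one_pos⟩ : Set.Ioi (0 : ℝ))) =
      Set.Ioo (0 : ℝ) 1 • (((↑) : Sn n → EuclideanSpace ℝ (Fin n)) '' s) := by
    rw [← Set.image2_smul, Set.image2_image_right, ← Homeomorph.image_symm, Set.image_image,
      show Set.Ioo (0 : ℝ) 1 = Set.Ioo (0 : ℝ) (⟨1, Set.mem_Ioi.2 one_pos⟩ : Set.Ioi (0 : ℝ)).1 from
        rfl, ← Set.image_subtype_val_Ioi_Iio, Set.image2_image_left, Set.image2_swap,
      ← Set.image_prod]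
    rfl
  rw [← h]
  exact (MeasurableEmbedding.subtype_coe (measurableSet_singleton _).compl).measurableSet_image.2
    ((homeomorphUnitSphereProd _).measurable (hs.prod measurableSet_Iio))

open Pointwise in
theorem measurePreserving_redS : MeasurePreserving (redS e)
    ((volume : Measure (EuclideanSpace ℝ (Fin n))).toSphere.prod nu)
    (volume : Measure (EuclideanSpace ℝ (Fin n))).toSphere := by
  have hm := (continuous_redS e).measurable
  refine ⟨hm, Measure.ext fun s hs => ?_⟩
  have hc := red_cone hs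
  rw [Measure.map_apply hm hs, Measure.prod_apply_symm (hm hs), Measure.toSphere_apply' _ hs,
    ← (measurePreserving_redF e).measure_preimage hc.nullMeasurableSet,
    Measure.prod_apply_symm ((continuous_redF e).measurable hc),
    ← lintegral_const_mul' _ _ (ENNReal.natCast_ne_top _)]
  refine lintegral_congr fun τ => ?_
  rw [Measure.toSphere_apply' _ (measurable_prodMk_right (hm hs))]
  congr 2
  ext x
  simp only [Set.mem_preimage, Set.mem_smul, Set.mem_image]
  constructor
  · rintro ⟨r, hr, _, ⟨w, hw, rfl⟩, rfl⟩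
    exact ⟨r, hr, _, ⟨redS e (w, τ), hw, rfl⟩, (redF_smul e hr.1.le _ _).symm⟩
  · rintro ⟨r, hr, _, ⟨y, hy, rfl⟩, h⟩
    have hr0 : 0 < r := hr.1
    have hx : ‖x‖ = r := by
      have := norm_redF e (x, τ)
      rw [← h, norm_smul, mem_sphere_zero_iff_norm.1 y.2, mul_one, Real.norm_of_nonneg hr0.le]
        at this
      exact this.symm
    have hw : r⁻¹ • x ∈ Metric.sphere (0 : EuclideanSpace ℝ (Fin n)) 1 := by
      rw [mem_sphere_zero_iff_norm, norm_smul, hx, Real.norm_of_nonneg (inv_pos.2 hr0).le,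
        inv_mul_cancel₀ hr0.ne']
    refine ⟨r, hr, _, ⟨⟨r⁻¹ • x, hw⟩, ?_, rfl⟩, smul_inv_smul₀ hr0.ne' x⟩
    have : redS e (⟨r⁻¹ • x, hw⟩, τ) = y := by
      apply Subtype.ext
      change redF e (r⁻¹ • x, τ) = y
      rw [redF_smul e (inv_pos.2 hr0).le, ← h, inv_smul_smul₀ hr0.ne']
    rw [this]
    exact hy

end

/-- Choose an embedding `ι : Fin 3 ↪ Fin n` with `ι 0 = i`; `ρ w = √(∑ a, w (ι a) ^ 2)`,
`Φ (w, τ) j = ρ w * τ a` if `j = ι a` and `w j` otherwise, `G w w' = ∑ j ∉ range ι, w j * w' j`.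
Only the invariance of the measure needs work.  Two possible proofs.
(1) Polar coordinates (`Measure.measurePreserving_homeomorphUnitSphereProd`): in `ℝ³` they show that
`(u, τ) ↦ ‖u‖ • τ` maps `volume ⊗ nu` to `volume`; hence the analogue `Φ'` of `Φ` on `ℝⁿ ≃ ℝ³ × ℝ^{n-3}`
maps `volume ⊗ nu` to `volume`; `Φ'` preserves norms and commutes with positive scalings, so
`Φ' ⁻¹' (Ioo 0 1 • s)` has `τ`-sections `Ioo 0 1 • {w | Φ (w, τ) ∈ s}`; use `Measure.toSphere_apply'` and
`Measure.prod_apply_symm`.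
(2) Haar probability measure on the compact group `O(3)`, which acts on both spheres preserving the
measures (`measurePreserving_sphMap`) and transitively on `Sp`. -/
theorem exists_decomp {n : ℕ} (hn : 3 ≤ n) (i : Fin n) :
    ∃ (ρ : Sn n → ℝ) (G : Sn n → Sn n → ℝ) (Φ : Sn n × Sp → Sn n),
      Continuous ρ ∧ (∀ w, 0 ≤ ρ w ∧ ρ w ≤ 1) ∧ Continuous (fun p : Sn n × Sn n => G p.1 p.2) ∧
      Continuous Φ ∧
      MeasurePreserving Φ ((volume : Measure (EuclideanSpace ℝ (Fin n))).toSphere.prod nu)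
        (volume : Measure (EuclideanSpace ℝ (Fin n))).toSphere ∧
      (∀ w w' τ τ', inner ℝ (Φ (w, τ) : EuclideanSpace ℝ (Fin n)) (Φ (w', τ')) =
        ρ w * ρ w' * ∑ a, co a τ * co a τ' + G w w') ∧
      ∀ w τ, (Φ (w, τ) : EuclideanSpace ℝ (Fin n)) i = ρ w * co 0 τ := by
  obtain ⟨m, rfl⟩ : ∃ m, n = m + 3 := ⟨n - 3, by omega⟩
  obtain ⟨e, he⟩ : ∃ e : Fin m ⊕ Fin 3 ≃ Fin (m + 3), e (Sum.inr 0) = i :=
    ⟨finSumFinEquiv.trans (Equiv.swap (finSumFinEquiv (Sum.inr 0)) i), by simp⟩
  refine ⟨fun w => ‖redP e w‖, fun w w' => ∑ b, redQ e w b * redQ e w' b, redS e, ?_, ?_, ?_,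
    continuous_redS e, measurePreserving_redS e, ?_, ?_⟩
  · exact ((continuous_redP e).comp continuous_subtype_val).norm
  · intro w
    refine ⟨norm_nonneg _, ?_⟩
    have h := red_norm_sq e (w : EuclideanSpace ℝ (Fin (m + 3)))
    rw [mem_sphere_zero_iff_norm.1 w.2] at h
    have h2 : 0 ≤ ∑ b, redQ e (w : EuclideanSpace ℝ (Fin (m + 3))) b ^ 2 :=
      Finset.sum_nonneg fun _ _ => sq_nonneg _
    have h3 := norm_nonneg (redP e (w : EuclideanSpace ℝ (Fin (m + 3))))
    nlinarith
  · have h := continuous_redQ e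
    fun_prop
  · intro w w' τ τ'
    rw [red_inner e]
    simp only [redS, redF, redL_inl, redL_inr, PiLp.smul_apply, smul_eq_mul, co_apply,
      Finset.mul_sum]
    congr 1
    exact Finset.sum_congr rfl fun a _ => by ring
  · intro w τ
    rw [← he]
    simp only [redS, redF, redL_inr, PiLp.smul_apply, smul_eq_mul, co_apply]

end Crest.Agent.R167
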