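import Crest.Agent.R167.Stiff

/-!
# rid 167, task Twist: reversing the inner boundary condition of an annulus costs little
-/

set_option autoImplicit false
set_option linter.unusedSectionVars false

noncomputable section

namespace Crest.Agent.R167

open MeasureTheory Finset

variable {V E : Type} [Fintype V] [DecidableEq V] [Fintype E] [DecidableEq E]

/-- the integer profile -/
def twist_g (L t : ℤ) : ℤ := max 0 (min L (min (3 * L - t) (3 * L + t)))

/-- the normalised profile -/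
def twist_f (L : ℕ) (t : ℤ) : ℝ := (twist_g L t : ℝ) / L

theorem twist_f_one {L : ℕ} (hL : 0 < L) {t : ℤ} (h1 : -(2 * (L : ℤ)) ≤ t) (h2 : t ≤ 2 * L) :
    twist_f L t = 1 := by
  have h : twist_g L t = L := by unfold twist_g; omega
  have h0 : (L : ℝ) ≠ 0 := by positivity
  rw [twist_f, h, Int.cast_natCast, div_self h0]

theorem twist_f_zero {L : ℕ} {t : ℤ} (h1 : t ≤ -(3 * (L : ℤ)) ∨ 3 * (L : ℤ) ≤ t) :
    twist_f L t = 0 := by
  have h : twist_g L t = 0 := by unfold twist_g; omega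
  rw [twist_f, h, Int.cast_zero, zero_div]

theorem twist_abs_f_le {L : ℕ} (hL : 0 < L) (t : ℤ) : |twist_f L t| ≤ 1 := by
  have h1 : |twist_g L t| ≤ L := by
    rw [abs_le]; unfold twist_g; omega
  have h2 : |(twist_g L t : ℝ)| ≤ L := by exact_mod_cast h1
  have h0 : (0 : ℝ) < L := by positivity
  rw [twist_f, abs_div, abs_of_pos h0, div_le_one h0]
  exact h2

theorem twist_f_lip {L : ℕ} (hL : 0 < L) {t t' : ℤ} {n : ℕ} (h1 : t' ≤ t) (h2 : t ≤ t' + n) :
    |twist_f L t - twist_f L t'| ≤ n / L := by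
  have h3 : |twist_g L t - twist_g L t'| ≤ n := by
    rw [abs_le]; unfold twist_g; omega
  have h4 : |(twist_g L t : ℝ) - twist_g L t'| ≤ n := by exact_mod_cast h3
  have h0 : (0 : ℝ) < L := by positivity
  rw [twist_f, twist_f, ← sub_div, abs_div, abs_of_pos h0]
  exact div_le_div_of_nonneg_right h4 h0.le

theorem twist_mul_cases (l : ℕ) (i j : ℤ) : l * i + l ≤ l * j ∨ l * j ≤ l * i := by
  have h0 : (0 : ℤ) ≤ l := Int.natCast_nonneg l
  rcases le_or_gt j i with h | h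
  · exact Or.inr (mul_le_mul_of_nonneg_left h h0)
  · left
    have := mul_le_mul_of_nonneg_left (show i + 1 ≤ j from h) h0
    linarith

/-- the increment only depends on the block -/
theorem twist_f_step {l m : ℕ} {i t : ℤ} (h1 : l * i ≤ t) (h2 : t < l * i + l) :
    twist_f (m * l) (t + 1) - twist_f (m * l) t =
      twist_f (m * l) (l * i + 1) - twist_f (m * l) (l * i) := by
  have h : twist_g (m * l : ℕ) (t + 1) - twist_g (m * l : ℕ) t =
      twist_g (m * l : ℕ) (l * i + 1) - twist_g (m * l : ℕ) (l * i) := by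
    have a1 := twist_mul_cases l i (-(3 * m))
    have a2 := twist_mul_cases l i (-(2 * m))
    have a3 := twist_mul_cases l i (2 * m)
    have a4 := twist_mul_cases l i (3 * m)
    have e1 : (l : ℤ) * -(3 * m) = -(3 * ((m * l : ℕ) : ℤ)) := by push_cast; ring
    have e2 : (l : ℤ) * -(2 * m) = -(2 * ((m * l : ℕ) : ℤ)) := by push_cast; ring
    have e3 : (l : ℤ) * (2 * m) = 2 * ((m * l : ℕ) : ℤ) := by push_cast; ring
    have e4 : (l : ℤ) * (3 * m) = 3 * ((m * l : ℕ) : ℤ) := by push_cast; ring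
    rw [e1] at a1
    rw [e2] at a2
    rw [e3] at a3
    rw [e4] at a4
    have h0 : (0 : ℤ) ≤ ((m * l : ℕ) : ℤ) := Int.natCast_nonneg _
    generalize ((m * l : ℕ) : ℤ) = L at *
    generalize (l : ℤ) * i = a at *
    unfold twist_g
    rcases a1 with a1 | a1
    · omega
    rcases a2 with a2 | a2
    · omega
    rcases a3 with a3 | a3
    · omega
    rcases a4 with a4 | a4
    · omega
    · omega
  have h' : (twist_g (m * l : ℕ) (t + 1) : ℝ) - twist_g (m * l : ℕ) t =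
      twist_g (m * l : ℕ) (l * i + 1) - twist_g (m * l : ℕ) (l * i) := by exact_mod_cast h
  unfold twist_f
  rw [← sub_div, ← sub_div, h']

/-- the blocks that meet the support of the twist -/
def twist_I (m : ℕ) : Finset (Fin 2 → ℤ) :=
  (Fintype.piFinset fun _ => Finset.Ico (-(3 * (m : ℤ))) (3 * m)).filter
    fun i => ¬ ∀ k, -(2 * (m : ℤ)) ≤ i k ∧ i k < 2 * m

theorem twist_mem_I {m : ℕ} {i : Fin 2 → ℤ} : i ∈ twist_I m ↔
    (∀ k, -(3 * (m : ℤ)) ≤ i k ∧ i k < 3 * m) ∧ ¬ ∀ k, -(2 * (m : ℤ)) ≤ i k ∧ i k < 2 * m := by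
  simp only [twist_I, Finset.mem_filter, Fintype.mem_piFinset, Finset.mem_Ico]

theorem twist_card_I (m : ℕ) : ((twist_I m).card : ℝ) ≤ 36 * (m : ℝ) ^ 2 := by
  have h1 : (twist_I m).card ≤ (6 * m) ^ 2 := by
    refine (Finset.card_filter_le _ _).trans ?_
    rw [Fintype.card_piFinset, Finset.prod_const, Int.card_Ico, Finset.card_univ, Fintype.card_fin]
    refine Nat.pow_le_pow_left ?_ 2
    omega
  have h2 : ((twist_I m).card : ℝ) ≤ ((6 * m) ^ 2 : ℕ) := by exact_mod_cast h1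
  push_cast at h2
  linarith

namespace Geo

variable {M : Mod V E} {β : ℝ} (Γ : Geo M β)

/-- the twisting angle -/
def twist_phi (c : Fin 2 → ℤ) (L : ℕ) (x : V) : ℝ :=
  Real.pi * ∏ k, twist_f L (Γ.pos x k - c k)

theorem twist_d_phi (c : Fin 2 → ℤ) (L : ℕ) (e : E) :
    M.d (Γ.twist_phi c L) e =
      Real.pi * M.d (fun x => ∏ k, (fun k t => twist_f L (t - c k)) k (Γ.pos x k)) e := by
  simp only [Mod.d, twist_phi]
  ring

theorem twist_flow {c : Fin 2 → ℤ} {L : ℕ} (hL : 0 < L) {x : V} (hx : x ∉ Γ.Ann c L) :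
    flow (Γ.twist_phi c L) 2 1 (fun _ => pole 1) x = pole (Γ.sgn c L x) := by
  unfold flow sgn twist_phi
  split_ifs with h
  · rw [Finset.prod_eq_one fun k _ => twist_f_one hL (by have := abs_le.1 (h k); omega)
      (by have := abs_le.1 (h k); omega), mul_one, one_mul, rot_pi_pole]
  · rw [mem_Ann] at hx
    push Not at h hx
    obtain ⟨k, hk⟩ := hx h
    rw [Finset.prod_eq_zero (Finset.mem_univ k)
      (twist_f_zero (by have := le_abs.1 hk; omega)), mul_zero, mul_zero, rot_zero]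

theorem twist_N {c : Fin 2 → ℤ} {L : ℕ} (hL : 0 < L) :
    M.N (Γ.Ann c L) 1 (fun x => pole (Γ.sgn c L x)) =
      M.Ex (Γ.Ann c L) (expF (M.tw 2 (M.d (Γ.twist_phi c L)))) *
        M.N (Γ.Ann c L) 1 (fun _ => pole 1) := by
  have h1 := M.ind_N (Γ.Ann c L) 1 (fun x => pole (Γ.sgn c L x))
    (flow (Γ.twist_phi c L) 2 1 (fun _ => pole 1))
  have h2 : (Γ.Ann c L).piecewise (fun x => pole (Γ.sgn c L x))
      (flow (Γ.twist_phi c L) 2 1 (fun _ => pole 1)) = fun x => pole (Γ.sgn c L x) := by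
    funext x
    by_cases hx : x ∈ Γ.Ann c L
    · exact Finset.piecewise_eq_of_mem _ _ _ hx
    · rw [Finset.piecewise_eq_of_notMem _ _ _ hx, Γ.twist_flow hL hx]
  rw [h2, M.N_one_flow] at h1
  rw [h1, Mod.Ex_apply, Mod.Pi_apply, div_mul_cancel₀ _ (M.N_one_pos _ _).ne']

theorem twist_fits {l m : ℕ} (hl : 1 ≤ l) (hm : 2 ≤ m) (c : Fin 2 → ℤ) {i : Fin 2 → ℤ}
    (hi : i ∈ twist_I m) : Γ.Fits (Γ.Ann c (m * l)) (fun k => c k + l * i k) l := by
  obtain ⟨h1, h2⟩ := twist_mem_I.1 hi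
  have h0 : (0 : ℤ) ≤ l := Int.natCast_nonneg l
  have hL : (l : ℤ) < ((m * l : ℕ) : ℤ) := by
    have : l < m * l := by nlinarith
    exact_mod_cast this
  have e : ((m * l : ℕ) : ℤ) = l * m := by push_cast; ring
  intro x hx
  rw [mem_Ann]
  constructor
  · push Not at h2
    obtain ⟨k, hk⟩ := h2
    refine ⟨k, lt_abs.2 ?_⟩
    obtain ⟨a1, a2⟩ := hx k
    dsimp only at a1 a2
    rcases le_or_gt (-(2 * (m : ℤ))) (i k) with h | h
    · have := mul_le_mul_of_nonneg_left (hk h) h0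
      left
      linarith
    · have := mul_le_mul_of_nonneg_left (show i k + 1 ≤ -(2 * (m : ℤ)) from h) h0
      right
      linarith
  · intro k
    obtain ⟨a1, a2⟩ := hx k
    dsimp only at a1 a2
    have b1 := mul_le_mul_of_nonneg_left (h1 k).1 h0
    have b2 := mul_le_mul_of_nonneg_left (show i k + 1 ≤ 3 * (m : ℤ) from (h1 k).2) h0
    rw [abs_lt]
    constructor <;> linarith

theorem twist_supp {l m : ℕ} (hl : 1 ≤ l) (hm : 2 ≤ m) (c : Fin 2 → ℤ) (e : E)
    (he : M.d (Γ.twist_phi c (m * l)) e ≠ 0) :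
    ∃ i ∈ twist_I m, e ∈ Γ.EB (fun k => c k + l * i k) l := by
  have hmem : e ∈ Γ.EB (fun k => c k + l * ((Γ.pos (M.src e) k - c k) / l)) l :=
    (Γ.mem_EB_iff_div (i := fun k => (Γ.pos (M.src e) k - c k) / l) hl).2 fun _ => rfl
  refine ⟨fun k => (Γ.pos (M.src e) k - c k) / l, ?_, hmem⟩
  have hb := Γ.mem_EB.1 hmem
  generalize hi : (fun k => (Γ.pos (M.src e) k - c k) / (l : ℤ)) = i
  have hb' : ∀ k, c k + l * i k ≤ Γ.pos (M.src e) k ∧ Γ.pos (M.src e) k < c k + l * i k + l := by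
    intro k
    rw [← hi]
    exact hb k
  clear hb hmem hi
  have h0 : (0 : ℤ) ≤ l := Int.natCast_nonneg l
  have hL : 0 < m * l := by positivity
  have e1 : ((m * l : ℕ) : ℤ) = l * m := by push_cast; ring
  by_contra hi
  apply he
  rw [twist_mem_I, not_and_or, not_not] at hi
  unfold Mod.d twist_phi
  rcases hi with hi | hi
  · push Not at hi
    obtain ⟨k, hk⟩ := hi
    obtain ⟨a1, a2⟩ := hb' k
    obtain ⟨a3, a4⟩ := Γ.pos_tgt e k
    have key : (Γ.pos (M.src e) k - c k + 1 ≤ -(3 * ((m * l : ℕ) : ℤ))) ∨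
        3 * ((m * l : ℕ) : ℤ) ≤ Γ.pos (M.src e) k - c k := by
      rcases le_or_gt (-(3 * (m : ℤ))) (i k) with h | h
      · have := mul_le_mul_of_nonneg_left (hk h) h0
        right
        linarith
      · have := mul_le_mul_of_nonneg_left (show i k + 1 ≤ -(3 * (m : ℤ)) from h) h0
        left
        linarith
    rw [Finset.prod_eq_zero (Finset.mem_univ k) (twist_f_zero (by omega)),
      Finset.prod_eq_zero (Finset.mem_univ k) (twist_f_zero (by omega)), sub_self]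
  · have key : ∀ k, -(2 * ((m * l : ℕ) : ℤ)) ≤ Γ.pos (M.src e) k - c k ∧
        Γ.pos (M.src e) k - c k + 1 ≤ 2 * ((m * l : ℕ) : ℤ) := by
      intro k
      obtain ⟨a1, a2⟩ := hb' k
      have b1 := mul_le_mul_of_nonneg_left (hi k).1 h0
      have b2 := mul_le_mul_of_nonneg_left (show i k + 1 ≤ 2 * (m : ℤ) from (hi k).2) h0
      constructor <;> linarith
    rw [Finset.prod_eq_one fun k _ => twist_f_one hL
        (by have := key k; have := Γ.pos_tgt e k; omega)
        (by have := key k; have := Γ.pos_tgt e k; omega),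
      Finset.prod_eq_one fun k _ => twist_f_one hL (by have := key k; omega)
        (by have := key k; omega), sub_self]

theorem twist_abs_d_le {L : ℕ} (hL : 0 < L) (c : Fin 2 → ℤ) (e : E) :
    |M.d (Γ.twist_phi c L) e| ≤ Real.pi / L := by
  rw [twist_d_phi, abs_mul, abs_of_pos Real.pi_pos, div_eq_mul_one_div]
  refine mul_le_mul_of_nonneg_left ?_ Real.pi_pos.le
  refine Γ.abs_d_prod_le (F := fun k t => twist_f L (t - c k)) (fun k t => twist_abs_f_le hL _)
    (fun k t => ?_) e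
  have := twist_f_lip hL (t := t + 1 - c k) (t' := t - c k) (n := 1) (by omega) (by omega)
  simpa using this

theorem twist_q_le (hβ : 0 ≤ β) {η : ℝ} {l m : ℕ} (hl : 1 ≤ l) (hm : 2 ≤ m) (c : Fin 2 → ℤ)
    {Λ : Finset V} {i : Fin 2 → ℤ} (hU : Γ.UB (fun k => c k + l * i k) l ⊆ Λ)
    (hQ : ∀ j, Γ.Q Λ (fun k => c k + l * i k) l j ≤ η) :
    M.q Λ (Γ.UB (fun k => c k + l * i k) l) 2
        (res (Γ.EB (fun k => c k + l * i k) l) (M.d (Γ.twist_phi c (m * l))))
        (res (Γ.EB (fun k => c k + l * i k) l) (M.d (Γ.twist_phi c (m * l)))) ≤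
      6 * Real.pi ^ 2 / (m : ℝ) ^ 2 * (η + β / (m : ℝ) ^ 2) := by
  have hL : 0 < m * l := by positivity
  have hl0 : (0 : ℝ) < l := by positivity
  have hm0 : (0 : ℝ) < m := by positivity
  have hpi := Real.pi_pos
  set U := Γ.UB (fun k => c k + l * i k) l
  set F := Γ.EB (fun k => c k + l * i k) l with hF
  obtain ⟨s, hs⟩ : ∃ s : Fin 2 → ℝ, ∀ k, s k =
      twist_f (m * l) (l * i k + 1) - twist_f (m * l) (l * i k) := ⟨_, fun _ => rfl⟩
  have hs1 : ∀ k, |s k| ≤ 1 / ((m : ℝ) * l) := by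
    intro k
    have := twist_f_lip hL (t := l * i k + 1) (t' := l * i k) (n := 1) (by omega) (by omega)
    rw [hs]
    simpa using this
  obtain ⟨α, hα⟩ : ∃ α : Fin 2 → ℝ, ∀ k, α k =
      Real.pi * (s k * twist_f (m * l) (l * i k.rev)) := ⟨_, fun _ => rfl⟩
  have hα1 : ∀ k, |α k| ≤ Real.pi / (m * l) := by
    intro k
    rw [hα, abs_mul, abs_mul, abs_of_pos hpi, div_eq_mul_one_div]
    refine mul_le_mul_of_nonneg_left ?_ hpi.le
    exact (mul_le_of_le_one_right (abs_nonneg _) (twist_abs_f_le hL _)).trans (hs1 k)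
  obtain ⟨r, hr⟩ : ∃ r : E → ℝ, res F (M.d (Γ.twist_phi c (m * l))) =
      α 0 • res F (Γ.dx 0) + α 1 • res F (Γ.dx 1) + r :=
    ⟨res F (M.d (Γ.twist_phi c (m * l))) - (α 0 • res F (Γ.dx 0) + α 1 • res F (Γ.dx 1)), by abel⟩
  have hr0 : ∀ e, r e = res F (M.d (Γ.twist_phi c (m * l))) e -
      (α 0 * res F (Γ.dx 0) e + α 1 * res F (Γ.dx 1) e) := by
    intro e
    have := congrFun hr e
    simp only [Pi.add_apply, Pi.smul_apply, smul_eq_mul] at this
    linarith
  have hr1 : ∀ e, r e ≠ 0 → e ∈ F := by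
    intro e he
    by_contra h
    apply he
    rw [hr0]
    simp [res, h]
  have hr2 : ∀ e, |r e| ≤ Real.pi / (m * l) / m := by
    intro e
    by_cases he : e ∈ F
    · have hb := Γ.mem_EB.1 he
      have h1 : r e = ∑ k, Γ.dx k e * (Real.pi * (s k *
          (twist_f (m * l) (Γ.pos (M.src e) k.rev - c k.rev) - twist_f (m * l) (l * i k.rev)))) := by
        have h2 : ∀ k, twist_f (m * l) (Γ.pos (M.src e) k + 1 - c k) -
            twist_f (m * l) (Γ.pos (M.src e) k - c k) = s k := by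
          intro k
          obtain ⟨a1, a2⟩ := hb k
          rw [hs, show Γ.pos (M.src e) k + 1 - c k = Γ.pos (M.src e) k - c k + 1 by ring]
          exact twist_f_step (by linarith) (by linarith)
        rw [hr0]
        simp only [res, if_pos he]
        rw [twist_d_phi, Γ.d_prod fun k t => twist_f (m * l) (t - c k)]
        simp only [h2, hα, Fin.sum_univ_two]
        ring
      have h3 : ∀ k, |Real.pi * (s k * (twist_f (m * l) (Γ.pos (M.src e) k.rev - c k.rev) -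
          twist_f (m * l) (l * i k.rev)))| ≤ Real.pi / (m * l) / m := by
        intro k
        obtain ⟨a1, a2⟩ := hb k.rev
        have h4 := twist_f_lip hL (t := Γ.pos (M.src e) k.rev - c k.rev) (t' := l * i k.rev)
          (n := l) (by linarith) (by linarith)
        rw [abs_mul, abs_mul, abs_of_pos hpi]
        calc _ ≤ Real.pi * (1 / ((m : ℝ) * l) * ((l : ℝ) / ((m * l : ℕ) : ℝ))) :=
              mul_le_mul_of_nonneg_left
                (mul_le_mul (hs1 k) h4 (abs_nonneg _) (by positivity)) hpi.le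
          _ = Real.pi / (m * l) / m := by push_cast; field_simp
      rw [h1]
      calc _ ≤ ∑ k, |Γ.dx k e| * (Real.pi / (m * l) / m) := by
            refine (Finset.abs_sum_le_sum_abs _ _).trans (Finset.sum_le_sum fun k _ => ?_)
            rw [abs_mul]
            exact mul_le_mul_of_nonneg_left (h3 k) (abs_nonneg _)
        _ = (∑ k, |Γ.dx k e|) * (Real.pi / (m * l) / m) := (Finset.sum_mul _ _ _).symm
        _ ≤ Real.pi / (m * l) / m :=
            mul_le_of_le_one_left (by positivity) (Γ.sum_abs_dx_le e)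
    · rw [not_not.1 (mt (hr1 e) he), abs_zero]
      positivity
  have hq : ∀ k, M.q Λ U 2 (α k • res F (Γ.dx k)) (α k • res F (Γ.dx k)) ≤
      Real.pi ^ 2 / (m : ℝ) ^ 2 * η := by
    intro k
    have h1 := hQ k
    rw [Q, div_le_iff₀ (by positivity)] at h1
    have h2 : M.q Λ U 2 (res F (Γ.dx k)) (res F (Γ.dx k)) ≤
        ∑ a, M.q Λ U a (res F (Γ.dx k)) (res F (Γ.dx k)) :=
      Finset.single_le_sum (f := fun a => M.q Λ U a (res F (Γ.dx k)) (res F (Γ.dx k)))
        (fun a _ => M.q_nonneg hU a _) (Finset.mem_univ 2)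
    have h3 : α k ^ 2 ≤ (Real.pi / (m * l)) ^ 2 := by
      rw [← sq_abs]
      exact pow_le_pow_left₀ (abs_nonneg _) (hα1 k) 2
    rw [M.q_smul_left, M.q_smul_right, ← mul_assoc, ← sq]
    calc _ ≤ (Real.pi / (m * l)) ^ 2 * (η * (l : ℝ) ^ 2) :=
          mul_le_mul h3 (h2.trans h1) (M.q_nonneg hU _ _) (by positivity)
      _ = _ := by field_simp
  have hqr : M.q Λ U 2 r r ≤ 2 * (Real.pi ^ 2 / (m : ℝ) ^ 2 * (β / (m : ℝ) ^ 2)) := by
    refine (M.q_le_A Λ U 2 r).trans ((Γ.A_le hβ hr1 hr2).trans (le_of_eq ?_))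
    field_simp
  rw [hr]
  refine (M.q_add_three_le hU 2 _ _ _).trans ?_
  have h0 := hq 0
  have h1 := hq 1
  calc _ ≤ 3 * (Real.pi ^ 2 / (m : ℝ) ^ 2 * η + Real.pi ^ 2 / (m : ℝ) ^ 2 * η +
        2 * (Real.pi ^ 2 / (m : ℝ) ^ 2 * (β / (m : ℝ) ^ 2))) := by linarith
    _ = _ := by ring

/-- Let `L = m * l`, `Λ = Ann c L`, `f t = max 0 (min L (3L - |t|)) / L`, `φ x = π * ∏ k, f (pos x k - c k)`.
* Off `Λ`, `flow φ 2 1 (fun _ => pole 1) x = pole (sgn c L x)` (`rot_pi_pole`, `rot_zero`), so by `ind_N`,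
  `N_one_flow` the right-hand side is `Ex Λ (expF (tw 2 (d φ))) * N Λ 1 (fun _ => pole 1)`.
* Apply `Fam.Ex_exp_tw_ge` to `Γ.fam c hl I`, where `I` is the set of `i ∈ [-3m, 3m)²` not in
  `[-2m, 2m)²` (these blocks satisfy `Fits`, and `d φ` vanishes on all other edges), and
  `ρ = (π + 2 π β l) / m`; `|d φ| ≤ π / L` (`abs_d_prod_le`, `sum_abs_le`); `I.card ≤ 36 m²`.
* On the block `i` the increment `s k = f (t + 1) - f t` only depends on `i k = t / l`, `|s k| ≤ 1 / L`, so by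
  `d_prod`, `res (d φ) = α 0 • res (dx 0) + α 1 • res (dx 1) + r` with `α k = π * s k * f (l * i k.rev)`,
  `|r| ≤ π / (L m)`.  By `q_add_three_le`, `q_nonneg`, `q_le_A`, `A_le`:
  `q ≤ 3 (π / m)² (2 η + 2 β / m²)`. -/
theorem twist_le (hβ : 0 ≤ β) {η : ℝ} (hη : 0 ≤ η) {l m : ℕ} (hl : 1 ≤ l) (hm : 2 ≤ m)
    (hρ : (Real.pi + 2 * Real.pi * β * l) / m ≤ 1 / 10) (c : Fin 2 → ℤ)
    (hQ : ∀ z j, Γ.Fits (Γ.Ann c (m * l)) z l → Γ.Q (Γ.Ann c (m * l)) z l j ≤ η) :
    Real.exp (- (108 * Real.pi ^ 2 * (η + β / (m : ℝ) ^ 2) +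
        3600 * (Real.pi + 2 * Real.pi * β * l) ^ 3 / m)) *
      M.N (Γ.Ann c (m * l)) 1 (fun _ => pole 1) ≤
      M.N (Γ.Ann c (m * l)) 1 (fun x => pole (Γ.sgn c (m * l) x)) := by
  have hL : 0 < m * l := by positivity
  have hl0 : (1 : ℝ) ≤ l := by exact_mod_cast hl
  have hm0 : (0 : ℝ) < m := by positivity
  have hpi := Real.pi_pos
  have hfit : ∀ i ∈ twist_I m, Γ.Fits (Γ.Ann c (m * l)) (fun k => c k + l * i k) l :=
    fun i hi => Γ.twist_fits hl hm c hi
  have hf := Γ.fam c hl (twist_I m) fun i hi => Fits.sub Γ (hfit i hi)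
  have hd := Γ.twist_abs_d_le hL c
  have h1 : ∀ e, |M.d (Γ.twist_phi c (m * l)) e| ≤ (Real.pi + 2 * Real.pi * β * l) / m := by
    intro e
    refine (hd e).trans ?_
    push_cast
    calc Real.pi / (m * l) ≤ Real.pi / m :=
          div_le_div_of_nonneg_left hpi.le hm0 (le_mul_of_one_le_right hm0.le hl0)
      _ ≤ _ := div_le_div_of_nonneg_right (le_add_of_nonneg_right (by positivity)) hm0.le
  have h2 : ∀ i ∈ twist_I m, ∑ e, M.b e *
      |res (Γ.EB (fun k => c k + l * i k) l) (M.d (Γ.twist_phi c (m * l))) e| ≤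
        (Real.pi + 2 * Real.pi * β * l) / m := by
    intro i _
    refine (Γ.sum_abs_le hβ (z := fun k => c k + l * i k) (l := l)
      (u := Real.pi / ((m * l : ℕ) : ℝ)) (by positivity) (fun e he => ?_) fun e => ?_).trans ?_
    · by_contra h
      exact he (if_neg h)
    · unfold res
      split_ifs
      · exact hd e
      · rw [abs_zero]
        positivity
    · have e : β * (2 * (l : ℝ) ^ 2) * (Real.pi / ((m * l : ℕ) : ℝ)) = 2 * Real.pi * β * l / m := by
        push_cast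
        field_simp
      rw [e]
      exact div_le_div_of_nonneg_right (le_add_of_nonneg_left hpi.le) hm0.le
  have h3 := hf.Ex_exp_tw_ge 2 (Γ.twist_supp hl hm c) hρ h1 h2
  rw [Γ.twist_N hL]
  refine mul_le_mul_of_nonneg_right (le_trans ?_ h3) (M.N_one_pos _ _).le
  refine Real.exp_le_exp.2 (neg_le_neg ?_)
  have h4 := Finset.sum_le_card_nsmul (twist_I m) (fun i =>
      M.q (Γ.Ann c (m * l)) (Γ.UB (fun k => c k + l * i k) l) 2
        (res (Γ.EB (fun k => c k + l * i k) l) (M.d (Γ.twist_phi c (m * l))))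
        (res (Γ.EB (fun k => c k + l * i k) l) (M.d (Γ.twist_phi c (m * l)))) / 2 +
        100 * ((Real.pi + 2 * Real.pi * β * l) / m) ^ 3)
    (3 * Real.pi ^ 2 / (m : ℝ) ^ 2 * (η + β / (m : ℝ) ^ 2) +
      100 * ((Real.pi + 2 * Real.pi * β * l) / m) ^ 3) fun i hi => by
      have := Γ.twist_q_le hβ hl hm c (Fits.sub Γ (hfit i hi)) fun j => hQ _ j (hfit i hi)
      have e : 6 * Real.pi ^ 2 / (m : ℝ) ^ 2 * (η + β / (m : ℝ) ^ 2) =
          2 * (3 * Real.pi ^ 2 / (m : ℝ) ^ 2 * (η + β / (m : ℝ) ^ 2)) := by ring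
      linarith
  refine h4.trans ?_
  rw [nsmul_eq_mul]
  refine (mul_le_mul_of_nonneg_right (twist_card_I m) (by positivity)).trans (le_of_eq ?_)
  field_simp
  ring

end Geo

/-- `stiff` with `η = ε / (3 * 108 π²)`, then `m` large; `1 - ε ≤ exp (-ε)`. -/
theorem twist {β ε : ℝ} (hβ : 0 < β) (hε : 0 < ε) : ∃ L : ℕ, 1 ≤ L ∧
    ∀ (V E : Type) [Fintype V] [DecidableEq V] [Fintype E] [DecidableEq E] (M : Mod V E)
      (Γ : Geo M β) (c : Fin 2 → ℤ),
      (1 - ε) * M.N (Γ.Ann c L) 1 (fun _ => pole 1) ≤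
        M.N (Γ.Ann c L) 1 (fun x => pole (Γ.sgn c L x)) := by
  have hpi := Real.pi_pos
  obtain ⟨l, hl, hst⟩ := stiff (η := ε / (3 * (108 * Real.pi ^ 2))) hβ (by positivity)
  obtain ⟨C, hC⟩ : ∃ C : ℝ, C = Real.pi + 2 * Real.pi * β * l := ⟨_, rfl⟩
  have hC0 : 0 ≤ C := by rw [hC]; positivity
  obtain ⟨m, hm⟩ := exists_nat_ge (2 + 10 * C + 324 * Real.pi ^ 2 * β / ε + 10800 * C ^ 3 / ε)
  have a1 : 0 ≤ 324 * Real.pi ^ 2 * β / ε := by positivity
  have a2 : 0 ≤ 10800 * C ^ 3 / ε := by positivity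
  have hm2 : (2 : ℝ) ≤ m := by linarith
  have hm0 : (0 : ℝ) < m := by linarith
  have hm2' : 2 ≤ m := by exact_mod_cast hm2
  refine ⟨m * l, Nat.succ_le_of_lt (by positivity), fun V E _ _ _ _ M Γ c => ?_⟩
  have h1 : C / m ≤ 1 / 10 := by
    rw [div_le_iff₀ hm0]
    linarith
  have h2 := Γ.twist_le hβ.le (η := ε / (3 * (108 * Real.pi ^ 2))) (by positivity) hl hm2'
    (hC ▸ h1) c fun z j hz => hst V E M Γ _ z j hz
  refine le_trans (mul_le_mul_of_nonneg_right ?_ (M.N_one_pos _ _).le) h2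
  rw [← hC]
  have b1 : 108 * Real.pi ^ 2 * (ε / (3 * (108 * Real.pi ^ 2))) = ε / 3 := by field_simp
  have b2 : 108 * Real.pi ^ 2 * (β / (m : ℝ) ^ 2) ≤ ε / 3 := by
    have c1 : 324 * Real.pi ^ 2 * β / ε ≤ (m : ℝ) ^ 2 := by nlinarith
    rw [div_le_iff₀ hε] at c1
    rw [← mul_div_assoc, div_le_iff₀ (by positivity)]
    linarith
  have b3 : 3600 * C ^ 3 / m ≤ ε / 3 := by
    have c1 : 10800 * C ^ 3 / ε ≤ m := by linarith
    rw [div_le_iff₀ hε] at c1
    rw [div_le_iff₀ hm0]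
    linarith
  have b4 := Real.add_one_le_exp (-ε)
  refine le_trans (by linarith) (Real.exp_le_exp.2 (?_ : -ε ≤ _))
  rw [mul_add, b1]
  linarith

end Crest.Agent.R167
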