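import Crest.Agent.R167.Peierls
import Crest.Agent.R167.Twist

/-!
# rid 167: exponential decay for `n = 3`
-/

set_option autoImplicit false
set_option linter.unusedSectionVars false

noncomputable section

namespace Crest.Agent.R167

open MeasureTheory Finset

variable {V E : Type} [Fintype V] [DecidableEq V] [Fintype E] [DecidableEq E]

theorem three {β : ℝ} (hβ : 0 < β) : ∃ A m : ℝ, 0 ≤ A ∧ 0 < m ∧
    ∀ (V E : Type) [Fintype V] [DecidableEq V] [Fintype E] [DecidableEq E] (M : Mod V E)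
      (Γ : Geo M β) (x y : V) (k : Fin 2) (ξ : Cfg V),
      0 ≤ M.N univ (sp x 0 * sp y 0) ξ ∧ M.N univ (sp x 0 * sp y 0) ξ ≤
        A * Real.exp (- m * |(Γ.pos x k : ℝ) - Γ.pos y k|) * M.N univ 1 ξ := by
  obtain ⟨L, hL, htw⟩ := twist hβ (ε := 1 / 242) (by norm_num)
  have hL0 : (0 : ℝ) < L := by exact_mod_cast hL
  have hlog : 0 < Real.log 2 := Real.log_pos (by norm_num)
  refine ⟨2, Real.log 2 / (10 * L), by norm_num, by positivity, fun V E _ _ _ _ M Γ x y k ξ => ?_⟩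
  have hc : (0 : ℝ) ≤ (Fintype.card (V → ℤˣ) : ℝ)⁻¹ := by positivity
  have hS : ∀ (A : Set (Finset E)) a, 0 ≤ M.XY (M.Kc a) * ∑ ε : V → ℤˣ, M.fk (M.Jc a) A ε :=
    fun A a => mul_nonneg (M.XY_nonneg _)
      (Finset.sum_nonneg fun _ _ => M.fk_nonneg (M.Jc_nonneg a) _ _)
  rw [M.N_univ_sp, M.N_univ_one]
  simp only [M.sum_sg_Isg]
  simp only [← M.fk_univ]
  refine ⟨mul_nonneg hc (integral_nonneg fun a =>
    mul_nonneg (mul_nonneg (a x).2.1 (a y).2.1) (hS _ a)), ?_⟩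
  rw [mul_left_comm]
  refine mul_le_mul_of_nonneg_left ?_ hc
  set D : ℤ := |Γ.pos x k - Γ.pos y k| with hD
  have hD0 : 0 ≤ D := abs_nonneg _
  have hL1 : (0 : ℤ) < 10 * L := by omega
  obtain ⟨m, hm⟩ := Int.eq_ofNat_of_zero_le (Int.ediv_nonneg hD0 hL1.le)
  have h1 : 10 * (L : ℤ) * m ≤ D := by rw [← hm]; exact Int.mul_ediv_self_le hL1.ne'
  have h2 : D < 10 * (L : ℤ) * (m + 1) := by
    rw [← hm, mul_comm]; exact Int.lt_ediv_add_one_mul_self D hL1
  have h3 := Γ.peierls hL (η := 1 / 242) (by norm_num) (fun c A hA =>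
    M.MM_cross_le _ _ (htw V E (M.only (M.ET (Γ.Ann c L))) (Γ.only _) c) hA) h1
  have h4 : ∫ a, (a x : ℝ) * a y * (M.XY (M.Kc a) *
      ∑ ε : V → ℤˣ, M.fk (M.Jc a) {ω | M.Conn ω x y} ε) ∂lamV V ≤ M.MM {ω | M.Conn ω x y} := by
    refine integral_mono (integrable_cont _ (by fun_prop)) (integrable_cont _ (by fun_prop))
      fun a => mul_le_of_le_one_left (hS _ a) (mul_le_one₀ (a x).2.2 (a y).2.1 (a y).2.2)
  refine h4.trans (h3.trans (mul_le_mul_of_nonneg_right ?_ (M.MM_nonneg _)))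
  have e1 : |(Γ.pos x k : ℝ) - Γ.pos y k| = (D : ℝ) := by rw [hD]; push_cast; rfl
  have e2 : (121 * (1 / 242) : ℝ) ^ m = 2 * Real.exp (- (Real.log 2 * (m + 1))) := by
    rw [Real.exp_neg, mul_comm (Real.log 2), ← Nat.cast_succ, Real.exp_nat_mul,
      Real.exp_log (by norm_num), pow_succ, show (121 * (1 / 242) : ℝ) = 2⁻¹ by norm_num, inv_pow]
    field_simp
  rw [e1, e2]
  refine mul_le_mul_of_nonneg_left (Real.exp_le_exp.2 ?_) (by norm_num)
  have h5 : (D : ℝ) ≤ 10 * L * (m + 1) := by exact_mod_cast h2.le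
  rw [neg_mul, neg_le_neg_iff, div_mul_eq_mul_div, div_le_iff₀ (by positivity)]
  nlinarith

end Crest.Agent.R167
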