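import Crest.Prelude.Def_SpinON
import Crest.Agent.R167.Three
import Crest.Agent.R167.Red

/-!
# rid 167, task Final: reduction to `n = 3`
-/

set_option autoImplicit false

noncomputable section

namespace Crest.Agent.R167

open MeasureTheory Finset Crest.ProbabilityR.SpinModel

/-- disintegration of the reference law -/
theorem final_integral {n : ℕ} (V : Finset (ℤ × ℤ)) {Φ : Sn n × Sp → Sn n} (hΦc : Continuous Φ)
    (hΦ : MeasurePreserving Φ ((volume : Measure (EuclideanSpace ℝ (Fin n))).toSphere.prod nu)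
        (volume : Measure (EuclideanSpace ℝ (Fin n))).toSphere)
    {F : SpinConfig n V → ℝ} (hF : Continuous F) :
    ∫ σ, F σ ∂referenceLaw n V =
      ∫ w, ∫ τ, F (fun x => Φ (w x, τ x)) ∂piM V ∂referenceLaw n V := by
  have h1 := measurePreserving_pi
    (fun _ : V => (volume : Measure (EuclideanSpace ℝ (Fin n))).toSphere.prod nu)
    (fun _ : V => (volume : Measure (EuclideanSpace ℝ (Fin n))).toSphere)
    (f := fun _ => Φ) (fun _ => hΦ)
  have h2 := (measurePreserving_arrowProdEquivProdArrow (Sn n) Sp V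
    (fun _ : V => (volume : Measure (EuclideanSpace ℝ (Fin n))).toSphere)
    (fun _ : V => nu)).symm
  have h3 : MeasurePreserving
      (fun p : SpinConfig n V × Cfg V => (fun x => Φ (p.1 x, p.2 x) : SpinConfig n V))
      ((referenceLaw n V).prod (piM V)) (referenceLaw n V) := h1.comp h2
  have : IsFiniteMeasure (referenceLaw n V) := by unfold referenceLaw; infer_instance
  have h4 : ∫ σ, F σ ∂referenceLaw n V =
      ∫ p, F (fun x => Φ (p.1 x, p.2 x)) ∂(referenceLaw n V).prod (piM V) := by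
    conv_lhs => rw [← h3.map_eq]
    exact integral_map h3.aemeasurable hF.aestronglyMeasurable
  rw [h4, integral_prod]
  exact integrable_cont _ (by fun_prop)

/-- the target of the edge `(u, j)` -/
def finalTgt (V : Finset (ℤ × ℤ)) (e : V × Fin 2) : V :=
  if h : (e.1 : ℤ × ℤ) + latticeDir e.2 ∈ V then ⟨_, h⟩ else e.1

/-- the coupling of the edge `(u, j)` -/
def finalB (V : Finset (ℤ × ℤ)) (b : ℤ × ℤ → Fin 2 → ℝ) (e : V × Fin 2) : ℝ :=
  if (e.1 : ℤ × ℤ) + latticeDir e.2 ∈ V then b e.1 e.2 else 0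

theorem final_interaction (n : ℕ) (V : Finset (ℤ × ℤ)) (b : ℤ × ℤ → Fin 2 → ℝ)
    (σ : SpinConfig n V) :
    interaction n V b σ = ∑ e : V × Fin 2, finalB V b e *
      inner ℝ (σ e.1 : EuclideanSpace ℝ (Fin n)) (σ (finalTgt V e)) := by
  unfold interaction
  rw [Fintype.sum_prod_type]
  refine Finset.sum_congr rfl fun u _ => Finset.sum_congr rfl fun j _ => ?_
  unfold finalB finalTgt
  by_cases h : (u : ℤ × ℤ) + latticeDir j ∈ V
  · simp only [dif_pos h, if_pos h]
  · simp only [dif_neg h, if_neg h, zero_mul]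

@[fun_prop] theorem final_continuous_interaction (n : ℕ) (V : Finset (ℤ × ℤ))
    (b : ℤ × ℤ → Fin 2 → ℝ) : Continuous (interaction n V b) := by
  have : interaction n V b = fun σ => ∑ e : V × Fin 2, finalB V b e *
      inner ℝ (σ e.1 : EuclideanSpace ℝ (Fin n)) (σ (finalTgt V e)) :=
    funext (final_interaction n V b)
  rw [this]
  fun_prop

theorem finalB_mem {β : ℝ} (V : Finset (ℤ × ℤ)) {b : ℤ × ℤ → Fin 2 → ℝ}
    (hb : ∀ u j, 0 ≤ b u j ∧ b u j ≤ β) (e : V × Fin 2) :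
    0 ≤ finalB V b e ∧ finalB V b e ≤ β := by
  unfold finalB
  split_ifs
  · exact hb _ _
  · exact ⟨le_rfl, (hb e.1 e.2).1.trans (hb e.1 e.2).2⟩

/-- the conditional three-component model -/
def finalMod {β : ℝ} (V : Finset (ℤ × ℤ)) {b : ℤ × ℤ → Fin 2 → ℝ}
    (hb : ∀ u j, 0 ≤ b u j ∧ b u j ≤ β) (r : V → ℝ) (hr : ∀ x, 0 ≤ r x ∧ r x ≤ 1) :
    Mod V (V × Fin 2) where
  src := Prod.fst
  tgt := finalTgt V
  b e := finalB V b e * (r e.1 * r (finalTgt V e))
  hb e := mul_nonneg (finalB_mem V hb e).1 (mul_nonneg (hr _).1 (hr _).1)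

/-- its embedding in the lattice -/
def finalGeo {β : ℝ} (V : Finset (ℤ × ℤ)) {b : ℤ × ℤ → Fin 2 → ℝ}
    (hb : ∀ u j, 0 ≤ b u j ∧ b u j ≤ β) (r : V → ℝ) (hr : ∀ x, 0 ≤ r x ∧ r x ≤ 1) :
    Geo (finalMod V hb r hr) β where
  pos u := ![u.1.1, u.1.2]
  dir := Prod.snd
  step e := by
    change finalTgt V e = e.1 ∨ ![(finalTgt V e).1.1, (finalTgt V e).1.2] =
      ![e.1.1.1, e.1.1.2] + Pi.single e.2 1
    unfold finalTgt
    by_cases h : (e.1 : ℤ × ℤ) + latticeDir e.2 ∈ V
    · right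
      rw [dif_pos h]
      obtain ⟨u, j⟩ := e
      ext k
      fin_cases j <;> fin_cases k <;> simp [latticeDir]
    · left
      rw [dif_neg h]
  inj := by
    rintro ⟨u, j⟩ ⟨u', j'⟩ h
    simp only [Prod.mk.injEq] at h
    obtain ⟨h1, h2⟩ := h
    have h3 : u.1.1 = u'.1.1 := congrFun h1 0
    have h4 : u.1.2 = u'.1.2 := congrFun h1 1
    exact Prod.ext (Subtype.ext (Prod.ext h3 h4)) h2
  le e := (mul_le_of_le_one_right (finalB_mem V hb e).1
    (mul_le_one₀ (hr _).2 (hr _).1 (hr _).2)).trans (finalB_mem V hb e).2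

theorem final_ham {β : ℝ} (V : Finset (ℤ × ℤ)) {b : ℤ × ℤ → Fin 2 → ℝ}
    (hb : ∀ u j, 0 ≤ b u j ∧ b u j ≤ β) (r : V → ℝ) (hr : ∀ x, 0 ≤ r x ∧ r x ≤ 1) (τ : Cfg V) :
    (finalMod V hb r hr).ham τ = ∑ e : V × Fin 2, finalB V b e * (r e.1 * r (finalTgt V e)) *
      ∑ a, co a (τ e.1) * co a (τ (finalTgt V e)) := by
  simp [Mod.ham, finalMod, ContinuousMap.coe_sum, Finset.sum_apply]

theorem final_partition_pos {n : ℕ} (hn : 3 ≤ n) (V : Finset (ℤ × ℤ)) (b : ℤ × ℤ → Fin 2 → ℝ) :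
    0 < partitionFn n V b := by
  have : IsFiniteMeasure (referenceLaw n V) := by unfold referenceLaw; infer_instance
  have : Nonempty (Fin n) := ⟨⟨0, by omega⟩⟩
  have : NeZero (volume : Measure (EuclideanSpace ℝ (Fin n))).toSphere :=
    ⟨Measure.toSphere_ne_zero _⟩
  unfold partitionFn
  rw [integral_pos_iff_support_of_nonneg (fun σ => (Real.exp_pos _).le)
    (integrable_cont _ (by fun_prop))]
  have : Function.support (fun σ : SpinConfig n V => Real.exp (interaction n V b σ)) = Set.univ :=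
    Set.eq_univ_of_forall fun σ => (Real.exp_pos _).ne'
  rw [this]
  unfold referenceLaw
  rw [Measure.pi_univ]
  refine pos_iff_ne_zero.2 (Finset.prod_ne_zero_iff.2 fun _ _ => ?_)
  exact NeZero.ne _

/-- One coordinate.  Take `ρ, G, Φ` from `exists_decomp hn i`.  By `measurePreserving_pi` and
`measurePreserving_arrowProdEquivProdArrow`, `∫ F ∂referenceLaw = ∫ w, ∫ τ, F (fun x => Φ (w x, τ x)) ∂piM ∂referenceLaw`
for continuous `F`.  For fixed `w` let `M w : Mod V (V × Fin 2)` have `src (u, j) = u`,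
`tgt (u, j) = if h : u + latticeDir j ∈ V then ⟨_, h⟩ else u` and couplings
`(if u + latticeDir j ∈ V then b u j else 0) * (ρ (w src) * ρ (w tgt))`, with `Geo (M w) β` given by
`pos u = ![u.1.1, u.1.2]`, `dir = Prod.snd`.  Then `interaction = (M w).ham τ + g w`, so the inner integrals
are `ρ (w x) ρ (w y) exp (g w) (M w).N univ (sp x 0 * sp y 0) ξ` and `exp (g w) (M w).N univ 1 ξ`. -/
theorem coord_bound {β A m : ℝ} (hA : 0 ≤ A)
    (h3 : ∀ (V E : Type) [Fintype V] [DecidableEq V] [Fintype E] [DecidableEq E] (M : Mod V E)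
      (Γ : Geo M β) (x y : V) (k : Fin 2) (ξ : Cfg V),
      0 ≤ M.N univ (sp x 0 * sp y 0) ξ ∧ M.N univ (sp x 0 * sp y 0) ξ ≤
        A * Real.exp (- m * |(Γ.pos x k : ℝ) - Γ.pos y k|) * M.N univ 1 ξ)
    {n : ℕ} (hn : 3 ≤ n) (i : Fin n) (V : Finset (ℤ × ℤ)) (b : ℤ × ℤ → Fin 2 → ℝ)
    (hb : ∀ u j, 0 ≤ b u j ∧ b u j ≤ β) (x y : V) (k : Fin 2) :
    0 ≤ ∫ σ, (σ x : EuclideanSpace ℝ (Fin n)) i * (σ y : EuclideanSpace ℝ (Fin n)) i *
        Real.exp (interaction n V b σ) ∂referenceLaw n V ∧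
      ∫ σ, (σ x : EuclideanSpace ℝ (Fin n)) i * (σ y : EuclideanSpace ℝ (Fin n)) i *
        Real.exp (interaction n V b σ) ∂referenceLaw n V ≤
      A * Real.exp (- m * |((![x.1.1, x.1.2] k : ℤ) : ℝ) - ((![y.1.1, y.1.2] k : ℤ) : ℝ)|) *
        partitionFn n V b := by
  obtain ⟨ρ, G, Φ, hρc, hρ, hGc, hΦc, hΦ, hin, hco⟩ := exists_decomp hn i
  have : IsFiniteMeasure (referenceLaw n V) := by unfold referenceLaw; infer_instance
  set C : ℝ :=
    A * Real.exp (- m * |((![x.1.1, x.1.2] k : ℤ) : ℝ) - ((![y.1.1, y.1.2] k : ℤ) : ℝ)|) with hC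
  have hC0 : 0 ≤ C := mul_nonneg hA (Real.exp_pos _).le
  -- the inner integrals
  have key : ∀ w : SpinConfig n V,
      0 ≤ ∫ τ, (Φ (w x, τ x) : EuclideanSpace ℝ (Fin n)) i *
          (Φ (w y, τ y) : EuclideanSpace ℝ (Fin n)) i *
          Real.exp (interaction n V b fun z => Φ (w z, τ z)) ∂piM V ∧
      ∫ τ, (Φ (w x, τ x) : EuclideanSpace ℝ (Fin n)) i *
          (Φ (w y, τ y) : EuclideanSpace ℝ (Fin n)) i *
          Real.exp (interaction n V b fun z => Φ (w z, τ z)) ∂piM V ≤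
        C * ∫ τ, Real.exp (interaction n V b fun z => Φ (w z, τ z)) ∂piM V := by
    intro w
    set M := finalMod V hb (fun z => ρ (w z)) (fun z => hρ (w z)) with hM
    set g : ℝ := ∑ e : V × Fin 2, finalB V b e * G (w e.1) (w (finalTgt V e)) with hg
    have hint : ∀ τ : Cfg V, interaction n V b (fun z => Φ (w z, τ z)) = M.ham τ + g := by
      intro τ
      rw [final_interaction, hM, final_ham, hg, ← Finset.sum_add_distrib]
      refine Finset.sum_congr rfl fun e _ => ?_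
      rw [hin]
      ring
    have hN := h3 V (V × Fin 2) M (finalGeo V hb _ _) x y k fun _ => pole 1
    have e1 : ∫ τ, (Φ (w x, τ x) : EuclideanSpace ℝ (Fin n)) i *
          (Φ (w y, τ y) : EuclideanSpace ℝ (Fin n)) i *
          Real.exp (interaction n V b fun z => Φ (w z, τ z)) ∂piM V =
        ρ (w x) * ρ (w y) * (Real.exp g * M.N univ (sp x 0 * sp y 0) fun _ => pole 1) := by
      rw [Mod.N_apply, ← integral_const_mul, ← integral_const_mul]
      refine integral_congr_ae (Filter.Eventually.of_forall fun τ => ?_)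
      simp only [hint, hco, Real.exp_add, Finset.piecewise_univ, ContinuousMap.mul_apply, sp_apply]
      ring
    have e2 : ∫ τ, Real.exp (interaction n V b fun z => Φ (w z, τ z)) ∂piM V =
        Real.exp g * M.N univ 1 fun _ => pole 1 := by
      rw [Mod.N_apply, ← integral_const_mul]
      refine integral_congr_ae (Filter.Eventually.of_forall fun τ => ?_)
      simp only [hint, Real.exp_add, Finset.piecewise_univ, ContinuousMap.one_apply]
      ring
    rw [e1, e2]
    have h0 : 0 ≤ Real.exp g * M.N univ (sp x 0 * sp y 0) fun _ => pole 1 :=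
      mul_nonneg (Real.exp_pos _).le hN.1
    refine ⟨mul_nonneg (mul_nonneg (hρ _).1 (hρ _).1) h0, ?_⟩
    refine (mul_le_of_le_one_left h0 (mul_le_one₀ (hρ _).2 (hρ _).1 (hρ _).2)).trans ?_
    rw [mul_left_comm]
    exact mul_le_mul_of_nonneg_left hN.2 (Real.exp_pos _).le
  unfold partitionFn
  rw [final_integral V hΦc hΦ (F := fun σ => (σ x : EuclideanSpace ℝ (Fin n)) i *
      (σ y : EuclideanSpace ℝ (Fin n)) i * Real.exp (interaction n V b σ)) (by fun_prop),
    final_integral V hΦc hΦ (F := fun σ => Real.exp (interaction n V b σ)) (by fun_prop),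
    ← integral_const_mul]
  refine ⟨integral_nonneg fun w => (key w).1, integral_mono ?_ ?_ fun w => (key w).2⟩
  · exact integrable_cont _ (continuous_integral_param _ (by fun_prop))
  · exact integrable_cont _ (continuous_const.mul (continuous_integral_param _ (by fun_prop)))

/-- Sum `coord_bound` over the coordinates, with `k` the direction of the larger displacement (the
Euclidean distance is at most twice that displacement); constants `n * A` and `m / 2`. -/
theorem main (n : ℕ) (hn : 3 ≤ n) (β : ℝ) (hβ : 0 < β) :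
    ∃ A m : ℝ, 0 < m ∧
      ∀ (V : Finset (ℤ × ℤ)) (b : ℤ × ℤ → Fin 2 → ℝ),
        (∀ u i, 0 ≤ b u i ∧ b u i ≤ β) →
        ∀ x y : V,
          0 ≤ twoPoint n V b x y ∧
          twoPoint n V b x y ≤
            A * Real.exp (-m * Real.sqrt ((((x : ℤ × ℤ).1 - (y : ℤ × ℤ).1 : ℤ) : ℝ) ^ 2 +
              (((x : ℤ × ℤ).2 - (y : ℤ × ℤ).2 : ℤ) : ℝ) ^ 2)) := by
  obtain ⟨A, m, hA, hm, h3⟩ := three hβ
  refine ⟨n * A, m / 2, by positivity, fun V b hb x y => ?_⟩
  have : IsFiniteMeasure (referenceLaw n V) := by unfold referenceLaw; infer_instance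
  have hZ := final_partition_pos hn V b
  have hsum : ∫ σ, inner ℝ (σ x : EuclideanSpace ℝ (Fin n)) (σ y) *
        Real.exp (interaction n V b σ) ∂referenceLaw n V =
      ∑ i, ∫ σ, (σ x : EuclideanSpace ℝ (Fin n)) i * (σ y : EuclideanSpace ℝ (Fin n)) i *
        Real.exp (interaction n V b σ) ∂referenceLaw n V := by
    rw [← integral_finsetSum _ fun i _ => integrable_cont _ (by fun_prop)]
    refine integral_congr_ae (Filter.Eventually.of_forall fun σ => ?_)
    simp only [PiLp.inner_apply, Finset.sum_mul, RCLike.inner_apply, conj_trivial]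
    exact Finset.sum_congr rfl fun i _ => by ring
  unfold twoPoint
  rw [hsum]
  refine ⟨div_nonneg (Finset.sum_nonneg fun i _ =>
    (coord_bound hA h3 hn i V b hb x y 0).1) hZ.le, ?_⟩
  rw [div_le_iff₀ hZ]
  set d0 : ℝ := (((x : ℤ × ℤ).1 - (y : ℤ × ℤ).1 : ℤ) : ℝ) with hd0
  set d1 : ℝ := (((x : ℤ × ℤ).2 - (y : ℤ × ℤ).2 : ℤ) : ℝ) with hd1
  obtain ⟨k, hk⟩ : ∃ k : Fin 2, Real.sqrt (d0 ^ 2 + d1 ^ 2) ≤
      2 * |((![x.1.1, x.1.2] k : ℤ) : ℝ) - ((![y.1.1, y.1.2] k : ℤ) : ℝ)| := by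
    rcases le_total |d0| |d1| with h | h
    · refine ⟨1, ?_⟩
      have e : ((![x.1.1, x.1.2] 1 : ℤ) : ℝ) - ((![y.1.1, y.1.2] 1 : ℤ) : ℝ) = d1 := by
        simp [hd1]
      rw [e, Real.sqrt_le_left (by positivity), ← sq_abs d0, ← sq_abs d1]
      nlinarith [abs_nonneg d0, abs_nonneg d1]
    · refine ⟨0, ?_⟩
      have e : ((![x.1.1, x.1.2] 0 : ℤ) : ℝ) - ((![y.1.1, y.1.2] 0 : ℤ) : ℝ) = d0 := by
        simp [hd0]
      rw [e, Real.sqrt_le_left (by positivity), ← sq_abs d0, ← sq_abs d1]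
      nlinarith [abs_nonneg d0, abs_nonneg d1]
  refine (Finset.sum_le_sum fun i _ => (coord_bound hA h3 hn i V b hb x y k).2).trans ?_
  rw [Finset.sum_const, Finset.card_univ, Fintype.card_fin, nsmul_eq_mul, ← mul_assoc, ← mul_assoc]
  refine mul_le_mul_of_nonneg_right (mul_le_mul_of_nonneg_left (Real.exp_le_exp.2 ?_)
    (by positivity)) hZ.le
  nlinarith

end Crest.Agent.R167
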