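import Crest.Agent.R167.Pos
import Crest.Agent.R167.FKDefs

/-!
# rid 167, task Gin: Ginibre's inequality for the XY model
-/

set_option autoImplicit false
set_option linter.unusedSectionVars false

noncomputable section

namespace Crest.Agent.R167

open MeasureTheory Finset

variable {V E : Type} [Fintype V] [DecidableEq V] [Fintype E] [DecidableEq E]

/-- products of nonnegative numbers are supermodular -/
theorem mul_supermod {x y x' y' : ℝ} (hx : 0 ≤ x) (hy : 0 ≤ y) (hx' : 0 ≤ x') (hy' : 0 ≤ y') :
    |x * y + x' * y'| ≤ max x x' * max y y' + min x x' * min y y' ∧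
      |x * y - x' * y'| ≤ max x x' * max y y' - min x x' * min y y' := by
  rcases le_total x x' with h | h <;> rcases le_total y y' with k | k <;>
    simp only [max_eq_left, max_eq_right, min_eq_left, min_eq_right, h, k, abs_le] <;>
    refine ⟨⟨?_, ?_⟩, ?_, ?_⟩ <;>
    nlinarith [mul_nonneg hx hy, mul_nonneg hx' hy', mul_nonneg hx hy', mul_nonneg hx' hy,
      mul_nonneg (sub_nonneg.2 h) (sub_nonneg.2 k), mul_nonneg (sub_nonneg.2 h) hy,
      mul_nonneg (sub_nonneg.2 h) hy', mul_nonneg hx (sub_nonneg.2 k),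
      mul_nonneg hx' (sub_nonneg.2 k)]

/-- `(α, β) ↦ (α - β, β) ↦ (γ, β + β) ↦ (γ, γ + δ)`: two shears (`measurePreserving_sub_prod`,
`measurePreserving_prod_add`) and doubling (`Measure.measurePreserving_zsmul`, coordinatewise by
`measurePreserving_pi`). -/
theorem measurePreserving_gin : MeasurePreserving
    (fun p : (V → TT) × (V → TT) => (p.1 - p.2, p.1 + p.2)) ((muV V).prod (muV V))
      ((muV V).prod (muV V)) := by
  have h2 : MeasurePreserving (fun β : V → TT => β + β) (muV V) (muV V) := by
    have := measurePreserving_pi (fun _ : V => muT) (fun _ : V => muT)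
      (f := fun _ (g : TT) => (2 : ℤ) • g)
      fun _ => Measure.measurePreserving_zsmul muT two_ne_zero
    convert this using 1
    funext β i
    simp [two_zsmul]
  have h3 := ((measurePreserving_prod_add (muV V) (muV V)).comp
    ((MeasurePreserving.id (muV V)).prod h2)).comp (measurePreserving_sub_prod (muV V) (muV V))
  convert h3 using 1
  funext p
  simp only [Function.comp_apply, Prod.map, id]
  congr 1
  abel

namespace Mod

variable (M : Mod V E)

/-- Write the product as an integral over pairs `(θ, θ')` of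
`exp (∑ e, (K₁ + K₂)/2 * (c e θ + c e θ') + (K₁ - K₂)/2 * (c e θ - c e θ'))`, `c e θ = cosT (θ src - θ tgt)`,
and apply `integral_exp_le` with `ι = E × Bool` (or `E ⊕ E`).  After the substitution `θ = α - β`,
`θ' = α + β` (`measurePreserving_gin`): `c e θ + c e θ' = 2 c e α * c e β` and
`c e θ - c e θ' = 2 s e α * s e β` (`cosT_add`, `cosT_sub`), so a monomial is `2^N f α * f β`, whose
integral is `2^N (∫ f)²` (`integral_prod_mul`). -/
theorem XY_mul_le {K₁ K₂ K₃ K₄ : E → ℝ} (h1 : ∀ e, |K₁ e + K₂ e| ≤ K₃ e + K₄ e)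
    (h2 : ∀ e, |K₁ e - K₂ e| ≤ K₃ e - K₄ e) : M.XY K₁ * M.XY K₂ ≤ M.XY K₃ * M.XY K₄ := by
  let c : E → (V → TT) → ℝ := fun e θ => cosT (θ (M.src e) - θ (M.tgt e))
  let s : E → (V → TT) → ℝ := fun e θ => sinT (θ (M.src e) - θ (M.tgt e))
  have hc : ∀ e, Continuous (c e) := fun e => by simp only [c]; fun_prop
  have hs : ∀ e, Continuous (s e) := fun e => by simp only [s]; fun_prop
  let u : E ⊕ E → (V → TT) × (V → TT) → ℝ :=
    Sum.elim (fun e p => (c e p.1 + c e p.2) / 2) (fun e p => (c e p.1 - c e p.2) / 2)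
  have hu : ∀ i, Continuous (u i) := by
    rintro (e | e)
    · have := hc e
      simp only [u, Sum.elim_inl]; fun_prop
    · have := hc e
      simp only [u, Sum.elim_inr]; fun_prop
  have key : ∀ K K' : E → ℝ, M.XY K * M.XY K' =
      ∫ p, Real.exp (∑ i, Sum.elim (fun e => K e + K' e) (fun e => K e - K' e) i * u i p)
        ∂(muV V).prod (muV V) := by
    intro K K'
    unfold XY
    rw [← integral_prod_mul]
    refine integral_congr_ae (Filter.Eventually.of_forall fun p => ?_)
    simp only [← Real.exp_add, Fintype.sum_sum_type, u, Sum.elim_inl, Sum.elim_inr,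
      ← sum_add_distrib]
    congr 1
    refine sum_congr rfl fun e _ => ?_
    simp only [c]
    ring
  rw [key, key]
  refine integral_exp_le _ u hu (fun k => ?_) _ _ ?_
  · have hm := measurePreserving_gin (V := V)
    have hcont : Continuous fun p => ∏ i, u i p ^ k i :=
      continuous_finsetProd _ fun i _ => (hu i).pow _
    rw [← hm.map_eq, integral_map hm.measurable.aemeasurable hcont.aestronglyMeasurable]
    let f : (V → TT) → ℝ := fun θ => ∏ i, Sum.elim c s i θ ^ k i
    have e : ∀ p : (V → TT) × (V → TT), ∏ i, u i (p.1 - p.2, p.1 + p.2) ^ k i = f p.1 * f p.2 := by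
      intro p
      simp only [f, ← prod_mul_distrib, ← mul_pow]
      refine prod_congr rfl fun i _ => ?_
      congr 1
      have e1 : ∀ e, c e (p.1 - p.2) = c e p.1 * c e p.2 + s e p.1 * s e p.2 := fun e => by
        simp only [c, s, ← cosT_sub, Pi.sub_apply]
        congr 1
        abel
      have e2 : ∀ e, c e (p.1 + p.2) = c e p.1 * c e p.2 - s e p.1 * s e p.2 := fun e => by
        simp only [c, s, ← cosT_add, Pi.add_apply]
        congr 1
        abel
      rcases i with e | e
      · simp only [u, Sum.elim_inl, e1, e2]; ring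
      · simp only [u, Sum.elim_inr, e1, e2]; ring
    simp only [e]
    rw [integral_prod_mul]
    exact mul_self_nonneg _
  · rintro (e | e)
    · exact h1 e
    · exact h2 e

/-- `rad (a ⊓ a') = max`, `rad (a ⊔ a') = min` (`rad_anti`), `mul_supermod` -/
theorem XY_Kc_le (a a' : V → II) :
    M.XY (M.Kc a) * M.XY (M.Kc a') ≤ M.XY (M.Kc (a ⊓ a')) * M.XY (M.Kc (a ⊔ a')) := by
  have hmax : ∀ x, rad ((a ⊓ a') x) = max (rad (a x)) (rad (a' x)) := fun x => by
    rw [Pi.inf_apply]
    rcases le_total (a x) (a' x) with h | h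
    · rw [inf_eq_left.2 h, max_eq_left (rad_anti h)]
    · rw [inf_eq_right.2 h, max_eq_right (rad_anti h)]
  have hmin : ∀ x, rad ((a ⊔ a') x) = min (rad (a x)) (rad (a' x)) := fun x => by
    rw [Pi.sup_apply]
    rcases le_total (a x) (a' x) with h | h
    · rw [sup_eq_right.2 h, min_eq_right (rad_anti h)]
    · rw [sup_eq_left.2 h, min_eq_left (rad_anti h)]
  refine M.XY_mul_le (fun e => ?_) fun e => ?_
  · simp only [Kc, hmax, hmin, ← mul_add, abs_mul, abs_of_nonneg (M.hb e)]
    exact mul_le_mul_of_nonneg_left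
      (mul_supermod (rad_nonneg _) (rad_nonneg _) (rad_nonneg _) (rad_nonneg _)).1 (M.hb e)
  · simp only [Kc, hmax, hmin, ← mul_sub, abs_mul, abs_of_nonneg (M.hb e)]
    exact mul_le_mul_of_nonneg_left
      (mul_supermod (rad_nonneg _) (rad_nonneg _) (rad_nonneg _) (rad_nonneg _)).2 (M.hb e)

end Mod

end Crest.Agent.R167
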