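import Crest.Agent.R167.Gin

/-!
# rid 167, task Ising: Ising and Fortuin–Kasteleyn inequalities
-/

set_option autoImplicit false
set_option linter.unusedSectionVars false

noncomputable section

namespace Crest.Agent.R167

open MeasureTheory Finset

variable {V E : Type} [Fintype V] [DecidableEq V] [Fintype E] [DecidableEq E]

namespace Mod

variable (M : Mod V E)

/-- `exp (J s s') = exp (-J) + (exp J - exp (-J)) [s = s']`; expand the product (`Finset.prod_add` or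
`Fintype.prod_add`/`Finset.prod_univ_sum`). -/
theorem fk_univ (J : E → ℝ) (ε : V → ℤˣ) : M.fk J Set.univ ε = M.Isg J ε := by
  classical
  have h1 : ∀ e, Real.exp (J e * (sg (ε (M.src e)) * sg (ε (M.tgt e)))) =
      (if ε (M.src e) = ε (M.tgt e) then Real.exp (J e) - Real.exp (- J e) else 0) +
        Real.exp (- J e) := by
    intro e
    split_ifs with h
    · rw [h, sg_mul_self]
      simp
    · have : ε (M.tgt e) = - ε (M.src e) := by
        rcases Int.units_eq_one_or (ε (M.src e)) with h1 | h1 <;>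
          rcases Int.units_eq_one_or (ε (M.tgt e)) with h2 | h2 <;> simp_all
      rw [this, sg_neg, mul_neg, sg_mul_self]
      simp
  unfold Isg fk
  rw [Real.exp_sum]
  simp only [h1]
  rw [Fintype.prod_add]
  refine Finset.sum_congr rfl fun ω _ => ?_
  by_cases h : M.compat ω ε
  · rw [if_pos ⟨h, Set.mem_univ _⟩, wt, ← Finset.prod_mul_prod_compl ω]
    congr 1
    · exact Finset.prod_congr rfl fun e he => by rw [if_pos he, if_pos (h e he)]
    · exact Finset.prod_congr rfl fun e he => by rw [if_neg (Finset.mem_compl.1 he)]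
  · rw [if_neg fun h' => h h'.1]
    unfold compat at h
    push Not at h
    obtain ⟨e, he, h⟩ := h
    rw [Finset.prod_eq_zero he (if_neg h), zero_mul]

theorem NI_univ (Λ : Finset V) (ξ : V → ℤˣ) (J : E → ℝ) : M.NI Λ ξ Set.univ J = M.ZI Λ ξ J :=
  Finset.sum_congr rfl fun _ _ => M.fk_univ _ _

theorem compat.eq_of_conn {M : Mod V E} {ω ω' : Finset E} {ε : V → ℤˣ} (h : M.compat ω ε)
    (hω : ω' ⊆ ω) {u v : V} (hc : M.Conn ω' u v) : ε u = ε v := by
  induction hc with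
  | refl => rfl
  | tail _ h2 ih =>
    obtain ⟨e, he, ⟨h3, h4⟩ | ⟨h3, h4⟩⟩ := h2
    · rw [ih, ← h3, ← h4]
      exact h e (hω he)
    · rw [ih, ← h3, ← h4]
      exact (h e (hω he)).symm

theorem Conn.mono {M : Mod V E} {ω ω' : Finset E} (hω : ω ⊆ ω') {u v : V} (hc : M.Conn ω u v) :
    M.Conn ω' u v := by
  induction hc with
  | refl => exact Relation.ReflTransGen.refl
  | tail _ h2 ih =>
    obtain ⟨e, he, h⟩ := h2
    exact ih.tail ⟨e, hω he, h⟩

theorem ising_pw_mul (Λ : Finset V) (a b x y : V → ℤˣ) :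
    Λ.piecewise (a * b) (x * y) = Λ.piecewise a x * Λ.piecewise b y := by
  ext v
  by_cases h : v ∈ Λ <;> simp [h]

theorem ising_mul_self (a : V → ℤˣ) : a * a = 1 := by
  ext v
  simp

/-- the product of the signs at the ends of an edge -/
def isingS (e : E) : (V → ℤˣ) →* ℝ where
  toFun ε := sg (ε (M.src e)) * sg (ε (M.tgt e))
  map_one' := by simp
  map_mul' a b := by
    simp only [Pi.mul_apply, sg_mul]
    ring

theorem isingS_cases (e : E) (ε : V → ℤˣ) : M.isingS e ε = 1 ∨ M.isingS e ε = -1 := by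
  change sg (ε (M.src e)) * sg (ε (M.tgt e)) = 1 ∨ sg (ε (M.src e)) * sg (ε (M.tgt e)) = -1
  rw [← sg_mul]
  exact sg_cases _

/-- restriction to `Λ` -/
def isingR (Λ : Finset V) : (V → ℤˣ) →* (V → ℤˣ) where
  toFun ε := Λ.piecewise ε 1
  map_one' := Finset.piecewise_same _ _
  map_mul' a b := by rw [← ising_pw_mul, mul_one]

theorem ising_dup (Λ : Finset V) (ξ : V → ℤˣ) (J J' : E → ℝ) :
    M.ZI Λ ξ J * M.ZI Λ 1 J' = ∑ p : (V → ℤˣ) × (V → ℤˣ), Real.exp (∑ i : E ⊕ E,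
      Sum.elim (fun e => (J e + J' e) / 2) (fun e => (J' e - J e) / 2) i *
        Sum.elim (fun e => M.isingS e (isingR Λ p.2) * (1 + M.isingS e (Λ.piecewise p.1 ξ)))
          (fun e => M.isingS e (isingR Λ p.2) * (1 - M.isingS e (Λ.piecewise p.1 ξ))) i) := by
  rw [Fintype.sum_prod_type_right, ZI, ZI, Finset.mul_sum]
  refine Finset.sum_congr rfl fun ε' _ => ?_
  rw [← Equiv.sum_comp (Equiv.mulLeft ε'), Finset.sum_mul]
  refine Finset.sum_congr rfl fun η _ => ?_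
  have e1 : Λ.piecewise (Equiv.mulLeft ε' η) ξ = isingR Λ ε' * Λ.piecewise η ξ := by
    change Λ.piecewise (ε' * η) ξ = Λ.piecewise ε' 1 * Λ.piecewise η ξ
    rw [← ising_pw_mul, one_mul]
  rw [e1, Isg, Isg, ← Real.exp_add, Fintype.sum_sum_type, ← Finset.sum_add_distrib,
    ← Finset.sum_add_distrib]
  congr 1
  refine Finset.sum_congr rfl fun e _ => ?_
  change J e * M.isingS e (isingR Λ ε' * Λ.piecewise η ξ) + J' e * M.isingS e (isingR Λ ε') = _
  rw [map_mul]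
  simp only [Sum.elim_inl, Sum.elim_inr]
  ring

/-- Duplication.  With `s e ε = sg (ε src) * sg (ε tgt)`, `ε₁ = piecewise ε ξ`, `ε₂ = piecewise ε' 1`, write
`J₁ s₁ + J₂ s₂ = (J₁ + J₂)/2 (s₂ + s₁) + (J₂ - J₁)/2 (s₂ - s₁)` and apply `sum_exp_le` on pairs.
Substitute `ε = ε' * η`: `s₁ = s₂ * t` with `t = s e (piecewise η ξ) = ±1`, so a monomial is
`(∏ s₂^(j e + k e)) * ∏ (1 + t)^(j e) (1 - t)^(k e)`; the first factor is a monoid homomorphism
`(V → ℤˣ) →* ℝ` in `ε'`, whose sum is `0` or the cardinality (`sum_hom_units`). -/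
theorem ZI_mul_le (Λ : Finset V) (ξ : V → ℤˣ) {J₁ J₂ J₃ J₄ : E → ℝ}
    (h1 : ∀ e, |J₁ e + J₂ e| ≤ J₃ e + J₄ e) (h2 : ∀ e, |J₂ e - J₁ e| ≤ J₃ e - J₄ e) :
    M.ZI Λ ξ J₁ * M.ZI Λ 1 J₂ ≤ M.ZI Λ ξ J₄ * M.ZI Λ 1 J₃ := by
  classical
  rw [ising_dup, ising_dup]
  refine sum_exp_le (fun (i : E ⊕ E) (p : (V → ℤˣ) × (V → ℤˣ)) =>
    Sum.elim (fun e => M.isingS e (isingR Λ p.2) * (1 + M.isingS e (Λ.piecewise p.1 ξ)))
      (fun e => M.isingS e (isingR Λ p.2) * (1 - M.isingS e (Λ.piecewise p.1 ξ))) i) ?_ _ _ ?_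
  · intro k
    rw [Fintype.sum_prod_type]
    refine Finset.sum_nonneg fun η _ => ?_
    let χ : (V → ℤˣ) →* ℝ :=
      (∏ e, (M.isingS e) ^ (k (Sum.inl e) + k (Sum.inr e))).comp (isingR Λ)
    have e1 : ∀ ε' : V → ℤˣ, ∏ i : E ⊕ E,
        Sum.elim (fun e => M.isingS e (isingR Λ ε') * (1 + M.isingS e (Λ.piecewise η ξ)))
          (fun e => M.isingS e (isingR Λ ε') * (1 - M.isingS e (Λ.piecewise η ξ))) i ^ k i =
        χ ε' * ∏ e, ((1 + M.isingS e (Λ.piecewise η ξ)) ^ k (Sum.inl e) *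
          (1 - M.isingS e (Λ.piecewise η ξ)) ^ k (Sum.inr e)) := by
      intro ε'
      simp only [χ, MonoidHom.comp_apply, MonoidHom.finsetProd_apply, MonoidHom.pow_apply]
      rw [Fintype.prod_sum_type, ← Finset.prod_mul_distrib, ← Finset.prod_mul_distrib]
      refine Finset.prod_congr rfl fun e _ => ?_
      simp only [Sum.elim_inl, Sum.elim_inr, mul_pow, pow_add]
      ring
    simp only [e1]
    rw [← Finset.sum_mul]
    refine mul_nonneg ?_ (Finset.prod_nonneg fun e _ => mul_nonneg (pow_nonneg ?_ _) (pow_nonneg ?_ _))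
    · rw [sum_hom_units]
      positivity
    · rcases M.isingS_cases e (Λ.piecewise η ξ) with h | h <;> rw [h] <;> norm_num
    · rcases M.isingS_cases e (Λ.piecewise η ξ) with h | h <;> rw [h] <;> norm_num
  · rintro (e | e)
    · simp only [Sum.elim_inl]
      rw [abs_div, abs_two]
      linarith [h1 e]
    · simp only [Sum.elim_inr]
      rw [abs_div, abs_two]
      linarith [h2 e]

theorem compat.mul {M : Mod V E} {ω : Finset E} {a b : V → ℤˣ} (ha : M.compat ω a)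
    (hb : M.compat ω b) : M.compat ω (a * b) := fun e he => by
  rw [Pi.mul_apply, Pi.mul_apply, ha e he, hb e he]

theorem compat.anti {M : Mod V E} {ω ω' : Finset E} {a : V → ℤˣ} (ha : M.compat ω a)
    (h : ω' ⊆ ω) : M.compat ω' a := fun e he => ha e (h he)

open Classical in
/-- the signs compatible with `ω` -/
def isingC (Λ : Finset V) (ξ : V → ℤˣ) (ω : Finset E) : Finset (V → ℤˣ) :=
  univ.filter fun ε => M.compat ω (Λ.piecewise ε ξ)

theorem mem_isingC {M : Mod V E} {Λ : Finset V} {ξ ε : V → ℤˣ} {ω : Finset E} :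
    ε ∈ M.isingC Λ ξ ω ↔ M.compat ω (Λ.piecewise ε ξ) := by
  simp [isingC]

open Classical in
theorem ising_NI_eq (Λ : Finset V) (ξ : V → ℤˣ) (A : Set (Finset E)) (J : E → ℝ) :
    M.NI Λ ξ A J = ∑ ω, if ω ∈ A then wt J ω * (#(M.isingC Λ ξ ω) : ℝ) else 0 := by
  unfold NI fk
  rw [Finset.sum_comm]
  refine Finset.sum_congr rfl fun ω _ => ?_
  by_cases h : ω ∈ A
  · simp only [h, and_true, if_true]
    rw [← Finset.sum_filter, Finset.sum_const, nsmul_eq_mul, mul_comm]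
    rfl
  · simp [h]

theorem ising_ZI_eq (Λ : Finset V) (ξ : V → ℤˣ) (J : E → ℝ) :
    M.ZI Λ ξ J = ∑ ω, wt J ω * (#(M.isingC Λ ξ ω) : ℝ) := by
  rw [← NI_univ, ising_NI_eq]
  simp

theorem ising_wt_mul (J : E → ℝ) (ω ω' : Finset E) :
    wt J ω * wt J ω' = wt J (ω ∩ ω') * wt J (ω ∪ ω') := by
  unfold wt
  rw [← Finset.prod_mul_distrib, ← Finset.prod_mul_distrib]
  refine Finset.prod_congr rfl fun e _ => ?_
  by_cases h : e ∈ ω <;> by_cases h' : e ∈ ω' <;> simp [h, h', mul_comm]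

theorem ising_card (Λ : Finset V) (ξ ξ' : V → ℤˣ) (ω ω' : Finset E) :
    #(M.isingC Λ ξ ω) * #(M.isingC Λ ξ' ω') ≤
      #(M.isingC Λ ξ (ω ∩ ω')) * #(M.isingC Λ 1 (ω ∪ ω')) := by
  classical
  rcases (M.isingC Λ ξ' ω').eq_empty_or_nonempty with h | ⟨η₀, hη₀⟩
  · simp [h]
  rw [← card_product, mul_comm]
  refine card_le_mul_card_image_of_maps_to (f := fun p => p.1 * p.2 * η₀) ?_ _ ?_
  · intro p hp
    rw [mem_product, mem_isingC, mem_isingC] at hp
    have e1 : ξ = ξ * ξ' * ξ' := by rw [mul_assoc, ising_mul_self, mul_one]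
    rw [mem_isingC, e1, ising_pw_mul, ising_pw_mul]
    exact ((hp.1.anti inter_subset_left).mul (hp.2.anti inter_subset_right)).mul
      ((mem_isingC.1 hη₀).anti inter_subset_right)
  · intro b _
    rcases ((M.isingC Λ ξ ω ×ˢ M.isingC Λ ξ' ω').filter
      fun p => p.1 * p.2 * η₀ = b).eq_empty_or_nonempty with h | ⟨p₀, hp₀⟩
    · rw [h]
      simp
    rw [mem_filter, mem_product, mem_isingC, mem_isingC] at hp₀
    refine card_le_card_of_injOn (fun p => p.1 * p₀.1) ?_ ?_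
    · intro p hp
      rw [mem_coe, mem_filter, mem_product, mem_isingC, mem_isingC] at hp
      have e1 : p.1 * p.2 = p₀.1 * p₀.2 := mul_right_cancel (hp.2.trans hp₀.2.symm)
      have e2 : p.1 * p₀.1 = p.2 * p₀.2 := by
        calc p.1 * p₀.1 = (p.1 * p.2) * p.2 * p₀.1 := by
              rw [mul_assoc p.1 p.2 p.2, ising_mul_self, mul_one]
          _ = (p₀.1 * p₀.1) * (p.2 * p₀.2) := by rw [e1]; ac_rfl
          _ = _ := by rw [ising_mul_self, one_mul]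
      rw [mem_coe, mem_isingC]
      intro e he
      rcases mem_union.1 he with he | he
      · have := hp.1.1.mul hp₀.1.1
        rw [← ising_pw_mul, ising_mul_self] at this
        exact this e he
      · have := hp.1.2.mul hp₀.1.2
        rw [← ising_pw_mul, ising_mul_self, ← e2] at this
        exact this e he
    · intro p hp p' hp' h
      rw [mem_coe, mem_filter] at hp hp'
      have e1 : p.1 = p'.1 := mul_right_cancel h
      have e2 : p.1 * p.2 = p'.1 * p'.2 := mul_right_cancel (hp.2.trans hp'.2.symm)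
      rw [e1] at e2
      exact Prod.ext e1 (mul_left_cancel e2)

/-- Let `c ξ ω` be the number of `ε` with `compat ω (piecewise ε ξ)`; then `NI Λ ξ A J = ∑_{ω ∈ A} wt J ω c ξ ω`.
Apply `four_functions_theorem_univ` on the lattice `Finset E`: `wt ω * wt ω' = wt (ω ∩ ω') * wt (ω ∪ ω')`;
if `c ξ' ω' ≠ 0` then `ω' ∈ A`, so `ω ∩ ω' ∈ A`, and for a fixed `η₀` counted by `c ξ' ω'` the map
`(ε, η) ↦ ε * η * η₀` goes to the set counted by `c ξ (ω ∩ ω')`, with fibres injecting by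
`(ε, η) ↦ ε * ε₀` into the set counted by `c 1 (ω ∪ ω')` (`Finset.card_le_mul_card_image_of_maps_to`). -/
theorem ZI_mul_le_NI (Λ : Finset V) (ξ ξ' : V → ℤˣ) {A : Set (Finset E)} (hA : IsLowerSet A)
    (hA' : ∀ ω ε, M.compat ω (Λ.piecewise ε ξ') → ω ∈ A) {J : E → ℝ} (hJ : ∀ e, 0 ≤ J e) :
    M.ZI Λ ξ J * M.ZI Λ ξ' J ≤ M.NI Λ ξ A J * M.ZI Λ 1 J := by
  classical
  rw [ising_ZI_eq, ising_ZI_eq, ising_ZI_eq, ising_NI_eq]
  have h0 : ∀ (ζ : V → ℤˣ) (ω : Finset E), 0 ≤ wt J ω * (#(M.isingC Λ ζ ω) : ℝ) :=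
    fun ζ ω => mul_nonneg (wt_nonneg hJ ω) (Nat.cast_nonneg _)
  refine four_functions_theorem_univ _ _ _ _ (h0 ξ) (h0 ξ') (fun ω => ?_) (h0 1) fun ω ω' => ?_
  · dsimp only
    split_ifs
    exacts [h0 ξ ω, le_rfl]
  rcases (M.isingC Λ ξ' ω').eq_empty_or_nonempty with h | ⟨η₀, hη₀⟩
  · rw [h, card_empty, Nat.cast_zero, mul_zero, mul_zero]
    refine mul_nonneg ?_ (h0 _ _)
    split_ifs
    exacts [h0 _ _, le_rfl]
  have h1 : ω ⊓ ω' ∈ A := hA inf_le_right (hA' ω' η₀ (mem_isingC.1 hη₀))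
  rw [if_pos h1, mul_mul_mul_comm, mul_mul_mul_comm (wt J (ω ⊓ ω')), ising_wt_mul]
  refine mul_le_mul_of_nonneg_left ?_ (mul_nonneg (wt_nonneg hJ _) (wt_nonneg hJ _))
  exact_mod_cast M.ising_card Λ ξ ξ' ω ω'

theorem isLowerSet_compl_Cross (Λ : Finset V) (ξ : V → ℤˣ) : IsLowerSet (M.Cross Λ ξ)ᶜ := by
  refine IsUpperSet.compl ?_
  rintro ω ω' hω ⟨u, v, hu, hv, h, hc⟩
  exact ⟨u, v, hu, hv, h, hc.mono (inter_subset_inter_right hω)⟩

theorem notMem_Cross (Λ : Finset V) (ξ : V → ℤˣ) {ω : Finset E} {ε : V → ℤˣ}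
    (h : M.compat ω (Λ.piecewise ε ξ)) : ω ∈ (M.Cross Λ ξ)ᶜ := by
  rintro ⟨u, v, hu, hv, h1, hc⟩
  have := h.eq_of_conn inter_subset_left hc
  rw [Finset.piecewise_eq_of_notMem _ _ _ hu, Finset.piecewise_eq_of_notMem _ _ _ hv] at this
  exact h1 this

theorem ising_coe_inf (x y : II) : ((x ⊓ y : II) : ℝ) = min (x : ℝ) y :=
  (Subtype.mono_coe _).map_min

theorem ising_coe_sup (x y : II) : ((x ⊔ y : II) : ℝ) = max (x : ℝ) y :=
  (Subtype.mono_coe _).map_max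

/-- With `J₁ = Jc a`, `J₂ = Jc a'`, `J₄ = Jc (a ⊓ a')`, `J₃ = Jc (a ⊔ a')` (`mul_supermod`):
`ZI ξ' J₂ * ZI 1 J₄ ≤ ZI ξ' J₄ * ZI 1 J₂` and `ZI ξ J₁ * ZI 1 J₂ ≤ ZI ξ J₄ * ZI 1 J₃` by `ZI_mul_le`,
`ZI ξ J₄ * ZI ξ' J₄ ≤ NI ξ A J₄ * ZI 1 J₄`; multiply and cancel `ZI 1 J₄ > 0`. -/
theorem ZI_Jc_le (Λ : Finset V) (ξ ξ' : V → ℤˣ) (a a' : V → II) :
    M.ZI Λ ξ (M.Jc a) * M.ZI Λ ξ' (M.Jc a') ≤
      M.NI Λ ξ (M.Cross Λ ξ')ᶜ (M.Jc (a ⊓ a')) * M.ZI Λ 1 (M.Jc (a ⊔ a')) := by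
  have hs : ∀ e, |M.Jc a e + M.Jc a' e| ≤ M.Jc (a ⊔ a') e + M.Jc (a ⊓ a') e ∧
      |M.Jc a' e - M.Jc a e| ≤ M.Jc (a ⊔ a') e - M.Jc (a ⊓ a') e := by
    intro e
    have h := mul_supermod (a (M.src e)).2.1 (a (M.tgt e)).2.1 (a' (M.src e)).2.1 (a' (M.tgt e)).2.1
    simp only [Jc, Pi.inf_apply, Pi.sup_apply, ising_coe_inf, ising_coe_sup]
    rw [← mul_add, ← mul_add, ← mul_sub, ← mul_sub, abs_mul, abs_mul, abs_of_nonneg (M.hb e),
      abs_sub_comm]
    exact ⟨mul_le_mul_of_nonneg_left h.1 (M.hb e), mul_le_mul_of_nonneg_left h.2 (M.hb e)⟩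
  have hle : ∀ e, M.Jc (a ⊓ a') e ≤ M.Jc a' e := by
    intro e
    refine mul_le_mul_of_nonneg_left ?_ (M.hb e)
    simp only [Pi.inf_apply, ising_coe_inf]
    exact mul_le_mul (min_le_right _ _) (min_le_right _ _)
      (le_min (a _).2.1 (a' _).2.1) (a' _).2.1
  have i1 := M.ZI_mul_le Λ ξ' (J₁ := M.Jc a') (J₂ := M.Jc (a ⊓ a')) (J₃ := M.Jc a')
    (J₄ := M.Jc (a ⊓ a'))
    (fun e => (abs_of_nonneg (add_nonneg (M.Jc_nonneg _ e) (M.Jc_nonneg _ e))).le)
    (fun e => by rw [abs_sub_comm, abs_of_nonneg (sub_nonneg.2 (hle e))])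
  have i2 := M.ZI_mul_le Λ ξ (fun e => (hs e).1) fun e => (hs e).2
  have i3 := M.ZI_mul_le_NI Λ ξ ξ' (M.isLowerSet_compl_Cross Λ ξ')
    (fun ω ε h => M.notMem_Cross Λ ξ' h) (M.Jc_nonneg (a ⊓ a'))
  have p1 := M.ZI_pos Λ 1 (M.Jc a')
  have p2 := M.ZI_pos Λ 1 (M.Jc (a ⊓ a'))
  have p3 := M.ZI_pos Λ 1 (M.Jc (a ⊔ a'))
  have p4 := M.ZI_pos Λ ξ' (M.Jc a')
  have p5 := M.ZI_pos Λ ξ (M.Jc (a ⊓ a'))
  generalize M.ZI Λ ξ (M.Jc a) = a1 at *
  generalize M.ZI Λ ξ' (M.Jc a') = b2 at *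
  generalize M.ZI Λ ξ (M.Jc (a ⊓ a')) = a4 at *
  generalize M.ZI Λ ξ' (M.Jc (a ⊓ a')) = b4 at *
  generalize M.ZI Λ 1 (M.Jc a') = o2 at *
  generalize M.ZI Λ 1 (M.Jc (a ⊔ a')) = o3 at *
  generalize M.ZI Λ 1 (M.Jc (a ⊓ a')) = o4 at *
  generalize M.NI Λ ξ (M.Cross Λ ξ')ᶜ (M.Jc (a ⊓ a')) = N at *
  refine le_of_mul_le_mul_right ?_ (mul_pos p1 p2)
  calc a1 * b2 * (o2 * o4) = (a1 * o2) * (b2 * o4) := by ring
    _ ≤ (a4 * o3) * (b4 * o2) := mul_le_mul i2 i1 (by positivity) (by positivity)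
    _ = (a4 * b4) * (o3 * o2) := by ring
    _ ≤ (N * o4) * (o3 * o2) := mul_le_mul_of_nonneg_right i3 (by positivity)
    _ = _ := by ring

/-- Expand by `fk_univ` and exchange the sums.  If `Conn ω x y` the signs agree; otherwise flipping the
signs on `{v | Conn ω x v}` is an involution of the compatible `ε` reversing the product. -/
theorem sum_sg_Isg (J : E → ℝ) (x y : V) :
    ∑ ε : V → ℤˣ, sg (ε x) * sg (ε y) * M.Isg J ε =
      ∑ ε : V → ℤˣ, M.fk J {ω | M.Conn ω x y} ε := by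
  classical
  simp only [← fk_univ, fk, Finset.mul_sum]
  rw [Finset.sum_comm, Finset.sum_comm (γ := V → ℤˣ)]
  refine Finset.sum_congr rfl fun ω _ => ?_
  simp only [Set.mem_univ, and_true, Set.mem_ofPred_eq]
  by_cases hc : M.Conn ω x y
  · refine Finset.sum_congr rfl fun ε _ => ?_
    by_cases h : M.compat ω ε
    · rw [if_pos h, if_pos ⟨h, hc⟩, h.eq_of_conn Subset.rfl hc, sg_mul_self, one_mul]
    · rw [if_neg h, if_neg fun h' => h h'.1, mul_zero]
  · simp only [hc, and_false, if_false, Finset.sum_const_zero]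
    let τ : V → ℤˣ := fun v => if M.Conn ω x v then -1 else 1
    have hτ : M.compat ω τ := by
      intro e he
      have : M.Conn ω x (M.src e) ↔ M.Conn ω x (M.tgt e) :=
        ⟨fun h => h.tail ⟨e, he, Or.inl ⟨rfl, rfl⟩⟩, fun h => h.tail ⟨e, he, Or.inr ⟨rfl, rfl⟩⟩⟩
      simp only [τ, this]
    have hx : τ x = -1 := if_pos Relation.ReflTransGen.refl
    have hy : τ y = 1 := if_neg hc
    have h1 : ∑ ε : V → ℤˣ, sg (ε x) * sg (ε y) * (if M.compat ω ε then wt J ω else 0) =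
        -∑ ε : V → ℤˣ, sg (ε x) * sg (ε y) * (if M.compat ω ε then wt J ω else 0) := by
      conv_lhs => rw [← Equiv.sum_comp (Equiv.mulLeft τ)]
      rw [← Finset.sum_neg_distrib]
      refine Finset.sum_congr rfl fun ε _ => ?_
      have e1 : M.compat ω (τ * ε) ↔ M.compat ω ε := by
        refine ⟨fun h => ?_, fun h => hτ.mul h⟩
        have := hτ.mul h
        rwa [← mul_assoc, ising_mul_self, one_mul] at this
      simp only [Equiv.coe_mulLeft, e1, Pi.mul_apply, hx, hy, one_mul, neg_mul, sg_neg]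
    linarith

end Mod

end Crest.Agent.R167
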