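import Crest.Agent.R167.Dom
import Crest.Agent.R167.Box

/-!
# rid 167, task Peierls: long connections cross many annuli
-/

set_option autoImplicit false
set_option linter.unusedSectionVars false

noncomputable section

namespace Crest.Agent.R167

open MeasureTheory Finset

variable {V E : Type} [Fintype V] [DecidableEq V] [Fintype E] [DecidableEq E]

namespace Geo

variable {M : Mod V E} {β : ℝ} (Γ : Geo M β)

theorem peierls_adj {ω : Finset E} {p q : V} (h : M.Adj ω p q) (k : Fin 2) :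
    |Γ.pos q k - Γ.pos p k| ≤ 1 := by
  obtain ⟨e, -, ⟨rfl, rfl⟩ | ⟨rfl, rfl⟩⟩ := h
  · have := Γ.pos_tgt e k
    rw [abs_le]; omega
  · have := Γ.pos_tgt e k
    rw [abs_le]; omega

theorem peierls_cross {c : Fin 2 → ℤ} {L : ℕ} (hL : 1 ≤ L) {ω : Finset E} {u v : V}
    (hu : ∀ k, |Γ.pos u k - c k| ≤ L) (hv : ∃ k, 4 * (L : ℤ) ≤ |Γ.pos v k - c k|)
    (h : M.Conn (ω ∩ M.ET (Γ.Ann c L)) u v) : ω ∈ M.Cross (Γ.Ann c L) (Γ.sgn c L) := by
  obtain ⟨k, hk⟩ := hv
  refine ⟨u, v, ?_, ?_, ?_, h⟩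
  · rw [mem_Ann]
    rintro ⟨⟨j, hj⟩, -⟩
    exact absurd (hu j) (not_le.2 hj)
  · rw [mem_Ann]
    rintro ⟨-, hj⟩
    exact absurd (hj k) (not_lt.2 hk)
  · have h1 : ¬ ∀ k, |Γ.pos v k - c k| ≤ L := fun h' => by
      have := h' k
      omega
    simp only [sgn, if_pos hu, if_neg h1]
    decide

/-- Follow the path from `u` and keep the invariant: the current vertex is connected to an inner vertex
by open edges touching the annulus, or a crossing has been found.  An edge that does not touch the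
annulus joins two inner or two outer vertices (`pos_tgt`). -/
theorem cross_of_conn {c : Fin 2 → ℤ} {L : ℕ} (hL : 1 ≤ L) {ω : Finset E} {u y : V}
    (hu : ∀ k, |Γ.pos u k - c k| ≤ L) (hy : ∃ k, 4 * (L : ℤ) ≤ |Γ.pos y k - c k|)
    (h : M.Conn ω u y) : ω ∈ M.Cross (Γ.Ann c L) (Γ.sgn c L) := by
  have key : ω ∈ M.Cross (Γ.Ann c L) (Γ.sgn c L) ∨
      ∃ u₀, (∀ k, |Γ.pos u₀ k - c k| ≤ L) ∧ M.Conn (ω ∩ M.ET (Γ.Ann c L)) u₀ y := by
    clear hy
    induction h with
    | refl => exact Or.inr ⟨u, hu, Relation.ReflTransGen.refl⟩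
    | @tail v w _ hvw ih =>
      rcases ih with ih | ⟨u₀, hu₀, hc⟩
      · exact Or.inl ih
      by_cases hv : ∃ k, 4 * (L : ℤ) ≤ |Γ.pos v k - c k|
      · exact Or.inl (Γ.peierls_cross hL hu₀ hv hc)
      by_cases hw : ∀ k, |Γ.pos w k - c k| ≤ L
      · exact Or.inr ⟨w, hw, Relation.ReflTransGen.refl⟩
      refine Or.inr ⟨u₀, hu₀, hc.tail ?_⟩
      have hA : v ∈ Γ.Ann c L ∨ w ∈ Γ.Ann c L := by
        push Not at hv hw
        by_cases hv' : ∃ k, (L : ℤ) < |Γ.pos v k - c k|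
        · exact Or.inl (Γ.mem_Ann.2 ⟨hv', hv⟩)
        · push Not at hv'
          refine Or.inr (Γ.mem_Ann.2 ⟨hw, fun k => ?_⟩)
          have h1 := hv' k
          have h2 := Γ.peierls_adj hvw k
          rw [abs_le] at h1 h2
          rw [abs_lt]
          omega
      obtain ⟨e, he, h'⟩ := hvw
      refine ⟨e, Finset.mem_inter.2 ⟨he, ?_⟩, h'⟩
      simp only [Mod.ET, Mod.touch, Finset.mem_filter, Finset.mem_univ, true_and]
      rcases h' with ⟨rfl, rfl⟩ | ⟨rfl, rfl⟩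
      · exact hA
      · exact hA.symm
  rcases key with key | ⟨u₀, hu₀, hc⟩
  · exact key
  · exact Γ.peierls_cross hL hu₀ hy hc

/-- last exit from `N` (`Relation.ReflTransGen.head_induction_on`) -/
theorem last_exit {α : Type*} {r : α → α → Prop} {S N : Set α} {u y : α} (hu : u ∈ N) (hy : y ∉ N)
    (h : Relation.ReflTransGen (fun p q => r p q ∧ q ∈ S) u y) :
    ∃ p ∈ N, ∃ u', r p u' ∧ u' ∈ S ∧ u' ∉ N ∧
      Relation.ReflTransGen (fun p q => r p q ∧ q ∈ S \ N) u' y := by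
  have key : ∀ v, Relation.ReflTransGen (fun p q => r p q ∧ q ∈ S) v y →
      (∃ p ∈ N, ∃ u', r p u' ∧ u' ∈ S ∧ u' ∉ N ∧
        Relation.ReflTransGen (fun p q => r p q ∧ q ∈ S \ N) u' y) ∨
      (v ∉ N ∧ Relation.ReflTransGen (fun p q => r p q ∧ q ∈ S \ N) v y) := by
    intro v hv
    induction hv using Relation.ReflTransGen.head_induction_on with
    | refl => exact Or.inr ⟨hy, Relation.ReflTransGen.refl⟩
    | @head a b hab _ ih =>
      rcases ih with ih | ⟨hb, ih⟩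
      · exact Or.inl ih
      by_cases ha : a ∈ N
      · exact Or.inl ⟨a, ha, b, hab.1, hab.2, hb, ih⟩
      · exact Or.inr ⟨ha, ih.head ⟨hab.1, hab.2, hb⟩⟩
  rcases key u h with h' | h'
  · exact h'
  · exact absurd hu h'.1

/-- coarse position -/
def peierls_cz (L : ℕ) (x : V) (k : Fin 2) : ℤ := Γ.pos x k / (2 * L)

/-- centre of a coarse cell -/
def peierls_ce (L : ℕ) (z : Fin 2 → ℤ) (k : Fin 2) : ℤ := 2 * L * z k + L

/-- far coarse cells -/
def peierls_far (z z' : Fin 2 → ℤ) : Prop := ∃ k, 5 ≤ |z k - z' k|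

/-- the annulus around a coarse cell is crossed -/
def peierls_bad (L : ℕ) (z : Fin 2 → ℤ) : Set (Finset E) :=
  M.Cross (Γ.Ann (peierls_ce L z) L) (Γ.sgn (peierls_ce L z) L)

theorem peierls_far_symm {z z' : Fin 2 → ℤ} (h : peierls_far z z') : peierls_far z' z := by
  obtain ⟨k, hk⟩ := h
  exact ⟨k, by rwa [abs_sub_comm]⟩

theorem peierls_not_far (z : Fin 2 → ℤ) : ¬ peierls_far z z := by
  rintro ⟨k, hk⟩
  simp at hk

theorem peierls_cz_spec {L : ℕ} (hL : 1 ≤ L) (x : V) (k : Fin 2) :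
    2 * L * Γ.peierls_cz L x k ≤ Γ.pos x k ∧ Γ.pos x k < 2 * L * Γ.peierls_cz L x k + 2 * L := by
  have h : (0 : ℤ) < 2 * L := by omega
  have h1 := Int.mul_ediv_add_emod (Γ.pos x k) (2 * L)
  have h2 := Int.emod_nonneg (Γ.pos x k) h.ne'
  have h3 := Int.emod_lt_of_pos (Γ.pos x k) h
  unfold peierls_cz
  omega

theorem peierls_touch {c : Fin 2 → ℤ} {L : ℕ} {e : E} (h : e ∈ M.ET (Γ.Ann c L)) (k : Fin 2) :
    |Γ.pos (M.src e) k - c k| ≤ 4 * L := by
  simp only [Mod.ET, Mod.touch, Finset.mem_filter, Finset.mem_univ, true_and, mem_Ann] at h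
  rcases h with h | h
  · exact (h.2 k).le
  · have h1 := h.2 k
    have h2 := Γ.pos_tgt e k
    rw [abs_lt] at h1
    rw [abs_le]
    omega

theorem peierls_disj {L : ℕ} (hL : 1 ≤ L) {z z' : Fin 2 → ℤ} (h : peierls_far z z') {e : E}
    (he : e ∈ M.ET (Γ.Ann (peierls_ce L z) L)) : e ∉ M.ET (Γ.Ann (peierls_ce L z') L) := by
  intro he'
  obtain ⟨k, hk⟩ := h
  have h1 := Γ.peierls_touch he k
  have h2 := Γ.peierls_touch he' k
  rw [abs_le] at h1 h2
  unfold peierls_ce at h1 h2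
  have hL' : (1 : ℤ) ≤ L := by exact_mod_cast hL
  rcases le_abs.1 hk with hk | hk <;> nlinarith

theorem peierls_inter {L : ℕ} (hL : 1 ≤ L) {η : ℝ} (hη : 0 ≤ η)
    (h : ∀ (c : Fin 2 → ℤ) (A : Set (Finset E)), (∀ ω, ω ∈ A ↔ ω \ M.ET (Γ.Ann c L) ∈ A) →
      M.MM (M.Cross (Γ.Ann c L) (Γ.sgn c L) ∩ A) ≤ η * M.MM A)
    (G : Finset (Fin 2 → ℤ)) (hG : (G : Set (Fin 2 → ℤ)).Pairwise peierls_far) :
    M.MM {ω | ∀ z ∈ G, ω ∈ Γ.peierls_bad L z} ≤ η ^ G.card * M.MM Set.univ := by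
  induction G using Finset.induction_on with
  | empty => simp
  | insert z G hz ih =>
    have hG' : (G : Set (Fin 2 → ℤ)).Pairwise peierls_far := hG.mono (by simp)
    have e : {ω | ∀ z' ∈ insert z G, ω ∈ Γ.peierls_bad L z'} =
        Γ.peierls_bad L z ∩ {ω | ∀ z' ∈ G, ω ∈ Γ.peierls_bad L z'} := by
      ext ω
      simp
    rw [e, Finset.card_insert_of_notMem hz, pow_succ', mul_assoc]
    refine (h _ _ fun ω => ?_).trans (mul_le_mul_of_nonneg_left (ih hG') hη)
    refine forall₂_congr fun z' hz' => ?_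
    have hf : peierls_far z' z := hG (by simp [hz']) (by simp) (by rintro rfl; exact hz hz')
    have e' : (ω \ M.ET (Γ.Ann (peierls_ce L z) L)) ∩ M.ET (Γ.Ann (peierls_ce L z') L) =
        ω ∩ M.ET (Γ.Ann (peierls_ce L z') L) := by
      ext e
      simp only [Finset.mem_inter, Finset.mem_sdiff]
      exact ⟨fun h => ⟨h.1.1, h.2⟩, fun h => ⟨⟨h.1, Γ.peierls_disj hL hf h.2⟩, h.2⟩⟩
    simp only [peierls_bad, Mod.Cross, Set.mem_ofPred_eq, e']

/-- the vertices far from all cells of `G` -/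
def peierls_S (L : ℕ) (G : Finset (Fin 2 → ℤ)) : Set V :=
  {v | ∀ z ∈ G, peierls_far (Γ.peierls_cz L v) z}

/-- the events of the exploration -/
def peierls_Ev (L : ℕ) (y : V) (G : Finset (Fin 2 → ℤ)) (z : Fin 2 → ℤ) : Set (Finset E) :=
  {ω | (∀ z' ∈ G, ω ∈ Γ.peierls_bad L z') ∧ ∃ u ∈ Γ.peierls_S L G, Γ.peierls_cz L u = z ∧
    Relation.ReflTransGen (fun p q => M.Adj ω p q ∧ q ∈ Γ.peierls_S L G) u y}

theorem peierls_step {L : ℕ} (hL : 1 ≤ L) {y : V} {G : Finset (Fin 2 → ℤ)} {z : Fin 2 → ℤ}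
    (hy : peierls_far (Γ.peierls_cz L y) z) :
    Γ.peierls_Ev L y G z ⊆ ⋃ z' ∈ Fintype.piFinset (fun k => Finset.Icc (z k - 5) (z k + 5)),
      Γ.peierls_Ev L y (insert z G) z' := by
  rintro ω ⟨hb, u, -, hz, hp⟩
  have hL' : (1 : ℤ) ≤ L := by exact_mod_cast hL
  have hbad : ω ∈ Γ.peierls_bad L z := by
    refine Γ.cross_of_conn hL (u := u) (y := y) (fun k => ?_) ?_ (Relation.ReflTransGen.mono (fun _ _ h => h.1) _ _ hp)
    · have := Γ.peierls_cz_spec hL u k
      rw [hz] at this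
      unfold peierls_ce
      rw [abs_le]
      omega
    · obtain ⟨k, hk⟩ := hy
      refine ⟨k, ?_⟩
      have := Γ.peierls_cz_spec hL y k
      unfold peierls_ce
      rw [le_abs] at hk ⊢
      rcases hk with hk | hk
      · left; nlinarith
      · right; nlinarith
  obtain ⟨p, hpN, u', hpu, hu'S, hu'N, hp'⟩ :=
    last_exit (N := {v | ¬ peierls_far (Γ.peierls_cz L v) z})
      (by rw [Set.mem_ofPred_eq, hz]; exact peierls_not_far z) (fun h => h hy) hp
  have hS : Γ.peierls_S L G \ {v | ¬ peierls_far (Γ.peierls_cz L v) z} =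
      Γ.peierls_S L (insert z G) := by
    ext v
    simp [peierls_S, and_comm]
  simp only [Set.mem_iUnion]
  refine ⟨Γ.peierls_cz L u', ?_, ?_, u', ?_, rfl, ?_⟩
  · rw [Fintype.mem_piFinset]
    intro k
    have h1 : |Γ.peierls_cz L p k - z k| < 5 := not_le.1 fun h => hpN ⟨k, h⟩
    have h2 := Γ.peierls_adj hpu k
    have h3 := Γ.peierls_cz_spec hL p k
    have h4 := Γ.peierls_cz_spec hL u' k
    rw [abs_lt] at h1
    rw [abs_le] at h2
    rw [Finset.mem_Icc]
    constructor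
    · by_contra hc
      have : Γ.peierls_cz L u' k + 2 ≤ Γ.peierls_cz L p k := by omega
      nlinarith
    · by_contra hc
      have : Γ.peierls_cz L p k + 2 ≤ Γ.peierls_cz L u' k := by omega
      nlinarith
  · intro z' hz'
    rcases Finset.mem_insert.1 hz' with rfl | hz'
    · exact hbad
    · exact hb z' hz'
  · rw [← hS]; exact ⟨hu'S, hu'N⟩
  · rw [← hS]; exact hp'

theorem peierls_Ev_le {L : ℕ} (hL : 1 ≤ L) {η : ℝ} (hη : 0 ≤ η)
    (h : ∀ (c : Fin 2 → ℤ) (A : Set (Finset E)), (∀ ω, ω ∈ A ↔ ω \ M.ET (Γ.Ann c L) ∈ A) →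
      M.MM (M.Cross (Γ.Ann c L) (Γ.sgn c L) ∩ A) ≤ η * M.MM A) (y : V) (k : Fin 2) (m : ℕ) :
    ∀ (G : Finset (Fin 2 → ℤ)) (z : Fin 2 → ℤ), (G : Set (Fin 2 → ℤ)).Pairwise peierls_far →
      5 * (m : ℤ) ≤ |z k - Γ.peierls_cz L y k| →
      M.MM (Γ.peierls_Ev L y G z) ≤ 121 ^ m * η ^ (G.card + m) * M.MM Set.univ := by
  induction m with
  | zero =>
    intro G z hG _
    rw [pow_zero, one_mul, add_zero]
    exact (M.MM_mono fun ω hω => hω.1).trans (Γ.peierls_inter hL hη h G hG)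
  | succ m ih =>
    intro G z hG hz
    rcases (Γ.peierls_Ev L y G z).eq_empty_or_nonempty with he | ⟨ω, -, u, hu, huz, -⟩
    · rw [he, M.MM_empty]
      have := M.MM_nonneg Set.univ
      positivity
    have hf : ∀ z' ∈ G, peierls_far z z' := fun z' hz' => huz ▸ hu z' hz'
    have hzG : z ∉ G := fun h' => peierls_not_far z (hf z h')
    have hG' : ((insert z G : Finset (Fin 2 → ℤ)) : Set (Fin 2 → ℤ)).Pairwise peierls_far := by
      rw [Finset.coe_insert]
      exact hG.insert fun z' hz' _ => ⟨hf z' hz', peierls_far_symm (hf z' hz')⟩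
    have hy : peierls_far (Γ.peierls_cz L y) z :=
      ⟨k, by rw [abs_sub_comm]; push_cast at hz; omega⟩
    refine (M.MM_mono (Γ.peierls_step hL hy)).trans ((M.MM_biUnion_le _ _).trans ?_)
    refine (Finset.sum_le_card_nsmul _ _ (121 ^ m * η ^ (G.card + 1 + m) * M.MM Set.univ)
      fun z' hz' => ?_).trans (le_of_eq ?_)
    · rw [← Finset.card_insert_of_notMem hzG]
      refine ih _ _ hG' ?_
      have h1 := Finset.mem_Icc.1 (Fintype.mem_piFinset.1 hz' k)
      push_cast at hz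
      rw [le_abs] at hz ⊢
      omega
    · have hc : (Fintype.piFinset (fun k => Finset.Icc (z k - 5) (z k + 5))).card = 121 := by
        rw [Fintype.card_piFinset, Fin.prod_univ_two, Int.card_Icc, Int.card_Icc]
        have e : ∀ a : ℤ, (a + 5 + 1 - (a - 5)).toNat = 11 := fun a => by omega
        rw [e, e]
        rfl
      rw [hc, nsmul_eq_mul]
      push_cast
      ring

/-- Coarse position `cz x k = pos x k / (2 L)`, centre `ce z k = 2 L * z k + L`,
`far z z' = ∃ k, 5 ≤ |z k - z' k|`, `bad z = Cross (Ann (ce z) L) (sgn (ce z) L)`.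
* For a pairwise far finset `G`: `MM (⋂ z ∈ G, bad z) ≤ η ^ G.card * MM univ` (induction; the sets
  `ET (Ann (ce z) L)` of far `z` are disjoint and `bad z'` only depends on `ω ∩ ET (Ann (ce z') L)`).
* Let `S G = {v | ∀ z ∈ G, far (cz v) z}` and let `Ev G z` be the set of `ω ∈ ⋂ z ∈ G, bad z` such that some
  `u ∈ S G` with `cz u = z` is joined to `y` by an open path inside `S G`.  By induction on `m`: if `G` is
  pairwise far and `5 m ≤ |z k - cz y k|` then `MM (Ev G z) ≤ 121 ^ m * η ^ (G.card + m) * MM univ`, since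
  `Ev G z ⊆ ⋃ z', Ev (insert z G) z'` over the `121` points `z'` with `|z' k - z k| ≤ 5` for both `k`
  (`cross_of_conn`, `last_exit` with `N = {v | ¬ far (cz v) z}`); if `z` is not far from `G` then `Ev G z = ∅`. -/
theorem peierls {L : ℕ} (hL : 1 ≤ L) {η : ℝ} (hη : 0 ≤ η)
    (h : ∀ (c : Fin 2 → ℤ) (A : Set (Finset E)), (∀ ω, ω ∈ A ↔ ω \ M.ET (Γ.Ann c L) ∈ A) →
      M.MM (M.Cross (Γ.Ann c L) (Γ.sgn c L) ∩ A) ≤ η * M.MM A)
    {x y : V} {k : Fin 2} {m : ℕ} (hxy : 10 * (L : ℤ) * m ≤ |Γ.pos x k - Γ.pos y k|) :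
    M.MM {ω | M.Conn ω x y} ≤ (121 * η) ^ m * M.MM Set.univ := by
  have hL' : (1 : ℤ) ≤ L := by exact_mod_cast hL
  have h1 : 5 * (m : ℤ) ≤ |Γ.peierls_cz L x k - Γ.peierls_cz L y k| := by
    have h3 := Γ.peierls_cz_spec hL x k
    have h4 := Γ.peierls_cz_spec hL y k
    rw [le_abs] at hxy ⊢
    rcases hxy with hxy | hxy
    · left
      by_contra hc
      have : Γ.peierls_cz L x k + 1 ≤ Γ.peierls_cz L y k + 5 * m := by omega
      nlinarith
    · right
      by_contra hc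
      have : Γ.peierls_cz L y k + 1 ≤ Γ.peierls_cz L x k + 5 * m := by omega
      nlinarith
  have h2 := Γ.peierls_Ev_le hL hη h y k m ∅ (Γ.peierls_cz L x) (by simp) h1
  rw [Finset.card_empty, zero_add, ← mul_pow] at h2
  refine (M.MM_mono fun ω hω => ?_).trans h2
  refine ⟨by simp, x, by simp [peierls_S], rfl, ?_⟩
  exact Relation.ReflTransGen.mono (r := M.Adj ω)
    (fun _ _ h => And.intro h (by simp [peierls_S])) _ _ hω

end Geo

end Crest.Agent.R167
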