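import Crest.Agent.R167.Defs

/-!
# rid 167, task Pos: positivity of monomials gives comparison of exponentials; four functions
-/

set_option autoImplicit false

noncomputable section

namespace Crest.Agent.R167

open MeasureTheory Finset
open scoped ComplexOrder

theorem pos_pow {Ω ι : Type*} [TopologicalSpace Ω] [CompactSpace Ω]
    [MeasurableSpace Ω] [OpensMeasurableSpace Ω] [Fintype ι] (μ : Measure Ω) [IsFiniteMeasure μ]
    (u : ι → Ω → ℂ) (hu : ∀ i, Continuous (u i))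
    (hpos : ∀ k : ι → ℕ, 0 ≤ ∫ ω, ∏ i, u i ω ^ k i ∂μ) (c : ι → ℂ) (d : ι → ℝ)
    (hcd : ∀ i, ‖c i‖ ≤ d i) (N : ℕ) (k : ι → ℕ) :
    ‖∫ ω, (∑ i, c i * u i ω) ^ N * ∏ i, u i ω ^ k i ∂μ‖ ≤
      (∫ ω, (∑ i, d i * u i ω) ^ N * ∏ i, u i ω ^ k i ∂μ).re := by
  classical
  induction N generalizing k with
  | zero =>
    simp only [pow_zero, one_mul]
    exact (Complex.re_eq_norm.2 (hpos k)).ge
  | succ N ih =>
    have e : ∀ a : ι → ℂ, ∫ ω, (∑ i, a i * u i ω) ^ (N + 1) * ∏ i, u i ω ^ k i ∂μ =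
        ∑ j, a j * ∫ ω, (∑ i, a i * u i ω) ^ N *
          ∏ i, u i ω ^ (k + Pi.single j 1 : ι → ℕ) i ∂μ := by
      intro a
      simp_rw [← integral_const_mul]
      rw [← integral_finsetSum _ fun j _ => integrable_cont μ (by fun_prop)]
      congr 1
      funext ω
      have e1 : ∀ j, ∏ i, u i ω ^ (k + Pi.single j 1 : ι → ℕ) i =
          u j ω * ∏ i, u i ω ^ k i := by
        intro j
        simp only [Pi.add_apply, pow_add, Finset.prod_mul_distrib]
        rw [mul_comm]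
        congr 1
        rw [Finset.prod_eq_single j]
        · simp
        · intro b _ hb
          simp [hb]
        · simp
      simp only [e1]
      rw [pow_succ, mul_assoc, Finset.sum_mul, Finset.mul_sum]
      refine Finset.sum_congr rfl fun j _ => ?_
      ring
    rw [e c, e fun i => (d i : ℂ), Complex.re_sum]
    refine (norm_sum_le _ _).trans (Finset.sum_le_sum fun j _ => ?_)
    rw [norm_mul, Complex.re_ofReal_mul]
    exact mul_le_mul (hcd j) (ih _) (norm_nonneg _) ((norm_nonneg _).trans (hcd j))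

theorem pos_hasSum {Ω : Type*} [TopologicalSpace Ω] [CompactSpace Ω]
    [MeasurableSpace Ω] [OpensMeasurableSpace Ω] (μ : Measure Ω) [IsFiniteMeasure μ]
    {F : Ω → ℂ} (hF : Continuous F) :
    HasSum (fun n : ℕ => ∫ ω, F ω ^ n / (n.factorial : ℂ) ∂μ) (∫ ω, Complex.exp (F ω) ∂μ) := by
  obtain ⟨C, hC⟩ : ∃ C, ∀ ω, ‖F ω‖ ≤ C := by
    obtain ⟨C, hC⟩ := isCompact_univ.exists_bound_of_continuousOn hF.continuousOn
    exact ⟨C, fun ω => hC ω trivial⟩
  have h := hasSum_integral_of_summable_integral_norm (μ := μ)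
    (F := fun (n : ℕ) ω => F ω ^ n / (n.factorial : ℂ))
    (fun n => integrable_cont μ (by fun_prop)) (by
      refine Summable.of_nonneg_of_le (fun n => integral_nonneg fun ω => norm_nonneg _) (fun n => ?_)
        ((Real.summable_pow_div_factorial C).mul_left (μ.real Set.univ))
      calc ∫ ω, ‖F ω ^ n / (n.factorial : ℂ)‖ ∂μ ≤ ∫ _, C ^ n / (n.factorial : ℝ) ∂μ := by
            refine integral_mono (integrable_cont μ (by fun_prop)) (integrable_const _) fun ω => ?_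
            simp only [norm_div, norm_pow, Complex.norm_natCast]
            exact div_le_div_of_nonneg_right (pow_le_pow_left₀ (norm_nonneg _) (hC ω) n)
              (Nat.cast_nonneg _)
        _ = _ := by rw [integral_const, smul_eq_mul])
  have e : ∀ ω, ∑' n : ℕ, F ω ^ n / (n.factorial : ℂ) = Complex.exp (F ω) := fun ω => by
    rw [(NormedSpace.expSeries_div_hasSum_exp (F ω)).tsum_eq, Complex.exp_eq_exp_ℂ]
  simp only [e] at h
  exact h

/-- Proof.  By induction on `N`, for every `k`,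
`‖∫ (∑ c i u i)^N ∏ u i^(k i)‖ ≤ re ∫ (∑ d i u i)^N ∏ u i^(k i)`
(expand one factor; `u i * ∏ u j^(k j) = ∏ u j^((k + Pi.single i 1) j)`).  Then sum the exponential
series (`hasSum_integral_of_summable_integral_norm` or `integral_tsum`; the `u i` are bounded). -/
theorem norm_integral_exp_le {Ω ι : Type*} [TopologicalSpace Ω] [CompactSpace Ω]
    [MeasurableSpace Ω] [OpensMeasurableSpace Ω] [Fintype ι] (μ : Measure Ω) [IsFiniteMeasure μ]
    (u : ι → Ω → ℂ) (hu : ∀ i, Continuous (u i))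
    (hpos : ∀ k : ι → ℕ, 0 ≤ ∫ ω, ∏ i, u i ω ^ k i ∂μ) (c : ι → ℂ) (d : ι → ℝ)
    (hcd : ∀ i, ‖c i‖ ≤ d i) :
    ‖∫ ω, Complex.exp (∑ i, c i * u i ω) ∂μ‖ ≤ (∫ ω, Complex.exp (∑ i, d i * u i ω) ∂μ).re := by
  have h1 := pos_hasSum μ (F := fun ω => ∑ i, c i * u i ω) (by fun_prop)
  have h2 := Complex.hasSum_re (pos_hasSum μ (F := fun ω => ∑ i, d i * u i ω) (by fun_prop))
  refine h1.norm_le_of_bounded h2 fun n => ?_
  have h3 := pos_pow μ u hu hpos c d hcd n 0
  simp only [Pi.zero_apply, pow_zero, Finset.prod_const_one, mul_one] at h3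
  rw [integral_div, integral_div, norm_div, Complex.div_natCast_re, Complex.norm_natCast]
  exact div_le_div_of_nonneg_right h3 (Nat.cast_nonneg _)

/-- real version (`integral_ofReal`) -/
theorem integral_exp_le {Ω ι : Type*} [TopologicalSpace Ω] [CompactSpace Ω]
    [MeasurableSpace Ω] [OpensMeasurableSpace Ω] [Fintype ι] (μ : Measure Ω) [IsFiniteMeasure μ]
    (u : ι → Ω → ℝ) (hu : ∀ i, Continuous (u i))
    (hpos : ∀ k : ι → ℕ, 0 ≤ ∫ ω, ∏ i, u i ω ^ k i ∂μ) (c d : ι → ℝ) (hcd : ∀ i, |c i| ≤ d i) :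
    ∫ ω, Real.exp (∑ i, c i * u i ω) ∂μ ≤ ∫ ω, Real.exp (∑ i, d i * u i ω) ∂μ := by
  have h := norm_integral_exp_le μ (fun i ω => (u i ω : ℂ)) (fun i => by fun_prop) (fun k => by
    have : ∫ ω, ∏ i, (u i ω : ℂ) ^ k i ∂μ = ((∫ ω, ∏ i, u i ω ^ k i ∂μ : ℝ) : ℂ) := by
      rw [← integral_complex_ofReal]
      simp
    rw [this]
    exact Complex.zero_le_real.2 (hpos k)) (fun i => (c i : ℂ)) d (fun i => by simpa using hcd i)
  have e : ∀ a : ι → ℝ, ∫ ω, Complex.exp (∑ i, (a i : ℂ) * (u i ω : ℂ)) ∂μ =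
      ((∫ ω, Real.exp (∑ i, a i * u i ω) ∂μ : ℝ) : ℂ) := by
    intro a
    rw [← integral_complex_ofReal]
    simp
  rw [e c, e d, Complex.ofReal_re, Complex.norm_real] at h
  exact (le_abs_self _).trans h

/-- finite version (discrete topology, `Measure.count`, `integral_count`) -/
theorem sum_exp_le {Ω ι : Type*} [Fintype Ω] [Fintype ι] (u : ι → Ω → ℝ)
    (hpos : ∀ k : ι → ℕ, 0 ≤ ∑ ω, ∏ i, u i ω ^ k i) (c d : ι → ℝ) (hcd : ∀ i, |c i| ≤ d i) :
    ∑ ω, Real.exp (∑ i, c i * u i ω) ≤ ∑ ω, Real.exp (∑ i, d i * u i ω) := by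
  let : TopologicalSpace Ω := ⊥
  have : DiscreteTopology Ω := ⟨rfl⟩
  let : MeasurableSpace Ω := ⊤
  have h := integral_exp_le (Measure.count : Measure Ω) u (fun i => continuous_of_discreteTopology)
    (fun k => by rw [integral_count]; exact hpos k) c d hcd
  rwa [integral_count, integral_count] at h

theorem pos_ennreal {a b c d : ENNReal} (h1 : a ≤ c) (h2 : b ≤ c) (h3 : a * b ≤ c * d) :
    a + b ≤ c + d := by
  by_cases hc : c = ⊤
  · simp [hc]
  by_cases hd : d = ⊤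
  · simp [hd]
  lift c to NNReal using hc
  lift d to NNReal using hd
  lift a to NNReal using ne_top_of_le_ne_top ENNReal.coe_ne_top h1
  lift b to NNReal using ne_top_of_le_ne_top ENNReal.coe_ne_top h2
  norm_cast at h1 h2 h3 ⊢
  rw [← NNReal.coe_le_coe] at h1 h2 h3 ⊢
  push_cast at h3 ⊢
  have ha := a.2
  have hb := b.2
  have hd := d.2
  rcases eq_or_lt_of_le c.2 with h0 | h0
  · change (0 : ℝ) = c at h0
    change (0 : ℝ) ≤ d at hd
    linarith
  · change (0 : ℝ) < c at h0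
    have : (c : ℝ) * (a + b) ≤ c * (c + d) := by
      nlinarith [mul_nonneg (sub_nonneg.2 h1) (sub_nonneg.2 h2)]
    exact le_of_mul_le_mul_left this h0

theorem pos_one_dim {T : Type*} [MeasurableSpace T] [LinearOrder T] (μ : Measure T) [SFinite μ]
    {g₁ g₂ g₃ g₄ : T → ENNReal} (m₁ : Measurable g₁) (m₂ : Measurable g₂) (m₃ : Measurable g₃)
    (m₄ : Measurable g₄) (h : ∀ t t', g₁ t * g₂ t' ≤ g₃ (t ⊓ t') * g₄ (t ⊔ t')) :
    (∫⁻ t, g₁ t ∂μ) * ∫⁻ t, g₂ t ∂μ ≤ (∫⁻ t, g₃ t ∂μ) * ∫⁻ t, g₄ t ∂μ := by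
  have e : ∀ {f g : T → ENNReal}, Measurable f → Measurable g →
      (∫⁻ t, f t ∂μ) * (∫⁻ t, g t ∂μ) + (∫⁻ t, f t ∂μ) * (∫⁻ t, g t ∂μ) =
        ∫⁻ p, (f p.1 * g p.2 + g p.1 * f p.2) ∂μ.prod μ := by
    intro f g hf hg
    rw [lintegral_add_left (by fun_prop), lintegral_prod_mul hf.aemeasurable hg.aemeasurable,
      lintegral_prod_mul hg.aemeasurable hf.aemeasurable, mul_comm (∫⁻ t, g t ∂μ)]
  have key : ∀ t t', t ≤ t' → g₁ t * g₂ t' + g₂ t * g₁ t' ≤ g₃ t * g₄ t' + g₄ t * g₃ t' := by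
    intro t t' htt
    have q1 := h t t'
    have q2 := h t' t
    have q3 := h t t
    have q4 := h t' t'
    rw [inf_eq_left.2 htt, sup_eq_right.2 htt] at q1
    rw [inf_eq_right.2 htt, sup_eq_left.2 htt] at q2
    rw [inf_idem, sup_idem] at q3 q4
    refine pos_ennreal q1 (by rwa [mul_comm]) ?_
    calc g₁ t * g₂ t' * (g₂ t * g₁ t') = (g₁ t * g₂ t) * (g₁ t' * g₂ t') := by ring
      _ ≤ (g₃ t * g₄ t) * (g₃ t' * g₄ t') := mul_le_mul' q3 q4
      _ = _ := by ring
  by_contra hn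
  have h1 := ENNReal.add_lt_add (not_le.1 hn) (not_le.1 hn)
  rw [e m₁ m₂, e m₃ m₄] at h1
  refine absurd (lintegral_mono fun p => ?_) (not_le.2 h1)
  rcases le_total p.1 p.2 with q | q
  · exact key _ _ q
  · have := key _ _ q
    calc g₁ p.1 * g₂ p.2 + g₂ p.1 * g₁ p.2 = g₁ p.2 * g₂ p.1 + g₂ p.2 * g₁ p.1 := by ring
      _ ≤ _ := this
      _ = _ := by ring

/-- The four functions theorem on a cube.  Proof: pass to `ENNReal.ofReal` and `lintegral`
(`ofReal_integral_eq_lintegral_ofReal`) and prove, by induction on `s : Finset V` (`lmarginal_insert`),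
`(∫⋯∫⁻_s, f₁) x * (∫⋯∫⁻_s, f₂) y ≤ (∫⋯∫⁻_s, f₃) (x ⊓ y) * (∫⋯∫⁻_s, f₄) (x ⊔ y)`.  One-dimensional step:
symmetrise the double integral; for `t ≤ t'` put `a = g₁ t g₂ t'`, `b = g₁ t' g₂ t`, `c = g₃ t g₄ t'`,
`d = g₃ t' g₄ t`: then `a, b ≤ c` and `a b ≤ c d`, so `a + b ≤ c + d` (from `(c - a) (c - b) ≥ 0`).
(Alternatively stay with real continuous functions and integrate one coordinate at a time.) -/
theorem four_functions {V : Type} [Fintype V] [DecidableEq V] (μ : Measure unitInterval)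
    [IsProbabilityMeasure μ] {f₁ f₂ f₃ f₄ : (V → unitInterval) → ℝ} (c₁ : Continuous f₁)
    (c₂ : Continuous f₂) (c₃ : Continuous f₃) (c₄ : Continuous f₄) (h₁ : ∀ x, 0 ≤ f₁ x)
    (h₂ : ∀ x, 0 ≤ f₂ x) (h₃ : ∀ x, 0 ≤ f₃ x) (h₄ : ∀ x, 0 ≤ f₄ x)
    (h : ∀ x y, f₁ x * f₂ y ≤ f₃ (x ⊓ y) * f₄ (x ⊔ y)) :
    (∫ x, f₁ x ∂Measure.pi fun _ => μ) * (∫ x, f₂ x ∂Measure.pi fun _ => μ) ≤
      (∫ x, f₃ x ∂Measure.pi fun _ => μ) * ∫ x, f₄ x ∂Measure.pi fun _ => μ := by
  have m : ∀ {f : (V → unitInterval) → ℝ}, Continuous f →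
      Measurable fun x => ENNReal.ofReal (f x) := fun hf => hf.measurable.ennreal_ofReal
  have main : ∀ (s : Finset V) (x y : V → unitInterval),
      (∫⋯∫⁻_s, (fun x => ENNReal.ofReal (f₁ x)) ∂fun _ => μ) x *
        (∫⋯∫⁻_s, (fun x => ENNReal.ofReal (f₂ x)) ∂fun _ => μ) y ≤
      (∫⋯∫⁻_s, (fun x => ENNReal.ofReal (f₃ x)) ∂fun _ => μ) (x ⊓ y) *
        (∫⋯∫⁻_s, (fun x => ENNReal.ofReal (f₄ x)) ∂fun _ => μ) (x ⊔ y) := by
    intro s
    induction s using Finset.induction_on with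
    | empty =>
      intro x y
      simp only [lmarginal_empty]
      rw [← ENNReal.ofReal_mul (h₁ x), ← ENNReal.ofReal_mul (h₃ _)]
      exact ENNReal.ofReal_le_ofReal (h x y)
    | insert i s hi ih =>
      intro x y
      rw [lmarginal_insert _ (m c₁) hi, lmarginal_insert _ (m c₂) hi, lmarginal_insert _ (m c₃) hi,
        lmarginal_insert _ (m c₄) hi]
      refine pos_one_dim μ (((m c₁).lmarginal _).comp (measurable_update x))
        (((m c₂).lmarginal _).comp (measurable_update y))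
        (((m c₃).lmarginal _).comp (measurable_update _))
        (((m c₄).lmarginal _).comp (measurable_update _)) fun t t' => ?_
      have e1 : Function.update (x ⊓ y) i (t ⊓ t') =
          Function.update x i t ⊓ Function.update y i t' := by
        funext j
        by_cases hj : j = i
        · subst hj; simp
        · simp [hj]
      have e2 : Function.update (x ⊔ y) i (t ⊔ t') =
          Function.update x i t ⊔ Function.update y i t' := by
        funext j
        by_cases hj : j = i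
        · subst hj; simp
        · simp [hj]
      rw [e1, e2]
      exact ih _ _
  have key := main Finset.univ 0 0
  simp only [← lintegral_eq_lmarginal_univ] at key
  have e : ∀ {f : (V → unitInterval) → ℝ}, Continuous f → (∀ x, 0 ≤ f x) →
      ∫⁻ x, ENNReal.ofReal (f x) ∂Measure.pi (fun _ => μ) =
        ENNReal.ofReal (∫ x, f x ∂Measure.pi fun _ => μ) := fun hf h0 =>
    (ofReal_integral_eq_lintegral_ofReal (integrable_cont _ hf) (ae_of_all _ h0)).symm
  rw [e c₁ h₁, e c₂ h₂, e c₃ h₃, e c₄ h₄, ← ENNReal.ofReal_mul (integral_nonneg h₁),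
    ← ENNReal.ofReal_mul (integral_nonneg h₃)] at key
  exact (ENNReal.ofReal_le_ofReal_iff (mul_nonneg (integral_nonneg h₃) (integral_nonneg h₄))).1 key

end Crest.Agent.R167
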