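import Crest.Agent.R167.Dia

/-!
# rid 167, task Taylor: second order expansion of the twist, positivity of the stiffness
-/

set_option autoImplicit false
set_option linter.unusedSectionVars false

noncomputable section

namespace Crest.Agent.R167

open MeasureTheory Finset

variable {V E : Type} [Fintype V] [DecidableEq V] [Fintype E] [DecidableEq E]

theorem taylor_trig {x p j : ℝ} (hx : |x| ≤ 1) (hp : |p| ≤ 1) (hj : |j| ≤ 1) :
    |(Real.cos x - 1) * p + Real.sin x * j - (x * j - x * x * p / 2)| ≤ |x| ^ 3 := by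
  have h1 := Real.cos_bound hx
  have h2 := Real.sin_bound hx
  have h3 : |x| ^ 4 ≤ |x| ^ 3 := pow_le_pow_of_le_one (abs_nonneg _) hx (by norm_num)
  have h4 : |Real.sin x - x| ≤ |x| ^ 4 * (5 / 96) + |x| ^ 3 / 6 := by
    have := abs_add_le (Real.sin x - (x - x ^ 3 / 6)) (-(x ^ 3 / 6))
    rw [abs_neg, abs_div, abs_pow, abs_of_pos (by norm_num : (0 : ℝ) < 6),
      show Real.sin x - (x - x ^ 3 / 6) + -(x ^ 3 / 6) = Real.sin x - x by ring] at this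
    have h5 : |x| ^ 5 ≤ |x| ^ 4 := pow_le_pow_of_le_one (abs_nonneg _) hx (by norm_num)
    have h6 : 0 ≤ |x| ^ 4 := by positivity
    linarith
  rw [show (Real.cos x - 1) * p + Real.sin x * j - (x * j - x * x * p / 2) =
    (Real.cos x - (1 - x ^ 2 / 2)) * p + (Real.sin x - x) * j by ring]
  refine (abs_add_le _ _).trans ?_
  rw [abs_mul, abs_mul]
  have h5 := mul_le_mul h1 hp (abs_nonneg _) (by positivity)
  have h6 := mul_le_mul h4 hj (abs_nonneg _) (by positivity)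
  have h7 : 0 ≤ |x| ^ 3 := by positivity
  linarith

theorem taylor_exp {T X K ρ : ℝ} (hρ : ρ ≤ 1 / 4) (hX : |X| ≤ ρ) (hK : |K| ≤ ρ ^ 2)
    (hT : |T - (X - K / 2)| ≤ ρ ^ 3) : 1 + X - K / 2 + X ^ 2 / 2 - 10 * ρ ^ 3 ≤ Real.exp T := by
  have h0 : 0 ≤ ρ := (abs_nonneg _).trans hX
  have e1 : ρ ^ 2 ≤ ρ / 4 := by nlinarith
  have e2 : ρ ^ 3 ≤ ρ ^ 2 / 4 := by nlinarith [sq_nonneg ρ]
  obtain ⟨x1, x2⟩ := abs_le.1 hX
  obtain ⟨k1, k2⟩ := abs_le.1 hK
  obtain ⟨t1, t2⟩ := abs_le.1 hT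
  have h1 : |T| ≤ 2 * ρ := abs_le.2 ⟨by linarith, by linarith⟩
  have h2 : |T - X| ≤ ρ ^ 2 := abs_le.2 ⟨by linarith, by linarith⟩
  have h3 := (abs_le.1 (Real.exp_bound (x := T) (h1.trans (by linarith)) (n := 3) (by norm_num))).1
  simp only [Finset.sum_range_succ, Finset.sum_range_zero, Nat.factorial] at h3
  norm_num at h3
  have h4 : |T| ^ 3 ≤ (2 * ρ) ^ 3 := pow_le_pow_left₀ (abs_nonneg _) h1 3
  have h5 := (abs_le.1 ((abs_mul X (T - X)).le.trans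
    (mul_le_mul hX h2 (abs_nonneg _) h0))).1
  have h6 : 0 ≤ ρ ^ 3 := by positivity
  nlinarith [sq_nonneg (T - X)]

theorem taylor_log {P m₁ m₂ k ρ : ℝ} (hρ : ρ ≤ 1 / 10) (h1 : |m₁| ≤ ρ) (h2 : |m₂| ≤ ρ ^ 2)
    (h3 : |k| ≤ ρ ^ 2) (hP : 1 + m₁ - k / 2 + m₂ / 2 - 10 * ρ ^ 3 ≤ P) :
    m₁ - k / 2 + (m₂ - m₁ * m₁) / 2 - 100 * ρ ^ 3 ≤ Real.log P := by
  have h0 : 0 ≤ ρ := (abs_nonneg _).trans h1
  have e1 : ρ ^ 2 ≤ ρ / 10 := by nlinarith
  have e2 : ρ ^ 3 ≤ ρ ^ 2 / 10 := by nlinarith [sq_nonneg ρ]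
  have e3 : 0 ≤ ρ ^ 3 := by positivity
  obtain ⟨a1, a2⟩ := abs_le.1 h1
  obtain ⟨b1, b2⟩ := abs_le.1 h2
  obtain ⟨c1, c2⟩ := abs_le.1 h3
  obtain ⟨y, hy⟩ : ∃ y, y = m₁ - k / 2 + m₂ / 2 - 10 * ρ ^ 3 := ⟨_, rfl⟩
  have y1 : |y| ≤ 2 * ρ := abs_le.2 ⟨by linarith, by linarith⟩
  have y2 : |y - m₁| ≤ 2 * ρ ^ 2 := abs_le.2 ⟨by linarith, by linarith⟩
  have y3 : |y + m₁| ≤ 3 * ρ := abs_le.2 ⟨by linarith, by linarith⟩
  have y4 := (abs_le.1 ((abs_mul (y - m₁) (y + m₁)).le.trans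
    (mul_le_mul y2 y3 (abs_nonneg _) (by positivity)))).2
  have y5 : |-y| < 1 := by rw [abs_neg]; linarith
  have h4 := (abs_le.1 (Real.abs_log_sub_add_sum_range_le y5 2)).1
  simp only [Finset.sum_range_succ, Finset.sum_range_zero, abs_neg, sub_neg_eq_add] at h4
  norm_num at h4
  have h5 : |y| ^ 3 / (1 - |y|) ≤ 2 * (2 * ρ) ^ 3 := by
    rw [div_le_iff₀ (by linarith)]
    have := pow_le_pow_left₀ (abs_nonneg _) y1 3
    nlinarith
  have h6 : Real.log (1 + y) ≤ Real.log P :=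
    Real.log_le_log (by linarith [(abs_le.1 y1).1]) (by linarith)
  nlinarith

open Filter Topology in
theorem taylor_lim {a b C t₀ : ℝ} (ht : 0 < t₀)
    (h : ∀ t, |t| ≤ t₀ → t * a + t ^ 2 * b ≤ C * |t| ^ 3) : a = 0 ∧ b ≤ 0 := by
  have key : ∀ a' : ℝ, (∀ t, 0 < t → t ≤ t₀ → t * a' + t ^ 2 * b ≤ C * t ^ 3) → a' ≤ 0 := by
    intro a' h'
    have h1 : Tendsto (fun t : ℝ => C * t ^ 2 - t * b) (𝓝[>] 0) (𝓝 0) := by
      have : Continuous fun t : ℝ => C * t ^ 2 - t * b := by fun_prop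
      simpa using (this.tendsto 0).mono_left nhdsWithin_le_nhds
    refine ge_of_tendsto h1 ?_
    filter_upwards [Ioc_mem_nhdsGT ht] with t ht'
    refine le_of_mul_le_mul_left ?_ ht'.1
    linarith [h' t ht'.1 ht'.2]
  have h1 : ∀ t, 0 < t → t ≤ t₀ → t * a + t ^ 2 * b ≤ C * t ^ 3 := fun t h0 h1 => by
    simpa only [abs_of_pos h0] using h t (by rwa [abs_of_pos h0])
  have h2 : ∀ t, 0 < t → t ≤ t₀ → t * -a + t ^ 2 * b ≤ C * t ^ 3 := fun t h0 h1 => by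
    have := h (-t) (by rwa [abs_neg, abs_of_pos h0])
    rw [abs_neg, abs_of_pos h0] at this
    linarith
  have ha : a = 0 := le_antisymm (key a h1) (by linarith [key (-a) h2])
  refine ⟨ha, ?_⟩
  have h3 : Tendsto (fun t : ℝ => C * t) (𝓝[>] 0) (𝓝 0) := by
    have : Continuous fun t : ℝ => C * t := by fun_prop
    simpa using (this.tendsto 0).mono_left nhdsWithin_le_nhds
  refine ge_of_tendsto h3 ?_
  filter_upwards [Ioc_mem_nhdsGT ht] with t ht'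
  refine le_of_mul_le_mul_left ?_ (pow_pos ht'.1 2)
  have := h1 t ht'.1 ht'.2
  rw [ha] at this
  linarith

theorem taylor_expF_sum {ι : Type*} (s : Finset ι) (F : ι → Fn V) :
    expF (∑ i ∈ s, F i) = ∏ i ∈ s, expF (F i) := by
  classical
  induction s using Finset.induction_on with
  | empty => simp
  | insert i s hi ih => rw [Finset.sum_insert hi, Finset.prod_insert hi, expF_add, ih]

namespace Mod

variable (M : Mod V E) {Λ U : Finset V}

theorem taylor_nonneg {h : E → ℝ} {ρ : ℝ} (h2 : ∑ e, M.b e * |h e| ≤ ρ) : 0 ≤ ρ :=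
  (Finset.sum_nonneg fun e _ => mul_nonneg (M.hb e) (abs_nonneg _)).trans h2

theorem taylor_en (a : Fin 3) {h : E → ℝ} {ρ : ℝ} (h1 : ∀ e, |h e| ≤ ρ)
    (h2 : ∑ e, M.b e * |h e| ≤ ρ) (σ : Cfg V) : |M.en a h h σ| ≤ ρ ^ 2 := by
  refine (M.abs_en_le a h σ).trans ?_
  calc M.A h ≤ ∑ e, ρ * (M.b e * |h e|) := Finset.sum_le_sum fun e _ => by
        have := mul_le_mul_of_nonneg_right (h1 e) (mul_nonneg (M.hb e) (abs_nonneg (h e)))
        rw [← sq_abs]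
        linarith
    _ = ρ * ∑ e, M.b e * |h e| := by rw [Finset.mul_sum]
    _ ≤ ρ * ρ := mul_le_mul_of_nonneg_left h2 (M.taylor_nonneg h2)
    _ = _ := (sq ρ).symm

/-- `Real.cos_bound`, `Real.sin_bound` (or `Real.sin_gt_sub_cube`), `abs_P_le`, `abs_J_le`. -/
theorem abs_tw_sub_le (a : Fin 3) {h : E → ℝ} {ρ : ℝ} (hρ : ρ ≤ 1) (h1 : ∀ e, |h e| ≤ ρ)
    (h2 : ∑ e, M.b e * |h e| ≤ ρ) (σ : Cfg V) :
    |M.tw a h σ - (M.cur a h σ - M.en a h h σ / 2)| ≤ ρ ^ 3 := by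
  have e1 : M.tw a h σ - (M.cur a h σ - M.en a h h σ / 2) = ∑ e, M.b e *
      ((Real.cos (h e) - 1) * M.P a e σ + Real.sin (h e) * M.J a e σ -
        (h e * M.J a e σ - h e * h e * M.P a e σ / 2)) := by
    simp only [tw, cur, en, ContinuousMap.sum_apply, ContinuousMap.smul_apply,
      ContinuousMap.add_apply, smul_eq_mul, Finset.sum_div, ← Finset.sum_sub_distrib]
    exact Finset.sum_congr rfl fun e _ => by ring
  have h0 := M.taylor_nonneg h2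
  rw [e1]
  refine (Finset.abs_sum_le_sum_abs _ _).trans ?_
  calc _ ≤ ∑ e, ρ ^ 2 * (M.b e * |h e|) := Finset.sum_le_sum fun e _ => by
        rw [abs_mul, abs_of_nonneg (M.hb e)]
        have f1 := taylor_trig ((h1 e).trans hρ) (M.abs_P_le a e σ) (M.abs_J_le a e σ)
        have f2 : |h e| ^ 3 ≤ ρ ^ 2 * |h e| := by
          rw [pow_succ]
          exact mul_le_mul_of_nonneg_right (pow_le_pow_left₀ (abs_nonneg _) (h1 e) 2) (abs_nonneg _)
        have := mul_le_mul_of_nonneg_left (f1.trans f2) (M.hb e)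
        linarith
    _ = ρ ^ 2 * ∑ e, M.b e * |h e| := by rw [Finset.mul_sum]
    _ ≤ ρ ^ 2 * ρ := mul_le_mul_of_nonneg_left h2 (sq_nonneg _)
    _ = _ := (pow_succ ρ 2).symm

/-- With `X = cur`, `K = en`, `T = tw`: `|X| ≤ ρ`, `|K| ≤ ρ²`, `|T| ≤ 2ρ`, and
`exp T ≥ 1 + T + T²/2 - |T|³ (2/9)` (`Real.exp_bound`).  If `E` is empty or `ρ < 0` there is nothing to
prove (`0 ≤ ρ` follows from `h2`). -/
theorem exp_tw_ge (a : Fin 3) {h : E → ℝ} {ρ : ℝ} (hρ : ρ ≤ 1 / 4) (h1 : ∀ e, |h e| ≤ ρ)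
    (h2 : ∑ e, M.b e * |h e| ≤ ρ) (σ : Cfg V) :
    1 + M.cur a h σ - M.en a h h σ / 2 + M.cur a h σ ^ 2 / 2 - 10 * ρ ^ 3 ≤
      Real.exp (M.tw a h σ) :=
  taylor_exp hρ ((M.abs_cur_le a h σ).trans h2) (M.taylor_en a h1 h2 σ)
    (M.abs_tw_sub_le a (by linarith) h1 h2 σ)

theorem taylor_Pi (U : Finset V) (a : Fin 3) {h : E → ℝ} {ρ : ℝ} (hρ : ρ ≤ 1 / 4)
    (h1 : ∀ e, |h e| ≤ ρ) (h2 : ∑ e, M.b e * |h e| ≤ ρ) (ξ : Cfg V) :
    1 + M.Pi U (M.cur a h) ξ - M.Pi U (M.en a h h) ξ / 2 + M.Pi U (M.cur a h * M.cur a h) ξ / 2 -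
      10 * ρ ^ 3 ≤ M.Pi U (expF (M.tw a h)) ξ := by
  have := M.Pi_mono U (F := (1 - 10 * ρ ^ 3) • 1 + M.cur a h - (1 / 2 : ℝ) • M.en a h h +
    (1 / 2 : ℝ) • (M.cur a h * M.cur a h)) (G := expF (M.tw a h)) (fun σ => by
      have := M.exp_tw_ge a hρ h1 h2 σ
      simp only [ContinuousMap.add_apply, ContinuousMap.sub_apply, ContinuousMap.smul_apply,
        ContinuousMap.mul_apply, ContinuousMap.one_apply, smul_eq_mul, expF_apply]
      linarith) ξ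
  simp only [map_add, map_sub, map_smul, M.Pi_one, ContinuousMap.add_apply,
    ContinuousMap.sub_apply, ContinuousMap.smul_apply, ContinuousMap.one_apply,
    smul_eq_mul] at this
  linarith

theorem taylor_cur (Λ : Finset V) (a : Fin 3) (h : E → ℝ) : M.Ex Λ (M.cur a h) = 0 ∧
    (M.Ex Λ (M.cur a h * M.cur a h) - M.Ex Λ (M.en a h h)) / 2 ≤ 0 := by
  have s1 : 0 ≤ ∑ e, |h e| := Finset.sum_nonneg fun _ _ => abs_nonneg _
  have s2 : 0 ≤ ∑ e, M.b e * |h e| := M.taylor_nonneg le_rfl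
  obtain ⟨m, hm⟩ : ∃ m, m = 1 + ∑ e, |h e| + ∑ e, M.b e * |h e| := ⟨_, rfl⟩
  have hm0 : 0 < m := by linarith
  refine taylor_lim (t₀ := 1 / (4 * m)) (C := 10 * m ^ 3) (by positivity) fun t ht => ?_
  have h0 : |t| * m ≤ 1 / 4 := by
    rw [le_div_iff₀ (by positivity)] at ht
    linarith
  have h1 := (M.taylor_Pi Λ a (h := t • h) h0 (fun e => by
      rw [Pi.smul_apply, smul_eq_mul, abs_mul]
      have := Finset.single_le_sum (f := fun e => |h e|) (fun _ _ => abs_nonneg _) (mem_univ e)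
      gcongr
      linarith) (by
      simp only [Pi.smul_apply, smul_eq_mul, abs_mul, mul_left_comm (M.b _), ← Finset.mul_sum]
      gcongr
      linarith) fun _ => pole 1).trans (M.Ex_exp_tw_le Λ a (t • h))
  rw [← Ex_apply, ← Ex_apply, ← Ex_apply, cur_smul, en_smul_left, en_comm, en_smul_left,
    smul_mul_smul_comm] at h1
  simp only [map_smul, smul_eq_mul] at h1
  linarith

/-- Apply `Ex_exp_tw_le` and `exp_tw_ge` to `t • h` for small `t` of both signs: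
`t E X + t² (E X² - E K) / 2 ≤ C |t|³`. -/
theorem Ex_cur (Λ : Finset V) (a : Fin 3) (h : E → ℝ) : M.Ex Λ (M.cur a h) = 0 :=
  (M.taylor_cur Λ a h).1

theorem Ex_cur_sq_le (Λ : Finset V) (a : Fin 3) (h : E → ℝ) :
    M.Ex Λ (M.cur a h * M.cur a h) ≤ M.Ex Λ (M.en a h h) := by
  linarith [(M.taylor_cur Λ a h).2]

theorem Ex_cur_sq_le_A (Λ : Finset V) (a : Fin 3) (h : E → ℝ) :
    M.Ex Λ (M.cur a h * M.cur a h) ≤ M.A h :=
  (M.Ex_cur_sq_le Λ a h).trans (M.Ex_le Λ fun σ => (le_abs_self _).trans (M.abs_en_le a h σ))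

theorem q_nonneg (hU : U ⊆ Λ) (a : Fin 3) (h : E → ℝ) : 0 ≤ M.q Λ U a h h :=
  sub_nonneg.2 ((M.Ex_fl_sq_le hU _).trans (M.Ex_cur_sq_le Λ a h))

theorem q_le_A (Λ U : Finset V) (a : Fin 3) (h : E → ℝ) : M.q Λ U a h h ≤ M.A h :=
  (sub_le_self _ (M.Ex_mul_self_nonneg Λ _)).trans
    (M.Ex_le Λ fun σ => (le_abs_self _).trans (M.abs_en_le a h σ))

/-- Cauchy–Schwarz for the nonnegative symmetric form `q` (`discrim_le_zero`). -/
theorem q_sq_le (hU : U ⊆ Λ) (a : Fin 3) (h h' : E → ℝ) :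
    M.q Λ U a h h' ^ 2 ≤ M.q Λ U a h h * M.q Λ U a h' h' := by
  have := discrim_le_zero (a := M.q Λ U a h h) (b := 2 * M.q Λ U a h h') (c := M.q Λ U a h' h')
    fun x => by
      have := M.q_nonneg hU a (x • h + h')
      simp only [q_add_left, q_add_right, q_smul_left, q_smul_right, M.q_comm Λ U a h' h] at this
      linarith
  rw [discrim] at this
  linarith

/-- from `q (h - h') ≥ 0` etc. -/
theorem q_add_three_le (hU : U ⊆ Λ) (a : Fin 3) (h₁ h₂ h₃ : E → ℝ) :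
    M.q Λ U a (h₁ + h₂ + h₃) (h₁ + h₂ + h₃) ≤
      3 * (M.q Λ U a h₁ h₁ + M.q Λ U a h₂ h₂ + M.q Λ U a h₃ h₃) := by
  have e1 := M.q_nonneg hU a (h₁ + (-1 : ℝ) • h₂)
  have e2 := M.q_nonneg hU a (h₁ + (-1 : ℝ) • h₃)
  have e3 := M.q_nonneg hU a (h₂ + (-1 : ℝ) • h₃)
  simp only [q_add_left, q_add_right, q_smul_left, q_smul_right] at e1 e2 e3 ⊢
  linarith

/-- the logarithm of a positive observable -/
def logPi (U : Finset V) (F : Fn V) : Fn V :=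
  ⟨fun ξ => Real.log (M.Pi U (expF F) ξ),
    (M.Pi U (expF F)).continuous.log fun ξ => (M.Pi_pos U (fun _ => Real.exp_pos _) ξ).ne'⟩

theorem expF_logPi (U : Finset V) (F : Fn V) : expF (M.logPi U F) = M.Pi U (expF F) := by
  ext ξ
  exact Real.exp_log (M.Pi_pos U (fun _ => Real.exp_pos _) ξ)

/-- Fix `ξ` and let `m₁ = Pi X ξ`, `m₂ = Pi X² ξ`, `k = Pi K ξ`, `y = m₁ + (m₂ - k)/2 - 10 ρ³`.  By
`exp_tw_ge`, `Pi (exp T) ξ ≥ 1 + y`; `|y| ≤ 2ρ ≤ 1/2`, `log (1 + y) ≥ y - y²/2 - 2|y|³`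
(`Real.abs_log_sub_add_sum_range_le`), `y² ≤ m₁² + C ρ³`, and `Pi (fl X * fl X) ξ = m₂ - m₁²`.
Finally apply `Ex Λ`, with `Ex_Pi` and `Ex_cur`. -/
theorem Ex_logPi_ge (hU : U ⊆ Λ) (a : Fin 3) {h : E → ℝ} {ρ : ℝ} (hρ : ρ ≤ 1 / 10)
    (h1 : ∀ e, |h e| ≤ ρ) (h2 : ∑ e, M.b e * |h e| ≤ ρ) :
    - (M.q Λ U a h h / 2 + 100 * ρ ^ 3) ≤ M.Ex Λ (M.logPi U (M.tw a h)) := by
  have h0 := M.taylor_nonneg h2
  have hX : ∀ σ, |M.cur a h σ| ≤ ρ := fun σ => (M.abs_cur_le a h σ).trans h2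
  have e1 : M.Pi U (M.fl U (M.cur a h) * M.fl U (M.cur a h)) =
      M.Pi U (M.cur a h * M.cur a h) - M.Pi U (M.cur a h) * M.Pi U (M.cur a h) := by
    have e2 : M.fl U (M.cur a h) * M.fl U (M.cur a h) = M.cur a h * M.cur a h -
        M.Pi U (M.cur a h) * M.cur a h - M.Pi U (M.cur a h) * M.fl U (M.cur a h) := by
      rw [fl]; ring
    rw [e2, map_sub, map_sub, M.Pi_mul (M.ind_Pi _ _), M.Pi_mul (M.ind_Pi _ _), Pi_fl, mul_zero,
      sub_zero]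
  have := M.Ex_mono Λ (F := M.Pi U (M.cur a h) - (1 / 2 : ℝ) • M.Pi U (M.en a h h) +
    (1 / 2 : ℝ) • M.Pi U (M.fl U (M.cur a h) * M.fl U (M.cur a h)) - (100 * ρ ^ 3) • 1)
    (G := M.logPi U (M.tw a h)) fun ξ => by
      have := taylor_log hρ (M.abs_Pi_le U hX ξ)
        (M.abs_Pi_le U (G := M.cur a h * M.cur a h) (fun σ => by
          rw [ContinuousMap.mul_apply, abs_mul, sq]
          exact mul_le_mul (hX σ) (hX σ) (abs_nonneg _) h0) ξ)
        (M.abs_Pi_le U (M.taylor_en a h1 h2) ξ) (M.taylor_Pi U a (by linarith) h1 h2 ξ)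
      rw [e1]
      simp only [ContinuousMap.add_apply, ContinuousMap.sub_apply, ContinuousMap.smul_apply,
        ContinuousMap.mul_apply, ContinuousMap.one_apply, smul_eq_mul]
      change _ ≤ Real.log _
      linarith
  simp only [map_add, map_sub, map_smul, M.Ex_Pi hU, Ex_cur, Ex_one, smul_eq_mul] at this
  rw [q]
  linarith

/-- Let `T i = tw a (res (EE i) h)`; then `tw a h = ∑ T i`.  By induction on `s ⊆ I`,
`Ex (∏_{i ∈ I} exp (T i)) = Ex (∏_{i ∈ s} Pi (W i) (exp (T i)) * ∏_{i ∈ I \ s} exp (T i))`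
(`Ex_Pi`, `Pi_mul`, `Fam.ind_Pi`, `ind_Pi`, `ind_tw`, `Fam.res_eq_zero`).  Then `expF_logPi`, Jensen
(`exp_Ex_le`) and `Ex_logPi_ge`. -/
theorem Fam.Ex_exp_tw_ge {M : Mod V E} {ι : Type} {I : Finset ι} {W : ι → Finset V}
    {EE : ι → Finset E} (hf : M.Fam Λ I W EE) (a : Fin 3) {h : E → ℝ}
    (hs : ∀ e, h e ≠ 0 → ∃ i ∈ I, e ∈ EE i) {ρ : ℝ} (hρ : ρ ≤ 1 / 10) (h1 : ∀ e, |h e| ≤ ρ)
    (h2 : ∀ i ∈ I, ∑ e, M.b e * |res (EE i) h e| ≤ ρ) :
    Real.exp (- ∑ i ∈ I, (M.q Λ (W i) a (res (EE i) h) (res (EE i) h) / 2 + 100 * ρ ^ 3)) ≤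
      M.Ex Λ (expF (M.tw a h)) := by
  classical
  have h0 : ∀ i ∈ I, ∀ e, |res (EE i) h e| ≤ ρ := fun i hi e => by
    unfold res
    split_ifs
    · exact h1 e
    · simpa using M.taylor_nonneg (h2 i hi)
  have e1 : M.tw a h = ∑ i ∈ I, M.tw a (res (EE i) h) := by
    simp only [tw]
    rw [Finset.sum_comm]
    refine Finset.sum_congr rfl fun e _ => ?_
    by_cases he : h e = 0
    · simp [res, he]
    · obtain ⟨i, hi, hei⟩ := hs e he
      rw [Finset.sum_eq_single_of_mem i hi, res, if_pos hei]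
      intro j hj hji
      simp [res, Finset.disjoint_left.1 (hf.disjE i hi j hj hji.symm) hei]
  have hind : ∀ i ∈ I, ∀ j ∈ I, i ≠ j → Ind (W i) (expF (M.tw a (res (EE j) h))) :=
    fun i hi j hj hij => (M.ind_tw (hf.res_eq_zero hi hj hij h) a).expF
  have e2 : ∀ s ⊆ I, M.Ex Λ (∏ i ∈ I, expF (M.tw a (res (EE i) h))) =
      M.Ex Λ ((∏ i ∈ s, M.Pi (W i) (expF (M.tw a (res (EE i) h)))) *
        ∏ i ∈ I \ s, expF (M.tw a (res (EE i) h))) := by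
    intro s
    induction s using Finset.induction_on with
    | empty => intro _; simp
    | insert i s hi ih =>
      intro hsI
      have hiI : i ∈ I := hsI (Finset.mem_insert_self i s)
      have hsI' : s ⊆ I := (Finset.subset_insert i s).trans hsI
      have e3 : I \ s = insert i (I \ insert i s) := by
        ext j
        simp only [Finset.mem_sdiff, Finset.mem_insert]
        by_cases hj : j = i
        · subst hj; simp [hiI, hi]
        · simp [hj]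
      have hF : Ind (W i) ((∏ j ∈ s, M.Pi (W j) (expF (M.tw a (res (EE j) h)))) *
          ∏ j ∈ I \ insert i s, expF (M.tw a (res (EE j) h))) := by
        refine (ind_prod _ fun j hj => ?_).mul (ind_prod _ fun j hj => ?_)
        · have hij : i ≠ j := fun e => hi (e ▸ hj)
          exact hf.ind_Pi hiI (hsI' hj) hij (hind i hiI j (hsI' hj) hij)
        · obtain ⟨hj1, hj2⟩ := Finset.mem_sdiff.1 hj
          exact hind i hiI j hj1 fun e => hj2 (e ▸ Finset.mem_insert_self i s)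
      rw [ih hsI', e3, Finset.prod_insert (by simp), Finset.prod_insert hi, mul_comm (expF _),
        ← mul_assoc, ← M.Ex_Pi (hf.sub i hiI), M.Pi_mul hF]
      congr 1
      ring
  rw [e1, taylor_expF_sum, e2 I le_rfl, Finset.sdiff_self, Finset.prod_empty, mul_one]
  simp only [← expF_logPi]
  rw [← taylor_expF_sum]
  refine le_trans (Real.exp_le_exp.2 ?_) (M.exp_Ex_le Λ _)
  rw [map_sum, ← Finset.sum_neg_distrib]
  exact Finset.sum_le_sum fun i hi => M.Ex_logPi_ge (hf.sub i hi) a hρ (h0 i hi) (h2 i hi)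

end Mod

end Crest.Agent.R167
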