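import Crest.Agent.R167.Deriv
import Crest.Agent.R167.Taylor

/-!
# rid 167, task RG: the abstract renormalisation step
-/

set_option autoImplicit false
set_option linter.unusedSectionVars false

noncomputable section

namespace Crest.Agent.R167

open MeasureTheory Finset

variable {V E : Type} [Fintype V] [DecidableEq V] [Fintype E] [DecidableEq E]

namespace Mod

variable {M : Mod V E} {Λ B : Finset V} {ι : Type} {I : Finset ι} {W : ι → Finset V}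
  {EE : ι → Finset E}

/-- the current conditioned on the skeleton -/
def rgY (M : Mod V E) (I : Finset ι) (W : ι → Finset V) (EE : ι → Finset E) (a : Fin 3)
    (h : E → ℝ) : Fn V := ∑ i ∈ I, M.Pi (W i) (M.cur a (res (EE i) h))

theorem Fam.ind_cur_sub (hf : M.Fam Λ I W EE) {i : ι} (hi : i ∈ I) (a : Fin 3) (h : E → ℝ) :
    Ind (W i) (M.cur a h - M.cur a (res (EE i) h)) := by
  have e : M.cur a h - M.cur a (res (EE i) h) = M.cur a (res (EE i)ᶜ h) := by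
    rw [sub_eq_iff_eq_add, ← cur_add]
    congr 1
    funext e
    by_cases he : e ∈ EE i <;> simp [res, he]
  rw [e]
  exact M.ind_cur (fun e he => if_neg (by simpa using hf.touch i hi e he)) a

theorem Fam.ind_Y (hf : M.Fam Λ I W EE) {i : ι} (hi : i ∈ I) (a : Fin 3) (h : E → ℝ) :
    Ind (W i) (M.rgY I W EE a h) := by
  refine ind_sum _ fun j hj => ?_
  by_cases hij : i = j
  · subst hij; exact M.ind_Pi _ _
  · exact hf.ind_Pi hi hj hij (M.ind_cur (hf.res_eq_zero hi hj hij h) a)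

theorem Fam.ind_fl (hf : M.Fam Λ I W EE) {i j : ι} (hi : i ∈ I) (hj : j ∈ I) (hij : i ≠ j)
    (a : Fin 3) (h : E → ℝ) : Ind (W i) (M.fl (W j) (M.cur a (res (EE j) h))) := by
  have := M.ind_cur (hf.res_eq_zero hi hj hij h) a
  exact this.sub (hf.ind_Pi hi hj hij this)

theorem en_res (M : Mod V E) (a : Fin 3) (F : Finset E) (h h' : E → ℝ) :
    M.en a (res F h) h' = M.en a (res F h') (res F h) := by
  refine Finset.sum_congr rfl fun e _ => ?_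
  by_cases he : e ∈ F <;> simp [res, he, mul_comm]

/-- pairing of an exact current with the conditioned current -/
theorem Fam.Ex_cur_mul_Y (hf : M.Fam Λ I W EE) {f : V → ℝ} (hf0 : ∀ x ∉ Λ, f x = 0) (a : Fin 3)
    (h : E → ℝ) : M.Ex Λ (M.cur a (M.d f) * M.rgY I W EE a h) =
      ∑ i ∈ I, M.q Λ (W i) a (res (EE i) (M.d f)) (res (EE i) h) := by
  rw [rgY, Finset.mul_sum, map_sum]
  refine Finset.sum_congr rfl fun i hi => ?_
  set Z := M.cur a (res (EE i) h)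
  have e1 : M.Pi (W i) Z = Z - M.fl (W i) Z := by rw [fl, sub_sub_cancel]
  have e2 : M.Ex Λ (M.cur a (M.d f) * Z) = M.Ex Λ (M.en a (res (EE i) (M.d f)) (res (EE i) h)) := by
    rw [mul_comm, M.Ex_ibp (M.hasD_cur_self f a _) hf0, map_neg, neg_neg, en_res]
  have e3 : M.Ex Λ (M.cur a (M.d f) * M.fl (W i) Z) =
      M.Ex Λ (M.fl (W i) (M.cur a (res (EE i) (M.d f))) * M.fl (W i) Z) := by
    have := M.Ex_mul_fl (hf.sub i hi) (hf.ind_cur_sub hi a (M.d f)) Z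
    rw [sub_mul, map_sub, sub_eq_zero] at this
    rw [this, M.Ex_fl_mul_fl (hf.sub i hi)]
  rw [e1, mul_sub, map_sub, e2, e3, q]

theorem Fam.en_sum (hf : M.Fam Λ I W EE) (a : Fin 3) (h : E → ℝ) :
    M.en a (∑ i ∈ I, res (EE i) h) (∑ i ∈ I, res (EE i) h) =
      ∑ i ∈ I, M.en a (res (EE i) h) (res (EE i) h) := by
  simp only [en]
  rw [Finset.sum_comm]
  refine Finset.sum_congr rfl fun e _ => ?_
  rw [← Finset.sum_smul, ← Finset.mul_sum, Finset.sum_apply, Finset.sum_mul_sum]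
  congr 2
  refine Finset.sum_congr rfl fun i hi => Finset.sum_eq_single i (fun j hj hji => ?_)
    fun h' => absurd hi h'
  by_cases he : e ∈ EE i
  · rw [res.eq_1 (EE j), if_neg (Finset.disjoint_left.1 (hf.disjE i hi j hj hji.symm) he), mul_zero]
  · rw [res.eq_1 (EE i), if_neg he, zero_mul]

/-- the law of total variance -/
theorem Fam.q_eq (hf : M.Fam Λ I W EE) (hW : ∀ i ∈ I, W i ⊆ B) (a : Fin 3) (h : E → ℝ) :
    M.q Λ B a (∑ i ∈ I, res (EE i) h) (∑ i ∈ I, res (EE i) h) =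
      ∑ i ∈ I, M.q Λ (W i) a (res (EE i) h) (res (EE i) h) -
        M.Ex Λ (M.fl B (M.rgY I W EE a h) * M.fl B (M.rgY I W EE a h)) := by
  set Y := M.rgY I W EE a h with hY
  set S := ∑ i ∈ I, M.fl (W i) (M.cur a (res (EE i) h)) with hS
  have e1 : M.cur a (∑ i ∈ I, res (EE i) h) = Y + S := by
    rw [cur_sum, hY, hS, rgY, ← Finset.sum_add_distrib]
    exact Finset.sum_congr rfl fun i _ => by rw [fl, add_sub_cancel]
  have e2 : M.fl B S = S := by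
    rw [fl, sub_eq_self, hS, map_sum]
    exact Finset.sum_eq_zero fun i hi => by rw [← M.Pi_Pi (hW i hi), Pi_fl, map_zero]
  have e3 : M.Ex Λ (M.fl B Y * S) = 0 := by
    rw [hS, Finset.mul_sum, map_sum]
    exact Finset.sum_eq_zero fun i hi => M.Ex_mul_fl (hf.sub i hi)
      ((hf.ind_Y hi a h).sub ((M.ind_Pi B Y).mono (hW i hi))) _
  have e4 : M.Ex Λ (S * S) = ∑ i ∈ I, M.Ex Λ (M.fl (W i) (M.cur a (res (EE i) h)) *
      M.fl (W i) (M.cur a (res (EE i) h))) := by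
    rw [hS, Finset.sum_mul_sum, map_sum]
    refine Finset.sum_congr rfl fun i hi => ?_
    rw [map_sum]
    exact Finset.sum_eq_single i (fun j hj hji => M.Ex_mul_fl (hf.sub j hj)
      (hf.ind_fl hj hi hji a h) _) fun h' => absurd hi h'
  have e5 : (M.fl B Y + S) * (M.fl B Y + S) =
      M.fl B Y * M.fl B Y + (M.fl B Y * S + M.fl B Y * S) + S * S := by ring
  simp only [q, Finset.sum_sub_distrib]
  rw [e1, fl_add, e2, e5, hf.en_sum, map_sum, map_add, map_add, map_add, e3, e4]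
  ring

theorem abs_Ex_le (M : Mod V E) (hB : B ⊆ Λ) {T : Fn V} (hT : M.Pi B T = 0) {C : ℝ} (hC : 0 ≤ C)
    (hTC : M.Ex Λ (T * T) ≤ C ^ 2) (Y : Fn V) {δ : ℝ} (hδ : M.Ex Λ (M.fl B Y * M.fl B Y) ≤ δ) :
    |M.Ex Λ (T * Y)| ≤ C * √δ := by
  have h0 := M.Ex_mul_self_nonneg Λ (M.fl B Y)
  rw [M.Ex_mul_eq_fl hB hT]
  refine abs_le_of_sq_le_sq ?_ (by positivity)
  rw [mul_pow, Real.sq_sqrt (h0.trans hδ)]
  exact (M.Ex_mul_sq_le Λ _ _).trans (mul_le_mul hTC hδ h0 (sq_nonneg _))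

/-- derivative of the conditioned current -/
theorem Fam.hasD_Pi (hf : M.Fam Λ I W EE) {i : ι} (hi : i ∈ I) {χ : V → ℝ} {c : Fin 3}
    {G G' : Fn V} (h : HasD χ c G G') : HasD χ c (M.Pi (W i) G)
      (M.Pi (W i) G' + (M.Pi (W i) (G * M.cur c (res (EE i) (M.d χ))) -
        M.Pi (W i) G * M.Pi (W i) (M.cur c (res (EE i) (M.d χ))))) := by
  refine (M.hasD_Pi h (W i)).congr ?_
  have hR := hf.ind_cur_sub hi c (M.d χ)
  obtain ⟨R, hR'⟩ : ∃ R, R = M.cur c (M.d χ) - M.cur c (res (EE i) (M.d χ)) := ⟨_, rfl⟩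
  rw [← hR'] at hR
  have e : M.cur c (M.d χ) = M.cur c (res (EE i) (M.d χ)) + R := by rw [hR', add_sub_cancel]
  rw [e, mul_add, map_add, map_add, map_add, mul_comm G R, M.Pi_mul hR, M.Pi_of_ind hR]
  ring

theorem comm_cur (M : Mod V E) (a : Fin 3) (F : Finset E) (χ : V → ℝ) :
    (- M.cur (a + 2 + 1) (fun e => res F (M.d χ) e * χ (M.src e)) +
        M.rem (a + 2) (a + 2 + 2) (res F (M.d χ)) (M.d χ)) -
      (M.cur (a + 1 + 2) (fun e => res F (M.d χ) e * χ (M.src e)) +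
        M.rem (a + 1) (a + 1 + 1) (res F (M.d χ)) (M.d χ)) =
      - M.cur a (res F (M.d (χ * χ))) := by
  rw [(fin3_add a).1, (fin3_add a).2.1, (fin3_add a).2.2.1, (fin3_add a).2.2.2]
  simp only [cur, rem, ← Finset.sum_neg_distrib, ← Finset.sum_add_distrib, ← Finset.sum_sub_distrib]
  refine Finset.sum_congr rfl fun e _ => ?_
  ext σ
  by_cases he : e ∈ F
  · simp [res, he, J, d]
    ring
  · simp [res, he]

theorem Ex_sq_le (M : Mod V E) {χ ψ : V → ℝ} (hχ : ∀ x ∉ Λ, χ x = 0) (hψ : ∀ x ∉ Λ, ψ x = 0)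
    {A : ℝ} (hA : 1 ≤ A) (h1 : M.A (M.d χ) ≤ A) (h2 : M.A (M.d ψ) ≤ A) (a c : Fin 3)
    {Y R : Fn V} (hY : M.Ex Λ (Y * Y) ≤ A) (hR : ∀ σ, |R σ| ≤ A) :
    M.Ex Λ ((Y + R + M.cur a (M.d ψ) * M.cur c (M.d χ)) *
      (Y + R + M.cur a (M.d ψ) * M.cur c (M.d χ))) ≤ (4 * A) ^ 2 := by
  have h3 := M.Ex_cur_d_four hχ c
  have h4 := M.Ex_cur_d_four hψ a
  have h5 : M.A (M.d χ) ^ 2 ≤ A ^ 2 := pow_le_pow_left₀ (M.A_nonneg _) h1 2
  have h6 : M.A (M.d ψ) ^ 2 ≤ A ^ 2 := pow_le_pow_left₀ (M.A_nonneg _) h2 2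
  have h7 := M.Ex_mono Λ (F := (Y + R + M.cur a (M.d ψ) * M.cur c (M.d χ)) *
      (Y + R + M.cur a (M.d ψ) * M.cur c (M.d χ)))
    (G := (3 : ℝ) • (Y * Y) + ContinuousMap.const _ (3 * A ^ 2) +
      (3 / 2 : ℝ) • (M.cur a (M.d ψ) ^ 4 + M.cur c (M.d χ) ^ 4)) fun σ => by
    have h8 : R σ ^ 2 ≤ A ^ 2 := sq_le_sq' (neg_le_of_abs_le (hR σ)) (le_of_abs_le (hR σ))
    simp only [ContinuousMap.add_apply, ContinuousMap.mul_apply, ContinuousMap.smul_apply,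
      ContinuousMap.pow_apply, ContinuousMap.const_apply, smul_eq_mul]
    generalize Y σ = y at *
    generalize R σ = r at *
    generalize M.cur a (M.d ψ) σ = u
    generalize M.cur c (M.d χ) σ = v
    nlinarith [sq_nonneg (y - r), sq_nonneg (y - u * v), sq_nonneg (r - u * v),
      sq_nonneg (u ^ 2 - v ^ 2)]
  rw [map_add, map_add, map_smul, map_smul, map_add, Ex_const, smul_eq_mul, smul_eq_mul] at h7
  nlinarith

theorem A_mul_le (M : Mod V E) (h : E → ℝ) {χ : V → ℝ} (hχ1 : ∀ x, |χ x| ≤ 1) :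
    M.A (fun e => h e * χ (M.src e)) ≤ M.A h := by
  refine Finset.sum_le_sum fun e _ => mul_le_mul_of_nonneg_left ?_ (M.hb e)
  rw [mul_pow]
  exact mul_le_of_le_one_right (sq_nonneg _) ((sq_le_one_iff_abs_le_one _).2 (hχ1 _))

/-- moving the derivative to the exact current -/
theorem abs_Ex_deriv_le (M : Mod V E) (hB : B ⊆ Λ) {χ ψ : V → ℝ} (hχ : ∀ x ∉ Λ, χ x = 0)
    (hψ : ∀ x ∉ B, ψ x = 0) {A : ℝ} (hA : 1 ≤ A) (h1 : M.A (M.d χ) ≤ A) (h2 : M.A (M.d ψ) ≤ A)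
    {a c : Fin 3} {X R : Fn V} (hX : M.Ex Λ (X * X) ≤ A) (hR : ∀ σ, |R σ| ≤ A)
    (hD : HasD χ c (M.cur a (M.d ψ)) (X + R)) {Y Y' : Fn V} (hY : HasD χ c Y Y') {δ : ℝ}
    (hδ : M.Ex Λ (M.fl B Y * M.fl B Y) ≤ δ) :
    |M.Ex Λ (M.cur a (M.d ψ) * Y')| ≤ 4 * A * √δ := by
  have hψ' : ∀ x ∉ Λ, ψ x = 0 := fun x hx => hψ x fun h => hx (hB h)
  have e1 := M.Ex_ibp (hD.mul hY) hχ
  have e2 : M.Ex Λ (M.cur a (M.d ψ) * Y') =
      - M.Ex Λ ((X + R + M.cur a (M.d ψ) * M.cur c (M.d χ)) * Y) := by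
    rw [add_mul (X + R), map_add, mul_right_comm, e1, map_add]
    ring
  rw [e2, abs_neg]
  exact M.abs_Ex_le hB (M.Pi_deriv_eq_zero hD (M.Pi_cur_d hψ a)) (by linarith)
    (M.Ex_sq_le hχ hψ' hA h1 h2 a c hX hR) Y hδ

/-- The stiffness of the big region `B` is the sum of the stiffnesses of the small regions minus a
loss `δ`, and the loss controls the forms `2 q (d (ψ χ), d χ) - q (d ψ, d (χ²))`. -/
theorem Fam.rg (hf : M.Fam Λ I W EE) (hB : B ⊆ Λ) (hW : ∀ i ∈ I, W i ⊆ B)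
    (_hE : ∀ e, M.touch B e → ∃ i ∈ I, e ∈ EE i) {χ ψ : V → ℝ} (hχ : ∀ x ∉ Λ, χ x = 0)
    (hψ : ∀ x ∉ B, ψ x = 0) (hχ1 : ∀ x, |χ x| ≤ 1) {A : ℝ} (hA : 1 ≤ A)
    (h1 : M.A (M.d χ) ≤ A) (h2 : M.A (M.d ψ) ≤ A) (h3 : M.A (M.d (ψ * χ)) ≤ A) :
    ∃ δ : ℝ, 0 ≤ δ ∧
      ∑ a, M.q Λ B a (∑ i ∈ I, res (EE i) (M.d χ)) (∑ i ∈ I, res (EE i) (M.d χ)) =
        ∑ a, ∑ i ∈ I, M.q Λ (W i) a (res (EE i) (M.d χ)) (res (EE i) (M.d χ)) - δ ∧
      ∀ a, ∑ i ∈ I, (2 * M.q Λ (W i) a (res (EE i) (M.d (ψ * χ))) (res (EE i) (M.d χ)) -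
        M.q Λ (W i) a (res (EE i) (M.d ψ)) (res (EE i) (M.d (χ * χ)))) ≤ 10 * A * √δ := by
  set Y : Fin 3 → Fn V := fun a => M.rgY I W EE a (M.d χ) with hY
  refine ⟨∑ a, M.Ex Λ (M.fl B (Y a) * M.fl B (Y a)),
    Finset.sum_nonneg fun a _ => M.Ex_mul_self_nonneg Λ _, ?_, fun a => ?_⟩
  · rw [← Finset.sum_sub_distrib]
    exact Finset.sum_congr rfl fun a _ => hf.q_eq hW a _
  set δ := ∑ a, M.Ex Λ (M.fl B (Y a) * M.fl B (Y a)) with hδ
  have hδa : ∀ a, M.Ex Λ (M.fl B (Y a) * M.fl B (Y a)) ≤ δ := fun a =>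
    Finset.single_le_sum (f := fun a => M.Ex Λ (M.fl B (Y a) * M.fl B (Y a)))
      (fun a _ => M.Ex_mul_self_nonneg Λ _) (Finset.mem_univ a)
  have hψ' : ∀ x ∉ Λ, ψ x = 0 := fun x hx => hψ x fun h => hx (hB h)
  have hψχ : ∀ x ∉ B, (ψ * χ) x = 0 := fun x hx => by simp [hψ x hx]
  have hψχ' : ∀ x ∉ Λ, (ψ * χ) x = 0 := fun x hx => by simp [hχ x hx]
  rw [Finset.sum_sub_distrib, ← Finset.mul_sum, ← hf.Ex_cur_mul_Y hψχ', ← hf.Ex_cur_mul_Y hψ']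
  have b1 : |M.Ex Λ (M.cur a (M.d (ψ * χ)) * Y a)| ≤ A * √δ :=
    M.abs_Ex_le hB (M.Pi_cur_d hψχ a) (by linarith)
      (((M.Ex_cur_d_sq hψχ' a).trans h3).trans (by nlinarith)) _ (hδa a)
  have hrem : ∀ c σ, |M.rem a c (M.d ψ) (M.d χ) σ| ≤ A := fun c σ =>
    (M.abs_rem_le a c _ _ σ).trans (by linarith)
  have hcur : ∀ c, M.Ex Λ (M.cur c (fun e => M.d ψ e * χ (M.src e)) *
      M.cur c (fun e => M.d ψ e * χ (M.src e))) ≤ A := fun c =>
    (M.Ex_cur_sq_le_A Λ c _).trans ((M.A_mul_le _ hχ1).trans h2)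
  have d1 := hasD_sum I fun i hi => hf.hasD_Pi hi (χ := χ) (c := a + 1)
    (by simpa only [(fin3_add a).2.2.2] using M.hasD_cur_two χ (a + 2) (res (EE i) (M.d χ)))
  have d2 := hasD_sum I fun i hi => hf.hasD_Pi hi (χ := χ) (c := a + 2)
    (by simpa only [(fin3_add a).1] using M.hasD_cur_one χ (a + 1) (res (EE i) (M.d χ)))
  have b2 := M.abs_Ex_deriv_le hB hχ hψ hA h1 h2 (hcur (a + 2)) (hrem (a + 1))
    (M.hasD_cur_one χ a (M.d ψ)) d1 (hδa (a + 2))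
  have b3 := M.abs_Ex_deriv_le hB hχ hψ hA h1 h2
    (X := - M.cur (a + 1) (fun e => M.d ψ e * χ (M.src e)))
    (by rw [neg_mul_neg]; exact hcur (a + 1)) (hrem (a + 2))
    (M.hasD_cur_two χ a (M.d ψ)) d2 (hδa (a + 1))
  have key := (abs_sub _ _).trans (add_le_add b2 b3)
  rw [← map_sub, ← mul_sub, ← Finset.sum_sub_distrib, Finset.sum_congr rfl
    (g := fun i => - M.Pi (W i) (M.cur a (res (EE i) (M.d (χ * χ))))) fun i _ => by
      have := M.comm_cur a (EE i) χ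
      simp only [(fin3_add a).1, (fin3_add a).2.2.2] at this
      rw [← map_neg, ← this, map_sub, mul_comm (M.cur (a + 2) _),
        mul_comm (M.Pi (W i) (M.cur (a + 2) _))]
      ring, Finset.sum_neg_distrib, mul_neg, map_neg, abs_neg] at key
  have k1 := le_of_abs_le b1
  have k2 := neg_le_of_abs_le key
  change 2 * M.Ex Λ (M.cur a (M.d (ψ * χ)) * Y a) - M.Ex Λ (M.cur a (M.d ψ) *
    ∑ i ∈ I, M.Pi (W i) (M.cur a (res (EE i) (M.d (χ * χ))))) ≤ _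
  linarith

end Mod

end Crest.Agent.R167
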