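import Mathlib

/-!
# rid 167 (exponential decay in the planar `O(n)` model): the spin space `S²`

`Sp` is the unit sphere of `ℝ³`, `nu` the normalised surface measure, `co a` the coordinates and
`rot a t` the rotation by the angle `t` about the axis `a`.
-/

set_option autoImplicit false

noncomputable section

namespace Crest.Agent.R167

open MeasureTheory

/-- the spin space -/
abbrev Sp : Type := Metric.sphere (0 : EuclideanSpace ℝ (Fin 3)) 1

/-- the normalised surface measure -/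
def nu : Measure Sp :=
  ((volume : Measure (EuclideanSpace ℝ (Fin 3))).toSphere Set.univ)⁻¹ •
    (volume : Measure (EuclideanSpace ℝ (Fin 3))).toSphere

instance : IsProbabilityMeasure nu := by
  have : NeZero (volume : Measure (EuclideanSpace ℝ (Fin 3))).toSphere :=
    ⟨Measure.toSphere_ne_zero _⟩
  unfold nu
  infer_instance

/-- the coordinates -/
def co (a : Fin 3) : C(Sp, ℝ) := ⟨fun σ => σ.1 a, by fun_prop⟩

theorem co_apply (a : Fin 3) (σ : Sp) : co a σ = σ.1 a := rfl

theorem co_sq (σ : Sp) : co 0 σ ^ 2 + co 1 σ ^ 2 + co 2 σ ^ 2 = 1 := by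
  have h := mem_sphere_zero_iff_norm.1 σ.2
  have h2 := EuclideanSpace.real_norm_sq_eq σ.1
  rw [h, Fin.sum_univ_three] at h2
  simp only [co_apply]
  linarith

theorem co_sq' (a : Fin 3) (σ : Sp) : co a σ ^ 2 + co (a + 1) σ ^ 2 + co (a + 2) σ ^ 2 = 1 := by
  have := co_sq σ
  fin_cases a
  · exact this
  · change co 1 σ ^ 2 + co 2 σ ^ 2 + co 0 σ ^ 2 = 1
    linarith
  · change co 2 σ ^ 2 + co 0 σ ^ 2 + co 1 σ ^ 2 = 1
    linarith

theorem abs_co_le (a : Fin 3) (σ : Sp) : |co a σ| ≤ 1 := by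
  have := co_sq' a σ
  rw [← sq_le_one_iff_abs_le_one]
  nlinarith [sq_nonneg (co (a + 1) σ), sq_nonneg (co (a + 2) σ)]

theorem sp_ext {σ τ : Sp} (h : ∀ a, co a σ = co a τ) : σ = τ :=
  Subtype.ext (PiLp.ext h)

/-- every index is `a`, `a + 1` or `a + 2` -/
theorem fin3_cases (a i : Fin 3) : i = a ∨ i = a + 1 ∨ i = a + 2 := by
  revert a i; decide

theorem sum_fin3 {R : Type*} [AddCommMonoid R] (a : Fin 3) (f : Fin 3 → R) :
    ∑ i, f i = f a + f (a + 1) + f (a + 2) := by
  rw [Fin.sum_univ_three]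
  fin_cases a
  · rfl
  · change _ = f 1 + f 2 + f 0
    abel
  · change _ = f 2 + f 0 + f 1
    abel

theorem sp_ext' (a : Fin 3) {σ τ : Sp} (h0 : co a σ = co a τ) (h1 : co (a + 1) σ = co (a + 1) τ)
    (h2 : co (a + 2) σ = co (a + 2) τ) : σ = τ :=
  sp_ext fun i => by rcases fin3_cases a i with rfl | rfl | rfl <;> assumption

/-- the point with given coordinates -/
def mkSp (v : Fin 3 → ℝ) (h : ∑ i, v i ^ 2 = 1) : Sp :=
  ⟨WithLp.toLp 2 v, by
    rw [mem_sphere_zero_iff_norm, ← sq_eq_sq₀ (norm_nonneg _) zero_le_one,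
      EuclideanSpace.real_norm_sq_eq, one_pow]
    exact h⟩

@[simp] theorem co_mkSp (v : Fin 3 → ℝ) (h : ∑ i, v i ^ 2 = 1) (a : Fin 3) :
    co a (mkSp v h) = v a := rfl

theorem continuous_sp {X : Type*} [TopologicalSpace X] {f : X → Sp}
    (h : ∀ a, Continuous fun x => co a (f x)) : Continuous f := by
  refine Continuous.subtype_mk (f := fun x => (f x).1) ?_ _
  exact (PiLp.continuous_toLp 2 _).comp (continuous_pi h)

theorem fin3_ne (a : Fin 3) : a + 1 ≠ a ∧ a + 2 ≠ a ∧ a + 2 ≠ a + 1 := by revert a; decide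

theorem fin3_add (a : Fin 3) : a + 1 + 1 = a + 2 ∧ a + 1 + 2 = a ∧ a + 2 + 1 = a ∧
    a + 2 + 2 = a + 1 := by revert a; decide

/-- the rotation by the angle `t` about the axis `a` -/
def rot (a : Fin 3) (t : ℝ) (σ : Sp) : Sp :=
  mkSp (fun i => if i = a then co a σ else if i = a + 1 then
      Real.cos t * co (a + 1) σ - Real.sin t * co (a + 2) σ
    else Real.sin t * co (a + 1) σ + Real.cos t * co (a + 2) σ) (by
    rw [sum_fin3 a]
    simp only [if_true, (fin3_ne a).1, (fin3_ne a).2.1, (fin3_ne a).2.2, if_false]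
    have := co_sq' a σ
    linear_combination this + (co (a + 1) σ ^ 2 + co (a + 2) σ ^ 2) * Real.sin_sq_add_cos_sq t)

@[simp] theorem co_rot_self (a : Fin 3) (t : ℝ) (σ : Sp) : co a (rot a t σ) = co a σ := by
  simp [rot]

theorem co_rot_one (a : Fin 3) (t : ℝ) (σ : Sp) :
    co (a + 1) (rot a t σ) = Real.cos t * co (a + 1) σ - Real.sin t * co (a + 2) σ := by
  simp [rot, (fin3_ne a).1]

theorem co_rot_two (a : Fin 3) (t : ℝ) (σ : Sp) :
    co (a + 2) (rot a t σ) = Real.sin t * co (a + 1) σ + Real.cos t * co (a + 2) σ := by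
  simp [rot, (fin3_ne a).2.1, (fin3_ne a).2.2]

@[simp] theorem rot_zero (a : Fin 3) (σ : Sp) : rot a 0 σ = σ :=
  sp_ext' a (by simp) (by simp [co_rot_one]) (by simp [co_rot_two])

theorem rot_add (a : Fin 3) (s t : ℝ) (σ : Sp) : rot a (s + t) σ = rot a s (rot a t σ) :=
  sp_ext' a (by simp) (by simp only [co_rot_one, co_rot_two, Real.cos_add, Real.sin_add]; ring)
    (by simp only [co_rot_one, co_rot_two, Real.cos_add, Real.sin_add]; ring)

@[fun_prop] theorem continuous_rot {X : Type*} [TopologicalSpace X] (a : Fin 3) {t : X → ℝ}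
    {σ : X → Sp} (ht : Continuous t) (hσ : Continuous σ) :
    Continuous fun x => rot a (t x) (σ x) := by
  refine continuous_sp fun i => ?_
  rcases fin3_cases a i with rfl | rfl | rfl
  · simp only [co_rot_self]; fun_prop
  · simp only [co_rot_one]; fun_prop
  · simp only [co_rot_two]; fun_prop

/-- a linear isometry acts on the unit sphere -/
def sphMap {n : ℕ} (f : EuclideanSpace ℝ (Fin n) ≃ₗᵢ[ℝ] EuclideanSpace ℝ (Fin n))
    (σ : Metric.sphere (0 : EuclideanSpace ℝ (Fin n)) 1) :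
    Metric.sphere (0 : EuclideanSpace ℝ (Fin n)) 1 :=
  ⟨f σ, by rw [mem_sphere_zero_iff_norm, f.norm_map]; exact mem_sphere_zero_iff_norm.1 σ.2⟩

theorem continuous_sphMap {n : ℕ} (f : EuclideanSpace ℝ (Fin n) ≃ₗᵢ[ℝ] EuclideanSpace ℝ (Fin n)) :
    Continuous (sphMap f) := by
  unfold sphMap
  fun_prop

theorem measurePreserving_sphMap {n : ℕ}
    (f : EuclideanSpace ℝ (Fin n) ≃ₗᵢ[ℝ] EuclideanSpace ℝ (Fin n)) :
    MeasurePreserving (sphMap f) (volume : Measure (EuclideanSpace ℝ (Fin n))).toSphere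
      (volume : Measure (EuclideanSpace ℝ (Fin n))).toSphere := by
  have hm := (continuous_sphMap f).measurable
  refine ⟨hm, Measure.ext fun s hs => ?_⟩
  rw [Measure.map_apply hm hs, Measure.toSphere_apply' _ hs, Measure.toSphere_apply' _ (hm hs)]
  congr 1
  symm
  rw [← MeasurePreserving.measure_preimage_equiv (f := f.toHomeomorph.toMeasurableEquiv)
    f.measurePreserving]
  symm
  congr 1
  ext x
  simp only [Set.mem_preimage, Set.mem_smul, Set.mem_image]
  constructor
  · rintro ⟨r, hr, _, ⟨σ, hσ, rfl⟩, rfl⟩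
    exact ⟨r, hr, _, ⟨sphMap f σ, hσ, rfl⟩, (map_smul f r σ.1).symm⟩
  · rintro ⟨r, hr, _, ⟨σ, hσ, rfl⟩, h⟩
    refine ⟨r, hr, _, ⟨sphMap f.symm σ, ?_, rfl⟩, ?_⟩
    · have : sphMap f (sphMap f.symm σ) = σ := Subtype.ext (f.apply_symm_apply _)
      rwa [this]
    · apply f.injective
      change f (r • f.symm σ.1) = f x
      rw [map_smul, f.apply_symm_apply]
      exact h

/-- the rotation as a linear map -/
def rotL (a : Fin 3) (t : ℝ) : EuclideanSpace ℝ (Fin 3) →ₗᵢ[ℝ] EuclideanSpace ℝ (Fin 3) where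
  toFun v := WithLp.toLp 2 fun i => if i = a then v a else if i = a + 1 then
      Real.cos t * v (a + 1) - Real.sin t * v (a + 2)
    else Real.sin t * v (a + 1) + Real.cos t * v (a + 2)
  map_add' v w := by
    ext i
    simp only [PiLp.add_apply]
    split_ifs <;> ring
  map_smul' c v := by
    ext i
    simp only [PiLp.smul_apply, smul_eq_mul, RingHom.id_apply]
    split_ifs <;> ring
  norm_map' v := by
    rw [← sq_eq_sq₀ (norm_nonneg _) (norm_nonneg _), EuclideanSpace.real_norm_sq_eq,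
      EuclideanSpace.real_norm_sq_eq, sum_fin3 a, sum_fin3 a]
    simp only [LinearMap.coe_mk, AddHom.coe_mk, if_true, (fin3_ne a).1, (fin3_ne a).2.1,
      (fin3_ne a).2.2, if_false]
    linear_combination (v (a + 1) ^ 2 + v (a + 2) ^ 2) * Real.sin_sq_add_cos_sq t

theorem measurePreserving_rot (a : Fin 3) (t : ℝ) : MeasurePreserving (rot a t) nu nu :=
  (measurePreserving_sphMap ((rotL a t).toLinearIsometryEquiv rfl)).smul_measure _

theorem integral_rot (a : Fin 3) (t : ℝ) {F : Type*} [NormedAddCommGroup F] [NormedSpace ℝ F]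
    {f : Sp → F} (hf : Continuous f) : ∫ σ, f (rot a t σ) ∂nu = ∫ σ, f σ ∂nu := by
  conv_rhs => rw [← (measurePreserving_rot a t).map_eq]
  rw [integral_map (measurePreserving_rot a t).measurable.aemeasurable hf.aestronglyMeasurable]

/-- a sign as a real number -/
def sg (u : ℤˣ) : ℝ := ((u : ℤ) : ℝ)

@[simp] theorem sg_one : sg 1 = 1 := by simp [sg]
@[simp] theorem sg_neg (u : ℤˣ) : sg (-u) = - sg u := by simp [sg]
theorem sg_mul (u v : ℤˣ) : sg (u * v) = sg u * sg v := by simp [sg]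
theorem sg_mul_self (u : ℤˣ) : sg u * sg u = 1 := by rw [← sg_mul, Int.units_mul_self, sg_one]
theorem sg_cases (u : ℤˣ) : sg u = 1 ∨ sg u = -1 := by
  rcases Int.units_eq_one_or u with rfl | rfl <;> simp

/-- the poles `± e₀` -/
def pole (u : ℤˣ) : Sp := mkSp ![sg u, 0, 0] (by simp [Fin.sum_univ_three, sq, sg_mul_self])

@[simp] theorem co_pole_zero (u : ℤˣ) : co 0 (pole u) = sg u := rfl
@[simp] theorem co_pole_one (u : ℤˣ) : co 1 (pole u) = 0 := rfl
@[simp] theorem co_pole_two (u : ℤˣ) : co 2 (pole u) = 0 := rfl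

theorem rot_pi_pole : rot 2 Real.pi (pole 1) = pole (-1) :=
  sp_ext' 2 (by simp) (by rw [co_rot_one]; simp) (by rw [co_rot_two]; simp)

end Crest.Agent.R167
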