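import Crest.Agent.R167.RG
import Crest.Agent.R167.Box

/-!
# rid 167, task Stiff: the stiffness tends to zero
-/

set_option autoImplicit false
set_option linter.unusedSectionVars false

noncomputable section

namespace Crest.Agent.R167

open MeasureTheory Finset

variable {V E : Type} [Fintype V] [DecidableEq V] [Fintype E] [DecidableEq E]

/-! ### one-dimensional profiles -/

/-- trapezoid of height `1`, with support `[a, b]` and slope `1 / h` -/
def stiff_tz (a b h : ℝ) (s : ℝ) : ℝ := max 0 (min h (min (s - a) (b - s))) / h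

theorem stiff_tz_abs {a b h : ℝ} (hh : 0 < h) (s : ℝ) : |stiff_tz a b h s| ≤ 1 := by
  rw [stiff_tz, abs_div, abs_of_pos hh, div_le_one hh, abs_of_nonneg (le_max_left _ _)]
  exact max_le hh.le (min_le_left _ _)

theorem stiff_tz_step {a b h : ℝ} (hh : 0 < h) (s : ℝ) :
    |stiff_tz a b h (s + 1) - stiff_tz a b h s| ≤ 1 / h := by
  rw [stiff_tz, stiff_tz, ← sub_div, abs_div, abs_of_pos hh]
  gcongr
  simp only [max_def, min_def]
  rw [abs_le]
  split_ifs <;> constructor <;> linarith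

theorem stiff_tz_zero {a b h s : ℝ} (hs : s ≤ a ∨ b ≤ s) : stiff_tz a b h s = 0 := by
  rw [stiff_tz, max_eq_left, zero_div]
  rcases hs with hs | hs
  · exact (min_le_right _ _).trans ((min_le_left _ _).trans (by linarith))
  · exact (min_le_right _ _).trans ((min_le_right _ _).trans (by linarith))

theorem stiff_tz_one {a b h s : ℝ} (hh : 0 < h) (h1 : a + h ≤ s) (h2 : s + h ≤ b) :
    stiff_tz a b h s = 1 := by
  rw [stiff_tz, min_eq_left (le_min (by linarith) (by linarith)), max_eq_right hh.le,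
    div_self hh.ne']

theorem stiff_tz_lin {a b h s : ℝ} (h1 : a ≤ s) (h2 : s ≤ a + h) (h3 : a + 2 * h ≤ b) :
    stiff_tz a b h s = (s - a) / h := by
  rw [stiff_tz, min_eq_left (by linarith : s - a ≤ b - s), min_eq_right (by linarith),
    max_eq_right (by linarith)]

theorem stiff_res_congr {F : Finset E} {h h' : E → ℝ} (H : ∀ e ∈ F, h e = h' e) :
    res F h = res F h' := by
  funext e
  unfold res
  split_ifs with he
  · exact H e he
  · rfl

theorem stiff_res_lin (F : Finset E) (c : ℝ) (h h' : E → ℝ) :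
    res F (fun e => h e + c * h' e) = res F h + c • res F h' := by
  funext e
  simp only [res, Pi.add_apply, Pi.smul_apply, smul_eq_mul]
  split_ifs <;> simp

theorem stiff_res_smul (F : Finset E) (c : ℝ) (h : E → ℝ) :
    res F (fun e => c * h e) = c • res F h := by
  funext e
  simp only [res, Pi.smul_apply, smul_eq_mul]
  split_ifs <;> simp

theorem stiff_card (n : ℕ) : ((Fintype.piFinset fun _ : Fin 2 => Ico (0 : ℤ) n).filter
    (· ∉ Fintype.piFinset fun _ : Fin 2 => Ico (1 : ℤ) (n - 1))).card ≤ 4 * n := by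
  have h1 := Finset.card_filter_add_card_filter_not
    (s := Fintype.piFinset fun _ : Fin 2 => Ico (0 : ℤ) n)
    (· ∈ Fintype.piFinset fun _ : Fin 2 => Ico (1 : ℤ) (n - 1))
  have h2 : (Fintype.piFinset fun _ : Fin 2 => Ico (0 : ℤ) n).filter
      (· ∈ Fintype.piFinset fun _ : Fin 2 => Ico (1 : ℤ) (n - 1)) =
      Fintype.piFinset fun _ : Fin 2 => Ico (1 : ℤ) (n - 1) := by
    rw [Finset.filter_mem_eq_inter, Finset.inter_eq_right]
    exact Fintype.piFinset_subset _ _ fun _ => Finset.Ico_subset_Ico (by norm_num) (by linarith)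
  rw [h2, Fintype.card_piFinset, Fintype.card_piFinset] at h1
  simp only [Int.card_Ico, Finset.prod_const, Finset.card_univ, Fintype.card_fin, sub_zero,
    Int.toNat_natCast] at h1
  rw [show ((n : ℤ) - 1 - 1).toNat = n - 2 by omega] at h1
  rcases Nat.lt_or_ge n 2 with h | h
  · interval_cases n <;> omega
  · obtain ⟨k, rfl⟩ := Nat.exists_eq_add_of_le h
    rw [Nat.add_sub_cancel_left] at h1
    nlinarith

namespace Geo

variable {M : Mod V E} {β : ℝ} (Γ : Geo M β)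

theorem stiff_A (hβ : 0 ≤ β) {z : Fin 2 → ℤ} {l : ℕ} {h : E → ℝ} {u : ℝ} (hu0 : 0 ≤ u)
    (hu : ∀ e ∈ Γ.EB z l, |h e| ≤ u) : M.A (res (Γ.EB z l) h) ≤ β * (2 * (l : ℝ) ^ 2) * u ^ 2 := by
  refine Γ.A_le hβ (z := z) (fun e he => ?_) fun e => ?_
  · by_contra h0
    exact he (if_neg h0)
  · unfold res
    split_ifs with he
    · exact hu e he
    · simpa using hu0

theorem stiff_q (hβ : 0 ≤ β) {Λ U : Finset V} (hU : U ⊆ Λ) (a : Fin 3) {z : Fin 2 → ℤ} {l : ℕ}
    {h h' : E → ℝ} {u u' : ℝ} (hu0 : 0 ≤ u) (hu0' : 0 ≤ u') (hu : ∀ e ∈ Γ.EB z l, |h e| ≤ u)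
    (hu' : ∀ e ∈ Γ.EB z l, |h' e| ≤ u') :
    |M.q Λ U a (res (Γ.EB z l) h) (res (Γ.EB z l) h')| ≤ β * (2 * (l : ℝ) ^ 2) * (u * u') := by
  refine abs_le_of_sq_le_sq ?_ (by positivity)
  refine (M.q_sq_le hU a _ _).trans ?_
  refine (mul_le_mul ((M.q_le_A _ _ _ _).trans (Γ.stiff_A hβ hu0 hu))
    ((M.q_le_A _ _ _ _).trans (Γ.stiff_A hβ hu0' hu')) (M.q_nonneg hU a _)
    (by positivity)).trans (le_of_eq ?_)
  ring

/-- both ends of an edge of a block lie in the closed block -/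
theorem stiff_ends {z : Fin 2 → ℤ} {l : ℕ} {e : E} (he : e ∈ Γ.EB z l) (k : Fin 2) :
    (z k ≤ Γ.pos (M.src e) k ∧ Γ.pos (M.src e) k ≤ z k + l) ∧
      (z k ≤ Γ.pos (M.tgt e) k ∧ Γ.pos (M.tgt e) k ≤ z k + l) := by
  have h1 := Γ.mem_EB.1 he k
  have h2 := Γ.pos_tgt e k
  omega

/-- the estimate for a boundary block -/
theorem stiff_bdry (hβ : 0 ≤ β) {Λ U : Finset V} (hU : U ⊆ Λ) (a : Fin 3) {z : Fin 2 → ℤ}
    {l : ℕ} {χ ψ : V → ℝ} {n c : ℝ} (hl : 1 ≤ l) (hn : 0 < n) (hψ : ∀ x, |ψ x| ≤ 1)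
    (hdψ : ∀ e, |M.d ψ e| ≤ 1 / l) (hdχ : ∀ e, |M.d χ e| ≤ 1 / (n * l))
    (hc : ∀ x, (∀ k, z k ≤ Γ.pos x k ∧ Γ.pos x k ≤ z k + l) → |χ x - c| ≤ 1 / n) :
    2 * M.q Λ U a (res (Γ.EB z l) (M.d χ)) (res (Γ.EB z l) (M.d χ)) ≤
      (2 * M.q Λ U a (res (Γ.EB z l) (M.d (ψ * χ))) (res (Γ.EB z l) (M.d χ)) -
        M.q Λ U a (res (Γ.EB z l) (M.d ψ)) (res (Γ.EB z l) (M.d (χ * χ)))) + 16 * β / n ^ 2 := by
  have hl0 : (0 : ℝ) < l := by exact_mod_cast hl
  have e1 : M.d (ψ * χ) = fun e => M.d (fun x => ψ x * (χ x - c)) e + c * M.d ψ e := by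
    funext e; simp only [Mod.d, Pi.mul_apply]; ring
  have e2 : M.d (χ * χ) = fun e => M.d (fun x => (χ x - c) * (χ x - c)) e + 2 * c * M.d χ e := by
    funext e; simp only [Mod.d, Pi.mul_apply]; ring
  rw [e1, e2, stiff_res_lin, stiff_res_lin, M.q_add_left, M.q_smul_left, M.q_add_right,
    M.q_smul_right]
  have b1 : ∀ e ∈ Γ.EB z l, |M.d (fun x => ψ x * (χ x - c)) e| ≤ 2 / (n * l) := by
    intro e he
    have e3 : M.d (fun x => ψ x * (χ x - c)) e =
        ψ (M.tgt e) * M.d χ e + (χ (M.src e) - c) * M.d ψ e := by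
      simp only [Mod.d]; ring
    rw [e3]
    refine (abs_add_le _ _).trans ?_
    rw [abs_mul, abs_mul]
    have f1 := mul_le_mul (hψ (M.tgt e)) (hdχ e) (abs_nonneg _) zero_le_one
    have f2 := mul_le_mul (hc _ fun k => (Γ.stiff_ends he k).1) (hdψ e) (abs_nonneg _)
      (by positivity)
    refine (add_le_add f1 f2).trans (le_of_eq ?_)
    field_simp
    norm_num
  have b2 : ∀ e ∈ Γ.EB z l, |M.d (fun x => (χ x - c) * (χ x - c)) e| ≤ 2 / n * (1 / (n * l)) := by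
    intro e he
    have e3 : M.d (fun x => (χ x - c) * (χ x - c)) e =
        ((χ (M.tgt e) - c) + (χ (M.src e) - c)) * M.d χ e := by
      simp only [Mod.d]; ring
    rw [e3, abs_mul]
    refine mul_le_mul ((abs_add_le _ _).trans ?_) (hdχ e) (abs_nonneg _) (by positivity)
    have f1 := hc _ fun k => (Γ.stiff_ends he k).1
    have f2 := hc _ fun k => (Γ.stiff_ends he k).2
    refine (add_le_add f2 f1).trans (le_of_eq ?_)
    ring
  have c1 := abs_le.1 (Γ.stiff_q hβ hU a (by positivity) (by positivity) b1 fun e _ => hdχ e)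
  have c2 := abs_le.1 (Γ.stiff_q hβ hU a (by positivity) (by positivity) (fun e _ => hdψ e) b2)
  have c3 := abs_le.1 (Γ.stiff_q hβ hU a (z := z) (l := l) (by positivity) (by positivity)
    (fun e _ => hdχ e) fun e _ => hdχ e)
  have d1 : β * (2 * (l : ℝ) ^ 2) * (2 / (n * l) * (1 / (n * l))) = 4 * (β / n ^ 2) := by
    field_simp; norm_num
  have d2 : β * (2 * (l : ℝ) ^ 2) * (1 / l * (2 / n * (1 / (n * l)))) = 4 * (β / n ^ 2) := by
    field_simp; norm_num
  have d3 : β * (2 * (l : ℝ) ^ 2) * (1 / (n * l) * (1 / (n * l))) = 2 * (β / n ^ 2) := by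
    field_simp
  rw [d1] at c1
  rw [d2] at c2
  rw [d3] at c3
  rw [mul_div_assoc]
  linarith [c1.1, c2.2, c3.2]

/-- an interior block -/
theorem stiff_int {Λ U : Finset V} (a : Fin 3) {z : Fin 2 → ℤ} {l : ℕ} {χ ψ : V → ℝ}
    (hψ : ∀ x, (∀ k, z k ≤ Γ.pos x k ∧ Γ.pos x k ≤ z k + l) → ψ x = 1) :
    2 * M.q Λ U a (res (Γ.EB z l) (M.d χ)) (res (Γ.EB z l) (M.d χ)) =
      2 * M.q Λ U a (res (Γ.EB z l) (M.d (ψ * χ))) (res (Γ.EB z l) (M.d χ)) -
        M.q Λ U a (res (Γ.EB z l) (M.d ψ)) (res (Γ.EB z l) (M.d (χ * χ))) := by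
  have e1 : res (Γ.EB z l) (M.d (ψ * χ)) = res (Γ.EB z l) (M.d χ) :=
    stiff_res_congr fun e he => by
      simp only [Mod.d, Pi.mul_apply, hψ _ fun k => (Γ.stiff_ends he k).1,
        hψ _ fun k => (Γ.stiff_ends he k).2, one_mul]
  have e2 : res (Γ.EB z l) (M.d ψ) = (0 : ℝ) • res (Γ.EB z l) (M.d ψ) := by
    rw [← stiff_res_smul]
    exact stiff_res_congr fun e he => by
      simp only [Mod.d, hψ _ fun k => (Γ.stiff_ends he k).1,
        hψ _ fun k => (Γ.stiff_ends he k).2, sub_self, mul_zero]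
  rw [e1, e2, M.q_smul_left, zero_mul, sub_zero]

/-- the profile `χ` -/
def stiff_F (z : Fin 2 → ℤ) (N : ℝ) (j k : Fin 2) (s : ℤ) : ℝ :=
  stiff_tz (if k = j then (z k : ℝ) else z k - N) (z k + 2 * N) N s

/-- the profile `ψ` -/
def stiff_P (z : Fin 2 → ℤ) (N l : ℝ) (k : Fin 2) (s : ℤ) : ℝ := stiff_tz (z k) (z k + N) l s

theorem stiff_chi_lin {z : Fin 2 → ℤ} {N : ℕ} (hN : 0 < N) (j : Fin 2) {x : V}
    (hx : ∀ k, z k ≤ Γ.pos x k ∧ Γ.pos x k ≤ z k + N) :
    ∏ k, stiff_F z N j k (Γ.pos x k) = ((Γ.pos x j : ℝ) - z j) / N := by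
  have hN' : (0 : ℝ) < N := by exact_mod_cast hN
  have h1 : ∀ k, (z k : ℝ) ≤ Γ.pos x k := fun k => by exact_mod_cast (hx k).1
  have h2 : ∀ k, (Γ.pos x k : ℝ) ≤ z k + N := fun k => by exact_mod_cast (hx k).2
  rw [Finset.prod_eq_single j]
  · rw [stiff_F, if_pos rfl, stiff_tz_lin (h1 j) (h2 j) le_rfl]
  · intro k _ hk
    rw [stiff_F, if_neg hk]
    exact stiff_tz_one hN' (by linarith [h1 k]) (by linarith [h2 k])
  · simp

theorem stiff_chi_zero {z : Fin 2 → ℤ} {N : ℕ} (j : Fin 2) {x : V}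
    (hx : x ∉ Γ.UB (fun k => z k - N) (3 * N)) : ∏ k, stiff_F z N j k (Γ.pos x k) = 0 := by
  rw [mem_UB, not_forall] at hx
  obtain ⟨k, hk⟩ := hx
  refine Finset.prod_eq_zero (Finset.mem_univ k) (stiff_tz_zero ?_)
  have hN : (0 : ℝ) ≤ N := Nat.cast_nonneg N
  rcases (by push_cast at hk; omega : Γ.pos x k ≤ z k - N ∨ z k + 2 * N ≤ Γ.pos x k) with h | h
  · left
    have h' : (Γ.pos x k : ℝ) ≤ z k - N := by exact_mod_cast h
    split_ifs <;> linarith
  · right
    exact_mod_cast h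

theorem stiff_psi_zero {z : Fin 2 → ℤ} {N : ℕ} (l : ℝ) {x : V} (hx : x ∉ Γ.UB z N) :
    ∏ k, stiff_P z N l k (Γ.pos x k) = 0 := by
  rw [mem_UB, not_forall] at hx
  obtain ⟨k, hk⟩ := hx
  refine Finset.prod_eq_zero (Finset.mem_univ k) (stiff_tz_zero ?_)
  rcases (by omega : Γ.pos x k ≤ z k ∨ z k + N ≤ Γ.pos x k) with h | h
  · left; exact_mod_cast h
  · right; exact_mod_cast h

theorem stiff_abs_prod {F : Fin 2 → ℝ} (h : ∀ k, |F k| ≤ 1) : |∏ k, F k| ≤ 1 := by
  rw [Finset.abs_prod]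
  exact Finset.prod_le_one (fun _ _ => abs_nonneg _) fun k _ => h k

theorem stiff_sum_res {z : Fin 2 → ℤ} {l n : ℕ} (hl : 1 ≤ l) (h : E → ℝ) :
    ∑ i ∈ Fintype.piFinset fun _ : Fin 2 => Ico (0 : ℤ) n,
      res (Γ.EB (fun k => z k + l * i k) l) h = res (Γ.EB z (n * l)) h := by
  funext e
  have hl0 : (0 : ℤ) < l := by exact_mod_cast hl
  rw [Finset.sum_apply]
  have e1 : ∀ i : Fin 2 → ℤ, res (Γ.EB (fun k => z k + l * i k) l) h e =
      if (fun k => (Γ.pos (M.src e) k - z k) / l) = i then h e else 0 := fun i =>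
    if_congr ((Γ.mem_EB_iff_div hl).trans funext_iff.symm) rfl rfl
  simp only [e1, Finset.sum_ite_eq]
  refine if_congr ?_ rfl rfl
  rw [Fintype.mem_piFinset, mem_EB]
  refine forall_congr' fun k => ?_
  rw [Finset.mem_Ico, Int.ediv_lt_iff_lt_mul hl0, Int.le_ediv_iff_mul_le hl0]
  push_cast
  omega

/-- One step.  Let `N = n * l`, `I = Fintype.piFinset fun _ => Ico (0 : ℤ) n`, and apply `Fam.rg` to the
family `Γ.fam z hl I`, `B = Γ.UB z N`, `A = 1 + 18 β n²`, and (with `t = pos x k - z k`)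
`χ x = ∏ k, F k t`, `F j t = max 0 (min t (2N - t)) / N`, `F k t = max 0 (min N (min (N + t) (2N - t))) / N`
for `k ≠ j`; `ψ x = ∏ k, max 0 (min l (min t (N - t))) / l`.
* `χ` vanishes outside `UB (z - N) (3N) ⊆ Λ`, `|d χ| ≤ 1/N`, so `A (d χ) ≤ 18 β` (`A_le`,
  `mem_EB_of_d_ne`, `abs_d_prod_le`); `|d ψ| ≤ 1/l`, `|d (ψ χ)| ≤ 2/l`.
* On the closed block `χ x = (pos x j - z j) / N`, so `res (EE i) (d χ) = N⁻¹ • res (EE i) (dx j)` and
  `∑ i ∈ I, res (EE i) (d χ) = N⁻¹ • res (EB z N) (dx j)` (`mem_EB_iff_div`).  Put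
  `S = ∑ a, ∑ i ∈ I, q (W i) a .. .. = (∑ i ∈ I, Q (z + l i) l j) / n²`.
* If `1 ≤ i k ≤ n - 2` for both `k` then `ψ = 1` on the closed sub-block, and the `i`-th term of
  the last sum of `Fam.rg` is `2 q_i (d χ, d χ)`.  For the at most `4 n` other `i`, let `c = l * i j / N`,
  `χ' = χ - c ∈ [0, 1/n]` on the closed sub-block; by bilinearity the term equals
  `2 q_i (d (ψ χ'), d χ) - q_i (d ψ, d (χ' χ'))`, of absolute value at most `12 β / n²` by `q_sq_le`,
  `q_le_A`, `A_le` (`|d (ψ χ')| ≤ 2/N`, `|d (χ' χ')| ≤ 2/(n N)`), and `q_i (d χ, d χ) ≤ 2 β / n²`. -/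
theorem step_rg (hβ : 0 ≤ β) {Λ : Finset V} {z : Fin 2 → ℤ} {l n : ℕ} (hl : 1 ≤ l) (hn : 1 ≤ n)
    (hf : Γ.Fits Λ z (n * l)) (j : Fin 2) {m : ℝ}
    (hm : ∀ z', Γ.Fits Λ z' l → Γ.Q Λ z' l j ≤ m) :
    ∃ S δ : ℝ, 0 ≤ δ ∧ Γ.Q Λ z (n * l) j = S - δ ∧ S ≤ m ∧
      2 * S ≤ 30 * (1 + 18 * β * (n : ℝ) ^ 2) * √δ + 192 * β / n := by
  have hl0 : (0 : ℝ) < l := by exact_mod_cast hl
  have hn1 : (1 : ℝ) ≤ n := by exact_mod_cast hn
  have hn0 : (0 : ℝ) < n := by linarith
  have hlz : (0 : ℤ) < l := by exact_mod_cast hl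
  have hN : 0 < n * l := Nat.mul_pos hn hl
  have hNr : (0 : ℝ) < (n * l : ℕ) := by exact_mod_cast hN
  have hNe : ((n * l : ℕ) : ℝ) = n * l := Nat.cast_mul n l
  set I : Finset (Fin 2 → ℤ) := Fintype.piFinset fun _ => Ico (0 : ℤ) n with hI
  have hIb : ∀ i ∈ I, ∀ k, 0 ≤ l * i k ∧ l * i k + l ≤ ((n * l : ℕ) : ℤ) := by
    intro i hi k
    have h1 := Finset.mem_Ico.1 (Fintype.mem_piFinset.1 hi k)
    have h2 := mul_le_mul_of_nonneg_left (Int.add_one_le_of_lt h1.2) hlz.le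
    push_cast
    exact ⟨mul_nonneg hlz.le h1.1, by linarith⟩
  have hW : ∀ i ∈ I, Γ.UB (fun k => z k + l * i k) l ⊆ Γ.UB z (n * l) := by
    intro i hi x hx
    rw [mem_UB] at hx ⊢
    intro k
    have := hx k
    have := hIb i hi k
    omega
  have hfit : ∀ i ∈ I, Γ.Fits Λ (fun k => z k + l * i k) l := by
    intro i hi x hx
    refine hf x fun k => ?_
    have := hx k
    beta_reduce at this
    have := hIb i hi k
    omega
  set χ : V → ℝ := fun x => ∏ k, stiff_F z (n * l : ℕ) j k (Γ.pos x k) with hχ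
  set ψ : V → ℝ := fun x => ∏ k, stiff_P z (n * l : ℕ) l k (Γ.pos x k) with hψ
  have hF1 : ∀ k t, |stiff_F z (n * l : ℕ) j k t| ≤ 1 := fun k t => stiff_tz_abs hNr _
  have hP1 : ∀ k t, |stiff_P z (n * l : ℕ) l k t| ≤ 1 := fun k t => stiff_tz_abs hl0 _
  have hχ1 : ∀ x, |χ x| ≤ 1 := fun x => stiff_abs_prod fun k => hF1 k _
  have hψ1 : ∀ x, |ψ x| ≤ 1 := fun x => stiff_abs_prod fun k => hP1 k _
  have hdχ : ∀ e, |M.d χ e| ≤ 1 / (n * l) := fun e => by
    refine Γ.abs_d_prod_le hF1 (fun k t => ?_) e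
    rw [stiff_F, stiff_F, Int.cast_add, Int.cast_one, ← hNe]
    exact stiff_tz_step hNr _
  have hdψ : ∀ e, |M.d ψ e| ≤ 1 / l := fun e => by
    refine Γ.abs_d_prod_le hP1 (fun k t => ?_) e
    rw [stiff_P, stiff_P, Int.cast_add, Int.cast_one]
    exact stiff_tz_step hl0 _
  have hdψχ : ∀ e, |M.d (ψ * χ) e| ≤ 2 / l := fun e => by
    have e3 : M.d (ψ * χ) e = ψ (M.tgt e) * M.d χ e + χ (M.src e) * M.d ψ e := by
      simp only [Mod.d, Pi.mul_apply]; ring
    rw [e3]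
    refine (abs_add_le _ _).trans ?_
    rw [abs_mul, abs_mul]
    have f1 := mul_le_mul (hψ1 (M.tgt e)) (hdχ e) (abs_nonneg _) zero_le_one
    have f2 := mul_le_mul (hχ1 (M.src e)) (hdψ e) (abs_nonneg _) zero_le_one
    have f3 : 1 / ((n : ℝ) * l) ≤ 1 / l :=
      one_div_le_one_div_of_le hl0 (le_mul_of_one_le_left hl0.le hn1)
    have f4 : (2 : ℝ) / l = 1 / l + 1 / l := by ring
    linarith
  have hχ0 : ∀ x ∉ Γ.UB (fun k => z k - (n * l : ℕ)) (3 * (n * l)), χ x = 0 := fun x hx =>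
    Γ.stiff_chi_zero j hx
  have hψ0 : ∀ x ∉ Γ.UB z (n * l), ψ x = 0 := fun x hx => Γ.stiff_psi_zero _ hx
  have hβn : β ≤ β * (n : ℝ) ^ 2 := le_mul_of_one_le_right hβ (one_le_pow₀ hn1)
  obtain ⟨δ, hδ, h1, h2⟩ := (Γ.fam z hl I fun i hi => (hW i hi).trans hf.sub).rg hf.sub hW
    (fun e he => by
      have h0 := Γ.mem_EB.1 (Γ.mem_EB_of_touch he)
      refine ⟨fun k => (Γ.pos (M.src e) k - z k) / l, Fintype.mem_piFinset.2 fun k => ?_,
        (Γ.mem_EB_iff_div hl).2 fun _ => rfl⟩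
      have := h0 k
      rw [Finset.mem_Ico, Int.ediv_lt_iff_lt_mul hlz, Int.le_ediv_iff_mul_le hlz]
      push_cast at this
      omega)
    (χ := χ) (ψ := ψ) (fun x hx => hχ0 x fun hx' => hx (hf x fun k => by
      have := Γ.mem_UB.1 hx' k
      push_cast at this ⊢
      omega)) hψ0 hχ1 (A := 1 + 18 * β * (n : ℝ) ^ 2) (le_add_of_nonneg_right (by positivity))
    (by
      refine (Γ.A_le hβ (fun e he => Γ.mem_EB_of_d_ne hχ0 he) hdχ).trans ?_
      have : β * (2 * ((3 * (n * l) : ℕ) : ℝ) ^ 2) * (1 / (n * l)) ^ 2 = 18 * β := by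
        push_cast; field_simp; ring
      linarith)
    (by
      refine (Γ.A_le hβ (fun e he => Γ.mem_EB_of_d_ne hψ0 he) hdψ).trans ?_
      have : β * (2 * ((n * l : ℕ) : ℝ) ^ 2) * (1 / l) ^ 2 = 2 * (β * (n : ℝ) ^ 2) := by
        push_cast; field_simp
      linarith)
    (by
      refine (Γ.A_le hβ (fun e he => Γ.mem_EB_of_d_ne (f := ψ * χ)
        (fun x hx => by rw [Pi.mul_apply, hψ0 x hx, zero_mul]) he) hdψχ).trans ?_
      have : β * (2 * ((n * l : ℕ) : ℝ) ^ 2) * (2 / l) ^ 2 = 8 * (β * (n : ℝ) ^ 2) := by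
        push_cast; field_simp; norm_num
      linarith)
  have hlin : ∀ e ∈ Γ.EB z (n * l), M.d χ e = ((n : ℝ) * l)⁻¹ * Γ.dx j e := by
    intro e he
    simp only [Mod.d, dx, hχ, Γ.stiff_chi_lin hN j fun k => (Γ.stiff_ends he k).1,
      Γ.stiff_chi_lin hN j fun k => (Γ.stiff_ends he k).2]
    rw [hNe]
    ring
  refine ⟨_, δ, hδ, Eq.trans ?_ h1, ?_, ?_⟩
  · rw [Γ.stiff_sum_res hl, stiff_res_congr hlin, stiff_res_smul, Q, Finset.sum_div, hNe]
    refine Finset.sum_congr rfl fun a _ => ?_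
    rw [M.q_smul_left, M.q_smul_right]
    field_simp
  · rw [Finset.sum_comm]
    have e1 : ∀ i ∈ I, ∑ a, M.q Λ (Γ.UB (fun k => z k + l * i k) l) a
        (res (Γ.EB (fun k => z k + l * i k) l) (M.d χ))
        (res (Γ.EB (fun k => z k + l * i k) l) (M.d χ)) ≤ m / (n : ℝ) ^ 2 := by
      intro i hi
      have e2 : res (Γ.EB (fun k => z k + l * i k) l) (M.d χ) =
          ((n : ℝ) * l)⁻¹ • res (Γ.EB (fun k => z k + l * i k) l) (Γ.dx j) := by
        rw [← stiff_res_smul]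
        refine stiff_res_congr fun e he => hlin e (Γ.mem_EB.2 fun k => ?_)
        have := Γ.mem_EB.1 he k
        have := hIb i hi k
        omega
      refine le_trans (le_of_eq ?_) (div_le_div_of_nonneg_right (hm _ (hfit i hi)) (sq_nonneg _))
      rw [e2, Q, Finset.sum_div, Finset.sum_div]
      refine Finset.sum_congr rfl fun a _ => ?_
      rw [M.q_smul_left, M.q_smul_right]
      field_simp
    refine (Finset.sum_le_card_nsmul _ _ _ e1).trans (le_of_eq ?_)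
    rw [hI, Fintype.card_piFinset]
    simp only [Int.card_Ico, Finset.prod_const, Finset.card_univ, Fintype.card_fin, sub_zero,
      Int.toNat_natCast, nsmul_eq_mul, Nat.cast_pow]
    field_simp
  · have e1 : ∀ a, 2 * ∑ i ∈ I, M.q Λ (Γ.UB (fun k => z k + l * i k) l) a
        (res (Γ.EB (fun k => z k + l * i k) l) (M.d χ))
        (res (Γ.EB (fun k => z k + l * i k) l) (M.d χ)) ≤
        10 * (1 + 18 * β * (n : ℝ) ^ 2) * √δ + 64 * β / n := by
      intro a
      have e2 : ∑ i ∈ I, (if i ∉ Fintype.piFinset fun _ : Fin 2 => Ico (1 : ℤ) (n - 1) then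
          16 * β / (n : ℝ) ^ 2 else 0) ≤ 64 * β / n := by
        rw [← Finset.sum_filter, Finset.sum_const, nsmul_eq_mul]
        have : (((I.filter (· ∉ Fintype.piFinset fun _ : Fin 2 => Ico (1 : ℤ) (n - 1))).card : ℕ) :
            ℝ) ≤ 4 * n := by exact_mod_cast stiff_card n
        refine (mul_le_mul_of_nonneg_right this (by positivity)).trans (le_of_eq ?_)
        field_simp; ring
      refine le_trans ?_ (add_le_add (h2 a) e2)
      rw [Finset.mul_sum, ← Finset.sum_add_distrib]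
      refine Finset.sum_le_sum fun i hi => ?_
      split_ifs with hi'
      · rw [add_zero]
        refine (Γ.stiff_int a fun x hx => Finset.prod_eq_one fun k _ => ?_).le
        have h3 := Finset.mem_Ico.1 (Fintype.mem_piFinset.1 hi' k)
        have h4 := mul_le_mul_of_nonneg_left h3.1 hlz.le
        have h5 := mul_le_mul_of_nonneg_left (Int.add_one_le_of_lt h3.2) hlz.le
        have h6 := hx k
        refine stiff_tz_one hl0 ?_ ?_
        · have : z k + l ≤ Γ.pos x k := by linarith [h6.1]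
          exact_mod_cast this
        · have : Γ.pos x k + l ≤ z k + (n * l : ℕ) := by push_cast; linarith [h6.2]
          exact_mod_cast this
      · refine Γ.stiff_bdry hβ ((hW i hi).trans hf.sub) a hl hn0 hψ1 hdψ hdχ
          (c := l * i j / (n * l)) fun x hx => ?_
        have h3 : χ x = ((Γ.pos x j : ℝ) - z j) / (n * l : ℕ) :=
          Γ.stiff_chi_lin hN j fun k => by
            have := hx k
            have := hIb i hi k
            omega
        have h4 : (z j : ℝ) + l * i j ≤ Γ.pos x j := by exact_mod_cast (hx j).1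
        have h5 : (Γ.pos x j : ℝ) ≤ z j + l * i j + l := by exact_mod_cast (hx j).2
        rw [h3, hNe, ← sub_div, abs_div, abs_of_nonneg (by linarith), abs_of_pos (by positivity),
          div_le_div_iff₀ (by positivity) hn0]
        nlinarith
    rw [Finset.mul_sum]
    refine (Finset.sum_le_card_nsmul _ _ _ fun a _ => e1 a).trans (le_of_eq ?_)
    simp only [Finset.card_univ, Fintype.card_fin, nsmul_eq_mul]
    push_cast
    ring

end Geo

/-- Take `n ≥ 1` with `192 β / n ≤ η`, `c = (η / (30 (1 + 18 β n²)))²`.  By induction on `r`, blocks of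
side `n ^ r` have `Q ≤ max η (6 β - r c)` (for `r = 0`: `q_le_A`, `A_le`, `abs_dx_le`). -/
theorem stiff {β η : ℝ} (hβ : 0 < β) (hη : 0 < η) : ∃ l : ℕ, 1 ≤ l ∧
    ∀ (V E : Type) [Fintype V] [DecidableEq V] [Fintype E] [DecidableEq E] (M : Mod V E)
      (Γ : Geo M β) (Λ : Finset V) (z : Fin 2 → ℤ) (j : Fin 2),
      Γ.Fits Λ z l → Γ.Q Λ z l j ≤ η := by
  obtain ⟨n, hn⟩ := exists_nat_gt (192 * β / η)
  have hn0 : (0 : ℝ) < n := lt_trans (by positivity) hn
  have hn1 : 1 ≤ n := by exact_mod_cast hn0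
  have hnη : 192 * β / n ≤ η := by
    rw [div_lt_iff₀ hη] at hn
    rw [div_le_iff₀ hn0]
    linarith
  set A : ℝ := 30 * (1 + 18 * β * (n : ℝ) ^ 2) with hA
  have hA0 : 0 < A := by positivity
  obtain ⟨r, hr⟩ := exists_nat_gt (6 * β / (η / A) ^ 2)
  refine ⟨n ^ r, Nat.one_le_pow _ _ hn1, fun V E _ _ _ _ M Γ Λ z j hf => ?_⟩
  have key : ∀ (r : ℕ) (z : Fin 2 → ℤ), Γ.Fits Λ z (n ^ r) →
      Γ.Q Λ z (n ^ r) j ≤ max η (6 * β - r * (η / A) ^ 2) := by
    intro r
    induction r with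
    | zero =>
      intro z _
      refine le_max_of_le_right ?_
      rw [pow_zero, Geo.Q]
      have := Finset.sum_le_card_nsmul univ _ _ fun (a : Fin 3) _ =>
        (M.q_le_A Λ (Γ.UB z 1) a _).trans
          (Γ.stiff_A hβ.le (z := z) (l := 1) zero_le_one fun e _ => Γ.abs_dx_le j e)
      simp only [Finset.card_univ, Fintype.card_fin, nsmul_eq_mul] at this
      push_cast at this ⊢
      linarith
    | succ r ih =>
      intro z hz
      rw [pow_succ'] at hz ⊢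
      obtain ⟨S, δ, h0, h1, h2, h3⟩ := Γ.step_rg hβ.le (Nat.one_le_pow _ _ hn1) hn1 hz j ih
      rcases le_or_gt S η with h | h
      · exact le_max_of_le_left (by linarith)
      · have h4 : S ≤ 6 * β - r * (η / A) ^ 2 := (le_max_iff.1 h2).resolve_left h.not_ge
        have h5 : η / A ≤ √δ := by
          rw [div_le_iff₀ hA0]
          linarith
        have h6 := Real.le_sqrt (by positivity) h0 |>.1 h5
        refine le_max_of_le_right ?_
        push_cast
        linarith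
  refine (key r z hf).trans (max_le le_rfl ?_)
  rw [div_lt_iff₀ (by positivity)] at hr
  linarith

end Crest.Agent.R167
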